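import Vale.Agent.P186.Tree

/-! The windmill argument in a tree (after the file of P186), for cells of different scales: a
family of convex cells with small overlaps and with groups of large translation length generates
a group with the Dehn shortening property. -/

namespace Vale.Agent.P089

open Vale.Agent.P186

/-- The data of a small cancellation family on a tree. -/
structure Mill (E T C : Type*) [Group E] [MulAction E T] [MulAction E C] where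
  d : T → T → ℕ
  tree : TreeMetric d
  iso : ∀ (e : E) (x y : T), d (e • x) (e • y) = d x y
  A : C → Set T
  H : C → Subgroup E
  r : C → ℕ
  g : C → ℕ
  r_eq : ∀ (e : E) c, r (e • c) = r c
  conv : ∀ c, Conv d (A c)
  ne : ∀ c, (A c).Nonempty
  A_eq : ∀ (e : E) c x, x ∈ A c → e • x ∈ A (e • c)
  H_eq : ∀ (e : E) c h, h ∈ H c → e * h * e⁻¹ ∈ H (e • c)
  H_fix : ∀ c h, h ∈ H c → h • c = c
  ovl : ∀ c c', c ≠ c' → ∀ x y, x ∈ A c → x ∈ A c' → y ∈ A c → y ∈ A c' → d x y ≤ r c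
  transl : ∀ c h, h ∈ H c → h ≠ 1 → ∀ x ∈ A c, g c ≤ d x (h • x)
  big : ∀ c, 8 * r c + 6 < g c

namespace Mill

variable {E T C : Type*} [Group E] [MulAction E T] [MulAction E C] (m : Mill E T C)

/-- The geodesic from `x` to `n • x` has a long piece in a cell which can be shortened. -/
def Short (x : T) (n : E) : Prop :=
  ∃ c p p' h, p ∈ m.A c ∧ p' ∈ m.A c ∧ h ∈ m.H c ∧
    m.d x p + m.d p p' + m.d p' (n • x) = m.d x (n • x) ∧ m.d p (h • p') ≤ 4 * m.r c + 3 ∧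
    m.g c ≤ m.d p p' + (4 * m.r c + 3)

/-- One stage of the windmill. -/
structure Stage (x0 : T) where
  W : Set T
  M : Subgroup E
  D : Set C
  x0_mem : x0 ∈ W
  conv : Conv m.d W
  W_inv : ∀ k ∈ M, ∀ x ∈ W, k • x ∈ W
  D_inv : ∀ k ∈ M, ∀ c ∈ D, k • c ∈ D
  H_le : ∀ c ∈ D, m.H c ≤ M
  small : ∀ c, c ∉ D → ∀ x y, x ∈ m.A c → x ∈ W → y ∈ m.A c → y ∈ W → m.d x y ≤ 2 * m.r c + 1
  short : ∀ n ∈ M, n ≠ 1 → m.Short x0 n

theorem btw_smul (e : E) {x z y : T} (h : Btw m.d x z y) : Btw m.d (e • x) (e • z) (e • y) := by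
  unfold P186.Btw at *
  simpa only [m.iso] using h

theorem A_fix {c : C} {h : E} (hh : h ∈ m.H c) {x : T} (hx : x ∈ m.A c) : h • x ∈ m.A c := by
  have := m.A_eq h c x hx
  rwa [m.H_fix c h hh] at this

theorem gate_smul {c : C} {h : E} (hh : h ∈ m.H c) {y a : T} (ha : Gate m.d (m.A c) y a) :
    Gate m.d (m.A c) (h • y) (h • a) := by
  refine ⟨m.A_fix hh ha.1, fun t ht => ?_⟩
  have := m.btw_smul h (ha.2 (h⁻¹ • t) (m.A_fix (inv_mem hh) ht))
  simpa using this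

variable {m} {x0 : T} (s : m.Stage x0)

/-- The unit neighbourhood of the current windmill. -/
def Stage.Wp : Set T := {x | ∃ w ∈ s.W, m.d x w ≤ 1}

/-- The new cells. -/
def Stage.Nw : Set C := {c | c ∉ s.D ∧ ∃ x ∈ m.A c, x ∈ s.Wp}

/-- The neighbourhood together with all new cells other than `c`. -/
def Stage.Uc (c : C) : Set T := {x | x ∈ s.Wp ∨ ∃ c', (c' ∈ s.Nw ∧ c' ≠ c) ∧ x ∈ m.A c'}

/-- The neighbourhood together with all new cells. -/
def Stage.U : Set T := {x | x ∈ s.Wp ∨ ∃ c', c' ∈ s.Nw ∧ x ∈ m.A c'}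

theorem Stage.W_sub {x : T} (hx : x ∈ s.W) : x ∈ s.Wp := ⟨x, hx, by rw [m.tree.self]; omega⟩

theorem Stage.conv_Wp : Conv m.d s.Wp := m.tree.conv_nbhd s.conv

theorem Stage.conv_Uc (c : C) : Conv m.d (s.Uc c) :=
  m.tree.conv_union s.conv_Wp m.A (fun c' => c' ∈ s.Nw ∧ c' ≠ c) (fun i _ => m.conv i)
    (fun _ hi => hi.1.2)

theorem Stage.conv_U : Conv m.d s.U :=
  m.tree.conv_union s.conv_Wp m.A (fun c' => c' ∈ s.Nw) (fun i _ => m.conv i)
    (fun _ hi => hi.2)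

theorem Stage.Wp_inv {k : E} (hk : k ∈ s.M) {x : T} (hx : x ∈ s.Wp) : k • x ∈ s.Wp := by
  obtain ⟨w, hw, h⟩ := hx
  exact ⟨k • w, s.W_inv k hk w hw, by rwa [m.iso]⟩

theorem Stage.Nw_inv {k : E} (hk : k ∈ s.M) {c : C} (hc : c ∈ s.Nw) : k • c ∈ s.Nw := by
  obtain ⟨h1, x, hx, hxW⟩ := hc
  refine ⟨fun h => h1 ?_, k • x, m.A_eq k c x hx, s.Wp_inv hk hxW⟩
  have := s.D_inv k⁻¹ (inv_mem hk) _ h
  simpa using this

theorem Stage.Uc_inv {k : E} (hk : k ∈ s.M) {c : C} {x : T} (hx : x ∈ s.Uc c) :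
    k • x ∈ s.Uc (k • c) := by
  rcases hx with hx | ⟨c', ⟨h1, h2⟩, hx⟩
  · exact Or.inl (s.Wp_inv hk hx)
  · exact Or.inr ⟨k • c', ⟨s.Nw_inv hk h1, fun h => h2 (smul_left_cancel k h)⟩, m.A_eq k c' x hx⟩

theorem Stage.U_inv {k : E} (hk : k ∈ s.M) {x : T} (hx : x ∈ s.U) : k • x ∈ s.U := by
  rcases hx with hx | ⟨c', h1, hx⟩
  · exact Or.inl (s.Wp_inv hk hx)
  · exact Or.inr ⟨k • c', s.Nw_inv hk h1, m.A_eq k c' x hx⟩

theorem Stage.small_Wp {c : C} (hc : c ∉ s.D) {x y : T} (hx : x ∈ m.A c) (hxW : x ∈ s.Wp)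
    (hy : y ∈ m.A c) (hyW : y ∈ s.Wp) : m.d x y ≤ 2 * m.r c + 3 := by
  by_contra hlt
  obtain ⟨a, ha, hxa⟩ := hxW
  obtain ⟨b, hb, hyb⟩ := hyW
  obtain ⟨z, hz1, hz⟩ := m.tree.geod x y 1 (by omega)
  obtain ⟨z', hz1', hz'⟩ := m.tree.geod y x 1 (by rw [m.tree.symm]; omega)
  have hzW : z ∈ s.W := m.tree.interior_mem s.conv ha hb hxa hyb hz
    (by rintro rfl; rw [m.tree.self] at hz1; omega) (by rintro rfl; omega)
  have hzW' : z' ∈ s.W := m.tree.interior_mem s.conv hb ha hyb hxa hz'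
    (by rintro rfl; rw [m.tree.self] at hz1'; omega)
    (by rintro rfl; rw [m.tree.symm] at hz1'; omega)
  have h1 := s.small c hc z z' (m.conv c x hx y hy z hz) hzW (m.conv c y hy x hx z' hz') hzW'
  have h2 := m.tree.tri x z y
  have h3 := m.tree.tri z z' y
  rw [m.tree.symm z' y] at h3
  omega

theorem Stage.close_Wp {c : C} (hc : c ∈ s.Nw) {a : T} (ha : a ∈ m.A c) (haU : a ∈ s.Uc c) :
    ∃ b ∈ m.A c, b ∈ s.Wp ∧ m.d a b ≤ m.r c := by
  rcases haU with haU | ⟨c', ⟨h1, h2⟩, hx⟩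
  · exact ⟨a, ha, haU, by rw [m.tree.self]; omega⟩
  · obtain ⟨w1, hw1, hw1W⟩ := hc.2
    obtain ⟨w2, hw2, hw2W⟩ := h1.2
    obtain ⟨b, hb1, hb2, hb3⟩ := m.tree.med a w1 w2
    have hbc := m.conv c a ha w1 hw1 b hb1
    have hbc' := m.conv c' a hx w2 hw2 b hb3
    exact ⟨b, hbc, s.conv_Wp w1 hw1W w2 hw2W b hb2, m.ovl c c' h2.symm a b ha hx hbc hbc'⟩

theorem Stage.diam_Uc {c : C} (hc : c ∈ s.Nw) {a a' : T} (ha : a ∈ m.A c) (haU : a ∈ s.Uc c)
    (ha' : a' ∈ m.A c) (haU' : a' ∈ s.Uc c) : m.d a a' ≤ 4 * m.r c + 3 := by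
  obtain ⟨b, hb, hbW, hab⟩ := s.close_Wp hc ha haU
  obtain ⟨b', hb', hbW', hab'⟩ := s.close_Wp hc ha' haU'
  have h1 := s.small_Wp hc.1 hb hbW hb' hbW'
  have h2 := m.tree.tri a b a'
  have h3 := m.tree.tri b b' a'
  rw [m.tree.symm b' a'] at h3
  omega

/-- The gate of `y` in the cell `c` lies in the shadow of the rest of the windmill. -/
def Stage.Near (c : C) (y : T) : Prop := ∃ a, a ∈ s.Uc c ∧ Gate m.d (m.A c) y a

theorem Stage.near_of_Uc {c : C} (hc : c ∈ s.Nw) {y : T} (hy : y ∈ s.Uc c) : s.Near c y := by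
  obtain ⟨a, ha⟩ := m.tree.exists_gate (m.conv c) (m.ne c) y
  obtain ⟨w, hw, hwW⟩ := hc.2
  exact ⟨a, s.conv_Uc c y hy w (Or.inl hwW) a (ha.2 w hw), ha⟩

theorem Stage.near_of_far {c c' : C} (hc : c ∈ s.Nw) (hc' : c' ∈ s.Nw) (hne : c' ≠ c) {y p' : T}
    (hp' : Gate m.d (m.A c') y p') (hfar : p' ∉ s.Uc c') : s.Near c y := by
  obtain ⟨p, hp⟩ := m.tree.exists_gate (m.conv c) (m.ne c) y
  obtain ⟨t, ht, htW⟩ := hc.2
  obtain ⟨a', ha'U, ha'⟩ := s.near_of_Uc hc' (Or.inl htW : t ∈ s.Uc c')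
  have hne' : a' ≠ p' := by rintro rfl; exact hfar ha'U
  have hch := m.tree.gate_chain ha' hp' hne'
  have hyp : Btw m.d y p t := hp.2 t ht
  have ha'c : a' ∈ s.Uc c := Or.inr ⟨c', ⟨hc', hne⟩, ha'.1⟩
  have hp'c : p' ∈ s.Uc c := Or.inr ⟨c', ⟨hc', hne⟩, hp'.1⟩
  refine ⟨p, ?_, hp⟩
  rcases m.tree.thin y t a' p hyp with h1 | h1
  · rcases m.tree.thin y a' p' p h1 with h2 | h2
    · exfalso
      have hb : Btw m.d t p' p := by
        unfold P186.Btw at *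
        have e1 := m.tree.tri t a' p'
        have e2 := m.tree.tri t p' p
        have e3 := m.tree.symm y p
        have e4 := m.tree.symm y t
        have e5 := m.tree.symm p t
        have e6 := m.tree.symm y p'
        have e7 := m.tree.symm p p'
        omega
      exact hfar (Or.inr ⟨c, ⟨hc, hne.symm⟩, m.conv c t ht p hp.1 p' hb⟩)
    · exact s.conv_Uc c p' hp'c a' ha'c p h2
  · exact s.conv_Uc c a' ha'c t (Or.inl htW) p h1

theorem Stage.spin {c : C} (hc : c ∈ s.Nw) {h : E} (hh : h ∈ m.H c) (h1 : h ≠ 1) {a b : T}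
    (ha : a ∈ m.A c) (haU : a ∈ s.Uc c) (hb : b ∈ m.A c) (hbU : b ∈ s.Uc c) :
    m.g c ≤ m.d b (h • a) + (4 * m.r c + 3) := by
  have e1 := m.transl c h hh h1 a ha
  have e2 := s.diam_Uc hc ha haU hb hbU
  have e3 := m.tree.tri a b (h • a)
  omega

theorem Stage.far_of_near {c : C} (hc : c ∈ s.Nw) {h : E} (hh : h ∈ m.H c) (h1 : h ≠ 1) {a : T}
    (ha : a ∈ m.A c) (haU : a ∈ s.Uc c) : h • a ∉ s.Uc c := by
  intro hU
  have e1 := s.spin hc hh h1 ha haU (m.A_fix hh ha) hU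
  rw [m.tree.self] at e1
  have := m.big c
  omega

/-- Reduced products of rotations about new cells applied to a base set. -/
inductive Stage.Red {X : Type*} [MulAction E X] (Base : C → Set X) : C → X → Prop
  | base {c : C} {h : E} {y : X} : c ∈ s.Nw → h ∈ m.H c → h ≠ 1 → y ∈ Base c → Red Base c (h • y)
  | step {c c' : C} {h : E} {y : X} : c ∈ s.Nw → h ∈ m.H c → h ≠ 1 → Red Base c' y → c' ≠ c →
      Red Base c (h • y)

theorem Stage.Red.cases {X : Type*} [MulAction E X] {Base : C → Set X} {c : C} {y : X}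
    (hy : s.Red Base c y) : c ∈ s.Nw ∧ ∃ h ∈ m.H c, h ≠ 1 ∧ ∃ y', y = h • y' ∧
      (y' ∈ Base c ∨ ∃ c', c' ≠ c ∧ s.Red Base c' y') := by
  cases hy with
  | base h1 h2 h3 h4 => exact ⟨h1, _, h2, h3, _, rfl, Or.inl h4⟩
  | step h1 h2 h3 h4 h5 => exact ⟨h1, _, h2, h3, _, rfl, Or.inr ⟨_, h5, h4⟩⟩

theorem Stage.Red.smul {X : Type*} [MulAction E X] {Base : C → Set X}
    (hB : ∀ k ∈ s.M, ∀ c y, y ∈ Base c → k • y ∈ Base (k • c)) {k : E} (hk : k ∈ s.M)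
    {c : C} {y : X} (hy : s.Red Base c y) : s.Red Base (k • c) (k • y) := by
  induction hy with
  | @base c h y h1 h2 h3 h4 =>
    have e : k • h • y = (k * h * k⁻¹) • (k • y) := by simp [mul_smul]
    rw [e]
    exact Stage.Red.base (s.Nw_inv hk h1) (m.H_eq k c h h2) (by simpa using h3) (hB k hk c y h4)
  | @step c c' h y h1 h2 h3 _ h5 ih =>
    have e : k • h • y = (k * h * k⁻¹) • (k • y) := by simp [mul_smul]
    rw [e]
    exact Stage.Red.step (s.Nw_inv hk h1) (m.H_eq k c h h2) (by simpa using h3) ih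
      (fun h => h5 (smul_left_cancel k h))

/-- The group of the next stage. -/
def Stage.M' : Subgroup E := Subgroup.closure {k | k ∈ s.M ∨ ∃ c ∈ s.Nw, k ∈ m.H c}

theorem Stage.M'_induction {P : E → Prop} (h1 : ∀ k ∈ s.M, P k)
    (h2 : ∀ c ∈ s.Nw, ∀ k ∈ m.H c, P k) (h3 : ∀ a b, a ∈ s.M' → b ∈ s.M' → P a → P b → P (a * b))
    {k : E} (hk : k ∈ s.M') : P k := by
  unfold Stage.M' at hk
  induction hk using Subgroup.closure_induction'' with
  | mem x hx =>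
    rcases hx with hx | ⟨c, hc, hx⟩
    · exact h1 x hx
    · exact h2 c hc x hx
  | inv_mem x hx =>
    rcases hx with hx | ⟨c, hc, hx⟩
    · exact h1 _ (inv_mem hx)
    · exact h2 c hc _ (inv_mem hx)
  | one => exact h1 1 (one_mem _)
  | mul x y hx hy ihx ihy => exact h3 x y hx hy ihx ihy

theorem Stage.red_closed {X : Type*} [MulAction E X] {Base : C → Set X} {Ux : Set X}
    (hB : ∀ k ∈ s.M, ∀ c y, y ∈ Base c → k • y ∈ Base (k • c))
    (hBU : ∀ c y, y ∈ Base c → y ∈ Ux) (hU : ∀ k ∈ s.M, ∀ y ∈ Ux, k • y ∈ Ux)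
    (hH : ∀ c ∈ s.Nw, ∀ h ∈ m.H c, ∀ y ∈ Ux, y ∈ Base c ∨ h • y ∈ Ux)
    {k : E} (hk : k ∈ s.M') : ∀ y, (y ∈ Ux ∨ ∃ c, s.Red Base c y) →
      (k • y ∈ Ux ∨ ∃ c, s.Red Base c (k • y)) := by
  refine s.M'_induction (P := fun k => ∀ y, (y ∈ Ux ∨ ∃ c, s.Red Base c y) →
      (k • y ∈ Ux ∨ ∃ c, s.Red Base c (k • y))) ?_ ?_ ?_ hk
  · rintro k hk y (hy | ⟨c, hy⟩)
    · exact Or.inl (hU k hk y hy)
    · exact Or.inr ⟨_, hy.smul s hB hk⟩
  · intro c hc h hh y hy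
    by_cases h1 : h = 1
    · subst h1; simpa using hy
    rcases hy with hy | ⟨c', hy⟩
    · rcases hH c hc h hh y hy with h2 | h2
      · exact Or.inr ⟨c, Stage.Red.base hc hh h1 h2⟩
      · exact Or.inl h2
    · by_cases hcc : c' = c
      · subst hcc
        obtain ⟨-, h', hh', -, y', rfl, hy'⟩ := hy.cases s
        rw [← mul_smul]
        by_cases h2 : h * h' = 1
        · rw [h2, one_smul]
          rcases hy' with hy' | ⟨c'', -, hy'⟩
          · exact Or.inl (hBU _ _ hy')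
          · exact Or.inr ⟨_, hy'⟩
        · rcases hy' with hy' | ⟨c'', h3, hy'⟩
          · exact Or.inr ⟨c', Stage.Red.base hc (mul_mem hh hh') h2 hy'⟩
          · exact Or.inr ⟨c', Stage.Red.step hc (mul_mem hh hh') h2 hy' h3⟩
      · exact Or.inr ⟨c, Stage.Red.step hc hh h1 hy hcc⟩
  · intro a b _ _ ha hb y hy
    rw [mul_smul]
    exact ha _ (hb y hy)

theorem Stage.red_near {c : C} {y : T} (hy : s.Red s.Uc c y) :
    ∃ h ∈ m.H c, h ≠ 1 ∧ ∃ y', y = h • y' ∧ s.Near c y' := by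
  induction hy with
  | @base c h y h1 h2 h3 h4 => exact ⟨h, h2, h3, y, rfl, s.near_of_Uc h1 h4⟩
  | @step c c' h y h1 h2 h3 h4 h5 ih =>
    obtain ⟨h', hh', hh1, y', rfl, a, haU, ha⟩ := ih
    have hc' := (h4.cases s).1
    exact ⟨h, h2, h3, _, rfl, s.near_of_far h1 hc' h5 (m.gate_smul hh' ha)
      (s.far_of_near hc' hh' hh1 ha.1 haU)⟩

theorem Stage.red_chain {c : C} {x y : T} (hx : x ∈ s.Uc c) (hy : s.Red s.Uc c y) :
    ∃ p p' h, p ∈ m.A c ∧ p' ∈ m.A c ∧ h ∈ m.H c ∧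
      m.d x p + m.d p p' + m.d p' y = m.d x y ∧ m.d p (h • p') ≤ 4 * m.r c + 3 ∧
      m.g c ≤ m.d p p' + (4 * m.r c + 3) := by
  have hc := (hy.cases s).1
  obtain ⟨h, hh, h1, y', rfl, a, haU, ha⟩ := s.red_near hy
  obtain ⟨p, hpU, hp⟩ := s.near_of_Uc hc hx
  have hne : p ≠ h • a := by
    rintro rfl
    exact s.far_of_near hc hh h1 ha.1 haU hpU
  refine ⟨p, h • a, h⁻¹, hp.1, m.A_fix hh ha.1, inv_mem hh,
    m.tree.gate_chain hp (m.gate_smul hh ha) hne, ?_, s.spin hc hh h1 ha.1 haU hp.1 hpU⟩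
  rw [inv_smul_smul]
  exact s.diam_Uc hc hp.1 hpU ha.1 haU

theorem Stage.red_group {c : C} {k : E} (hk : s.Red (fun _ => (s.M : Set E)) c k) :
    s.Red s.Uc c (k • x0) := by
  induction hk with
  | @base c h y h1 h2 h3 h4 =>
    rw [smul_eq_mul, mul_smul]
    exact Stage.Red.base h1 h2 h3 (Or.inl (s.W_sub (s.W_inv y h4 x0 s.x0_mem)))
  | @step c c' h y h1 h2 h3 _ h5 ih =>
    rw [smul_eq_mul, mul_smul]
    exact Stage.Red.step h1 h2 h3 ih h5

theorem Stage.M_le : s.M ≤ s.M' := fun _ hk => Subgroup.subset_closure (Or.inl hk)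

theorem Stage.H_le' {c : C} (hc : c ∈ s.Nw) : m.H c ≤ s.M' :=
  fun _ hk => Subgroup.subset_closure (Or.inr ⟨c, hc, hk⟩)

theorem Stage.short' {n : E} (hn : n ∈ s.M') (h1 : n ≠ 1) : m.Short x0 n := by
  have := s.red_closed (X := E) (Base := fun _ => (s.M : Set E)) (Ux := (s.M : Set E))
    (fun k hk c y hy => mul_mem hk hy) (fun c y hy => hy) (fun k hk y hy => mul_mem hk hy)
    (fun c _ h _ y hy => Or.inl hy) hn 1 (Or.inl (one_mem _))
  rw [smul_eq_mul, mul_one] at this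
  rcases this with h | ⟨c, h⟩
  · exact s.short n h h1
  · obtain ⟨p, p', h', e⟩ := s.red_chain (Or.inl (s.W_sub s.x0_mem)) (s.red_group h)
    exact ⟨c, p, p', h', e⟩

/-- The windmill of the next stage. -/
def Stage.W' : Set T := {x | ∃ k ∈ s.M', ∃ y ∈ s.U, x = k • y}

/-- The cells of the next stage. -/
def Stage.D' : Set C := {c | ∃ k ∈ s.M', ∃ c0, (c0 ∈ s.D ∨ c0 ∈ s.Nw) ∧ c = k • c0}

theorem Stage.W'_inv {k : E} (hk : k ∈ s.M') {x : T} (hx : x ∈ s.W') : k • x ∈ s.W' := by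
  obtain ⟨k', hk', y, hy, rfl⟩ := hx
  exact ⟨k * k', mul_mem hk hk', y, hy, (mul_smul _ _ _).symm⟩

theorem Stage.D'_inv {k : E} (hk : k ∈ s.M') {c : C} (hx : c ∈ s.D') : k • c ∈ s.D' := by
  obtain ⟨k', hk', y, hy, rfl⟩ := hx
  exact ⟨k * k', mul_mem hk hk', y, hy, (mul_smul _ _ _).symm⟩

theorem Stage.U_sub {x : T} (hx : x ∈ s.U) : x ∈ s.W' := ⟨1, one_mem _, x, hx, by simp⟩

theorem Stage.conv_W' : Conv m.d s.W' := by
  have key : ∀ k ∈ s.M', ∀ x ∈ s.U, ∀ y ∈ s.U, ∀ z, Btw m.d x z (k • y) → z ∈ s.W' := by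
    intro k hk
    refine s.M'_induction (P := fun k => ∀ x ∈ s.U, ∀ y ∈ s.U, ∀ z, Btw m.d x z (k • y) →
      z ∈ s.W') ?_ ?_ ?_ hk
    · intro k hk x hx y hy z hz
      exact s.U_sub (s.conv_U x hx _ (s.U_inv hk hy) z hz)
    · intro c hc h hh x hx y hy z hz
      obtain ⟨t, ht⟩ := m.ne c
      rcases m.tree.thin x _ (h • t) z hz with h1 | h1
      · exact s.U_sub (s.conv_U x hx _ (Or.inr ⟨c, hc, m.A_fix hh ht⟩) z h1)
      · have h2 := m.btw_smul h⁻¹ h1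
        simp only [inv_smul_smul] at h2
        exact ⟨h, s.H_le' hc hh, h⁻¹ • z, s.conv_U t (Or.inr ⟨c, hc, ht⟩) y hy _ h2, by simp⟩
    · intro a b ha _ iha ihb x hx y hy z hz
      rcases m.tree.thin x _ (a • x) z hz with h1 | h1
      · exact iha x hx x hx z h1
      · have h2 := m.btw_smul a⁻¹ h1
        simp only [inv_smul_smul, mul_smul] at h2
        have := s.W'_inv ha (ihb x hx y hy _ h2)
        simpa using this
  rintro _ ⟨k, hk, x, hx, rfl⟩ _ ⟨k', hk', y, hy, rfl⟩ z hz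
  have h2 := m.btw_smul k⁻¹ hz
  rw [inv_smul_smul, ← mul_smul k⁻¹ k' y] at h2
  have := s.W'_inv hk (key _ (mul_mem (inv_mem hk) hk') x hx y hy _ h2)
  simpa using this

theorem Stage.small_U {c : C} (hc : c ∉ s.D') {x y : T} (hx : x ∈ m.A c) (hxU : x ∈ s.U)
    (hy : y ∈ m.A c) (hyU : y ∈ s.U) : m.d x y ≤ 2 * m.r c + 1 := by
  have hD : c ∉ s.D := fun h => hc ⟨1, one_mem _, c, Or.inl h, by simp⟩
  have hN : c ∉ s.Nw := fun h => hc ⟨1, one_mem _, c, Or.inr h, by simp⟩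
  have hW : ∀ z ∈ m.A c, z ∉ s.Wp := fun z hz hzW => hN ⟨hD, z, hz, hzW⟩
  rcases hxU with hxU | ⟨c1, hc1, hx1⟩
  · exact absurd hxU (hW x hx)
  rcases hyU with hyU | ⟨c2, hc2, hy2⟩
  · exact absurd hyU (hW y hy)
  by_contra hlt
  obtain ⟨z, hz1, hz⟩ := m.tree.geod x y (m.r c + 1) (by omega)
  have hzc := m.conv c x hx y hy z hz
  have hcv := m.tree.conv_union s.conv_Wp m.A (fun c' => c' = c1 ∨ c' = c2) (fun i _ => m.conv i)
    (by rintro _ (rfl | rfl); exacts [hc1.2, hc2.2])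
  rcases hcv x (Or.inr ⟨c1, Or.inl rfl, hx1⟩) y (Or.inr ⟨c2, Or.inr rfl, hy2⟩) z hz with
    h | ⟨c', rfl | rfl, h⟩
  · exact hW z hzc h
  · have := m.ovl c c' (by rintro rfl; exact hN hc1) x z hx hx1 hzc h
    omega
  · have := m.ovl c c' (by rintro rfl; exact hN hc2) z y hzc h hy hy2
    unfold P186.Btw at hz
    omega

theorem Stage.not_red {c c1 : C} (hc : c ∉ s.D') {x y : T} (hx : x ∈ m.A c) (hxU : x ∈ s.Uc c1)
    (hy : y ∈ m.A c) (hr : s.Red s.Uc c1 y) : False := by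
  have hc1 := (hr.cases s).1
  obtain ⟨p, p', h, hp, hp', -, e1, -, e3⟩ := s.red_chain hxU hr
  have hne : c ≠ c1 := by
    rintro rfl
    exact hc ⟨1, one_mem _, c, Or.inr hc1, by simp⟩
  have t1 := m.tree.tri x p' y
  have t2 := m.tree.tri x p p'
  have t3 := m.tree.tri x p y
  have t4 := m.tree.tri p p' y
  have hpc := m.conv c x hx y hy p (by unfold P186.Btw; omega)
  have hpc' := m.conv c x hx y hy p' (by unfold P186.Btw; omega)
  have := m.ovl c1 c hne.symm p p' hp hpc hp' hpc'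
  have := m.big c1
  omega

theorem Stage.Uc_sub {c : C} {x : T} (hx : x ∈ s.Uc c) : x ∈ s.U := by
  rcases hx with hx | ⟨c', h1, hx⟩
  · exact Or.inl hx
  · exact Or.inr ⟨c', h1.1, hx⟩

theorem Stage.U_cases (c : C) {x : T} (hx : x ∈ s.U) : x ∈ s.Uc c ∨ x ∈ m.A c := by
  rcases hx with hx | ⟨c', h1, hx⟩
  · exact Or.inl (Or.inl hx)
  · by_cases h : c' = c
    · subst h; exact Or.inr hx
    · exact Or.inl (Or.inr ⟨c', ⟨h1, h⟩, hx⟩)

theorem Stage.small' {c : C} (hc : c ∉ s.D') {x y : T} (hx : x ∈ m.A c) (hxW : x ∈ s.W')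
    (hy : y ∈ m.A c) (hyW : y ∈ s.W') : m.d x y ≤ 2 * m.r c + 1 := by
  have notD : ∀ k ∈ s.M', ∀ c, c ∉ s.D' → k • c ∉ s.D' := by
    intro k hk c hc h
    have := s.D'_inv (inv_mem hk) h
    simp only [inv_smul_smul] at this
    exact hc this
  have key : ∀ c, c ∉ s.D' → ∀ x y, x ∈ m.A c → x ∈ s.U → y ∈ m.A c → y ∈ s.W' →
      m.d x y ≤ 2 * m.r c + 1 := by
    rintro c hc x _ hx hxU hy ⟨k, hk, y, hyU, rfl⟩
    have := s.red_closed (X := T) (Base := s.Uc) (Ux := s.U)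
      (fun k hk c y hy => s.Uc_inv hk hy) (fun c y hy => s.Uc_sub hy)
      (fun k hk y hy => s.U_inv hk hy)
      (fun c hc h hh y hy => (s.U_cases c hy).imp id
        (fun h' => Or.inr ⟨c, hc, m.A_fix hh h'⟩)) hk y (Or.inl hyU)
    rcases this with h | ⟨c1, h⟩
    · exact s.small_U hc hx hxU hy h
    · rcases s.U_cases c1 hxU with h1 | h1
      · exact (s.not_red hc hx h1 hy h).elim
      · obtain ⟨hc1, h', hh', -, y', e, hy'⟩ := h.cases s
        have hc2 := notD h'⁻¹ (inv_mem (s.H_le' hc1 hh')) c hc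
        have hx2 := m.A_eq h'⁻¹ c x hx
        have hy2 := m.A_eq h'⁻¹ c _ hy
        have hx3 := m.A_fix (inv_mem hh') h1
        rw [← m.iso h'⁻¹, ← m.r_eq h'⁻¹ c]
        rw [e, inv_smul_smul] at hy2
        rw [e, inv_smul_smul]
        rcases hy' with hy' | ⟨c2, h2, hy'⟩
        · exact s.small_U hc2 hx2 (Or.inr ⟨c1, hc1, hx3⟩) hy2 (s.Uc_sub hy')
        · exact (s.not_red hc2 hx2 (Or.inr ⟨c1, ⟨hc1, h2.symm⟩, hx3⟩) hy2 hy').elim
  obtain ⟨k, hk, x, hxU, rfl⟩ := hxW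
  have h1 := key (k⁻¹ • c) (notD _ (inv_mem hk) c hc) x (k⁻¹ • y)
    (by simpa using m.A_eq k⁻¹ c _ hx) hxU (m.A_eq k⁻¹ c _ hy) (s.W'_inv (inv_mem hk) hyW)
  rw [← m.iso k, m.r_eq] at h1
  simpa using h1

/-- The next stage. -/
def Stage.next : m.Stage x0 where
  W := s.W'
  M := s.M'
  D := s.D'
  x0_mem := s.U_sub (Or.inl (s.W_sub s.x0_mem))
  conv := s.conv_W'
  W_inv := fun _ hk _ hx => s.W'_inv hk hx
  D_inv := fun _ hk _ hx => s.D'_inv hk hx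
  H_le := by
    rintro _ ⟨k, hk, c, hc, rfl⟩ h hh
    have h1 := m.H_eq k⁻¹ _ h hh
    rw [inv_smul_smul] at h1
    have h2 : k⁻¹ * h * k⁻¹⁻¹ ∈ s.M' := by
      rcases hc with hc | hc
      · exact s.M_le (s.H_le c hc h1)
      · exact s.H_le' hc h1
    have := mul_mem (mul_mem hk h2) (inv_mem hk)
    simpa [mul_assoc] using this
  small := fun _ hc _ _ hx hxW hy hyW => s.small' hc hx hxW hy hyW
  short := fun _ hn h1 => s.short' hn h1

variable (m)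

theorem exists_stage (x0 : T) (k : ℕ) : ∃ s : m.Stage x0, ∀ x, m.d x0 x ≤ k → x ∈ s.W := by
  induction k with
  | zero =>
    refine ⟨⟨{x0}, ⊥, ∅, rfl, ?_, ?_, ?_, ?_, ?_, ?_⟩, ?_⟩
    · rintro _ rfl _ rfl z hz
      unfold P186.Btw at hz
      rw [m.tree.self] at hz
      exact (m.tree.eq_of _ _ (by omega)).symm
    · rintro k hk _ rfl
      rw [Subgroup.mem_bot] at hk
      simp [hk]
    · simp
    · simp
    · rintro c - _ _ - rfl - rfl
      rw [m.tree.self]; omega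
    · intro n hn h1
      exact absurd (Subgroup.mem_bot.1 hn) h1
    · intro x hx
      exact (m.tree.eq_of _ _ (by omega)).symm
  | succ k ih =>
    obtain ⟨s, hs⟩ := ih
    refine ⟨s.next, fun x hx => s.U_sub (Or.inl ?_)⟩
    by_cases h : m.d x0 x ≤ k
    · exact s.W_sub (hs x h)
    · obtain ⟨z, hz1, hz⟩ := m.tree.geod x0 x k (by omega)
      refine ⟨z, hs z hz1.le, ?_⟩
      unfold P186.Btw at hz
      rw [m.tree.symm]; omega

/-- The windmill theorem. -/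
theorem short_of_mem (x0 : T) {n : E} (hn : n ∈ ⨆ c, m.H c) (h1 : n ≠ 1) : m.Short x0 n := by
  have key : ∃ k : ℕ, ∀ s : m.Stage x0, (∀ c, (∃ x ∈ m.A c, m.d x0 x ≤ k) → c ∈ s.D) →
      n ∈ s.M := by
    refine Subgroup.iSup_induction m.H (C := fun n => ∃ k : ℕ, ∀ s : m.Stage x0,
      (∀ c, (∃ x ∈ m.A c, m.d x0 x ≤ k) → c ∈ s.D) → n ∈ s.M) hn ?_ ?_ ?_
    · intro c h hh
      obtain ⟨t, ht⟩ := m.ne c
      exact ⟨m.d x0 t, fun s hs => s.H_le c (hs c ⟨t, ht, le_rfl⟩) hh⟩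
    · exact ⟨0, fun s _ => one_mem _⟩
    · rintro a b ⟨k1, h1⟩ ⟨k2, h2⟩
      refine ⟨max k1 k2, fun s hs => mul_mem (h1 s ?_) (h2 s ?_)⟩
      · rintro c ⟨x, hx, hd⟩
        exact hs c ⟨x, hx, hd.trans (le_max_left _ _)⟩
      · rintro c ⟨x, hx, hd⟩
        exact hs c ⟨x, hx, hd.trans (le_max_right _ _)⟩
  obtain ⟨k, hk⟩ := key
  obtain ⟨s, hs⟩ := m.exists_stage x0 k
  refine s.next.short n (hk s.next ?_) h1
  rintro c ⟨x, hx, hd⟩
  by_cases hc : c ∈ s.D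
  · exact ⟨1, one_mem _, c, Or.inl hc, by simp⟩
  · exact ⟨1, one_mem _, c, Or.inr ⟨hc, x, hx, s.W_sub (hs x hd)⟩, by simp⟩

end Mill

end Vale.Agent.P089
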