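import Vale.Agent.P089.GeoDef
import Vale.Agent.P089.Mill
import Vale.Agent.P186.FreeTree

/-! The small cancellation family on the Cayley tree of the free group defined by a labelled
graph (after the file of P186). -/

namespace Vale.Agent.P089

open FreeGroup Vale.Agent.P186

variable {S V : Type} {Ed : V → S × Bool → V → Prop} {r : V → ℕ}

theorem Rd.append {v v₁ v₂ : V} {L₁ L₂ : List (S × Bool)} (h₁ : Rd Ed v L₁ v₁)
    (h₂ : Rd Ed v₁ L₂ v₂) : Rd Ed v (L₁ ++ L₂) v₂ := by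
  induction h₁ with
  | nil v => simpa using h₂
  | cons h _ ih => exact Rd.cons h (ih h₂)

theorem Rd.cons_inv {v v' : V} {l : S × Bool} {L : List (S × Bool)} (h : Rd Ed v (l :: L) v') :
    ∃ v₁, Ed v l v₁ ∧ Rd Ed v₁ L v' := by
  cases h with
  | cons h1 h2 => exact ⟨_, h1, h2⟩

theorem Rd.nil_inv {v v' : V} (h : Rd Ed v [] v') : v = v' := by
  cases h with
  | nil => rfl

theorem Rd.split {L₂ : List (S × Bool)} {v₂ : V} :
    ∀ {L₁ : List (S × Bool)} {v : V}, Rd Ed v (L₁ ++ L₂) v₂ → ∃ v₁, Rd Ed v L₁ v₁ ∧ Rd Ed v₁ L₂ v₂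
  | [], v, h => ⟨v, Rd.nil v, h⟩
  | l :: L₁, v, h => by
    obtain ⟨w, h1, h2⟩ := Rd.cons_inv (L := L₁ ++ L₂) h
    obtain ⟨v₁, h3, h4⟩ := Rd.split h2
    exact ⟨v₁, Rd.cons h1 h3, h4⟩

theorem Rd.reach {v v' : V} {L : List (S × Bool)} (h : Rd Ed v L v') :
    Relation.ReflTransGen (fun a b => ∃ l, Ed a l b) v v' := by
  induction h with
  | nil v => exact Relation.ReflTransGen.refl
  | cons h _ ih => exact Relation.ReflTransGen.head ⟨_, h⟩ ih

namespace SC

variable (Γ : SC Ed r)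

include Γ

theorem rd_r {L : List (S × Bool)} {v v' : V} (h : Rd Ed v L v') : r v' = r v := by
  induction h with
  | nil v => rfl
  | cons h _ ih => rw [ih, Γ.r_ed _ _ _ h]

theorem rd_inv {L : List (S × Bool)} {v v' : V} (h : Rd Ed v L v') : Rd Ed v' (invRev L) v := by
  induction h with
  | nil v => simpa using Rd.nil v
  | @cons v v₁ v' l L h _ ih =>
    rw [invRev_cons]
    refine ih.append ?_
    have : invRev [l] = [fl l] := by simp [invRev, fl]
    rw [this]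
    exact Rd.cons (Γ.symm _ _ _ h) (Rd.nil v)

theorem rd_red {L L' : List (S × Bool)} (hr : FreeGroup.Red L L') {v v' : V} (h : Rd Ed v L v') :
    Rd Ed v L' v' := by
  induction hr with
  | refl => exact h
  | tail _ hs ih =>
    cases hs with
    | @not L₁ L₂ x b =>
      obtain ⟨v₁, h1, h2⟩ := ih.split
      obtain ⟨v₂, h3, h4⟩ := h2.cons_inv
      obtain ⟨v₃, h5, h6⟩ := h4.cons_inv
      obtain rfl := Γ.func _ _ _ _ h5 (Γ.symm _ _ _ h3)
      exact h1.append h6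

variable [DecidableEq S]

/-- The reduced word of `w` can be read from `v` to `v'`. -/
def Rel (_ : SC Ed r) (v : V) (w : FreeGroup S) (v' : V) : Prop := Rd Ed v w.toWord v'

theorem rel_mk {L : List (S × Bool)} {v v' : V} (h : Rd Ed v L v') :
    Γ.Rel v (FreeGroup.mk L) v' := Γ.rd_red reduce.red h

theorem rel_one (v : V) : Γ.Rel v 1 v := Rd.nil v

theorem rel_letter {v v' : V} {l : S × Bool} : Γ.Rel v (FreeGroup.mk [l]) v' ↔ Ed v l v' := by
  constructor
  · intro h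
    unfold Rel at h
    rw [toWord_mk_red IsReduced.singleton] at h
    obtain ⟨v₁, h1, h2⟩ := h.cons_inv
    rwa [← h2.nil_inv]
  · intro h
    exact Γ.rel_mk (Rd.cons h (Rd.nil _))

variable {Γ}

theorem Rel.trans {v v₁ v₂ : V} {w₁ w₂ : FreeGroup S} (h₁ : Γ.Rel v w₁ v₁)
    (h₂ : Γ.Rel v₁ w₂ v₂) : Γ.Rel v (w₁ * w₂) v₂ := by
  have := Γ.rel_mk (Rd.append h₁ h₂)
  rwa [← mul_mk, mk_toWord, mk_toWord] at this

theorem Rel.symm {v v' : V} {w : FreeGroup S} (h : Γ.Rel v w v') : Γ.Rel v' w⁻¹ v := by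
  unfold Rel
  rw [toWord_inv]
  exact Γ.rd_inv h

theorem Rel.cast {v v' : V} {w w' : FreeGroup S} (h : Γ.Rel v w v') (hw : w = w') :
    Γ.Rel v w' v' := hw ▸ h

theorem Rel.r_eq {v v' : V} {w : FreeGroup S} (h : Γ.Rel v w v') : r v' = r v := Γ.rd_r h

theorem Rel.init {v v' : V} {w p : FreeGroup S} (h : Γ.Rel v w v') (hp : Btw fd 1 p w) :
    ∃ v₁, Γ.Rel v p v₁ := by
  obtain ⟨B, hB⟩ := btw_one_iff.1 hp
  unfold Rel at h
  rw [hB] at h
  obtain ⟨v₁, h1, -⟩ := h.split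
  exact ⟨v₁, h1⟩

variable (Γ)

/-- Two pointed positions belong to the same copy of the graph. -/
def cellSetoid : Setoid (FreeGroup S × V) where
  r a b := Γ.Rel a.2 (a.1⁻¹ * b.1) b.2
  iseqv := ⟨fun a => by simpa using Γ.rel_one a.2, fun h => h.symm.cast (by group),
    fun h h' => (h.trans h').cast (by group)⟩

/-- Copies of the graph in the tree. -/
def Cell : Type := Quotient Γ.cellSetoid

/-- The cell through a pointed position. -/
def cell (x : FreeGroup S) (v : V) : Γ.Cell := Quotient.mk Γ.cellSetoid (x, v)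

theorem cell_eq {x y : FreeGroup S} {v w : V} :
    Γ.cell x v = Γ.cell y w ↔ Γ.Rel v (x⁻¹ * y) w := Quotient.eq

theorem cell_inj {x : FreeGroup S} {v w : V} (h : Γ.cell x v = Γ.cell x w) : v = w := by
  have := Γ.cell_eq.1 h
  rw [inv_mul_cancel] at this
  exact Rd.nil_inv this

theorem cell_surj (c : Γ.Cell) : ∃ x v, Γ.cell x v = c := by
  obtain ⟨⟨x, v⟩, rfl⟩ := Quotient.exists_rep c
  exact ⟨x, v, rfl⟩

instance actC : MulAction (FreeGroup S) Γ.Cell where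
  smul e := Quotient.map (fun a => (e * a.1, a.2))
    (fun a b h => Rel.cast h (by simp only; group))
  one_smul c := by
    obtain ⟨x, v, rfl⟩ := Γ.cell_surj c
    exact congrArg (fun y => Γ.cell y v) (one_mul x)
  mul_smul a b c := by
    obtain ⟨x, v, rfl⟩ := Γ.cell_surj c
    exact congrArg (fun y => Γ.cell y v) (mul_assoc a b x)

theorem smul_cell (e x : FreeGroup S) (v : V) : e • Γ.cell x v = Γ.cell (e * x) v := rfl

/-- The scale of a cell. -/
def rc : Γ.Cell → ℕ := Quotient.lift (fun a => r a.2) fun _ _ h => (Rel.r_eq h).symm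

theorem rc_cell (x : FreeGroup S) (v : V) : Γ.rc (Γ.cell x v) = r v := rfl

/-- The points of a cell. -/
def A (c : Γ.Cell) : Set (FreeGroup S) := {x | ∃ v, Γ.cell x v = c}

/-- The loops of a cell. -/
def H (c : Γ.Cell) : Subgroup (FreeGroup S) where
  carrier := {e | ∀ x v, Γ.cell x v = c → Γ.Rel v (x⁻¹ * e * x) v}
  one_mem' := fun x v _ => by simpa using Γ.rel_one v
  mul_mem' := fun {a b} ha hb x v h => ((ha x v h).trans (hb x v h)).cast (by group)
  inv_mem' := fun {a} ha x v h => (ha x v h).symm.cast (by group)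

theorem mem_H {x : FreeGroup S} {v : V} {e : FreeGroup S} (h : Γ.Rel v (x⁻¹ * e * x) v) :
    e ∈ Γ.H (Γ.cell x v) := by
  intro y w hy
  have hk := Γ.cell_eq.1 hy
  exact ((hk.trans h).trans hk.symm).cast (by group)

/-- The small cancellation family of the graph. -/
def mill : Mill (FreeGroup S) (FreeGroup S) Γ.Cell where
  d := fd
  tree := fd_tree
  iso := fun e x y => fd_mul e x y
  A := Γ.A
  H := Γ.H
  r := Γ.rc
  g := fun c => 12 * Γ.rc c + 11
  r_eq := by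
    intro e c
    obtain ⟨x, v, rfl⟩ := Γ.cell_surj c
    rfl
  conv := by
    rintro c x ⟨v, rfl⟩ y ⟨w, hw⟩ z hz
    have hk := Γ.cell_eq.1 hw.symm
    have h1 : Btw fd 1 (x⁻¹ * z) (x⁻¹ * y) := by simpa using (btw_mul x⁻¹).2 hz
    obtain ⟨v₁, h2⟩ := hk.init h1
    exact ⟨v₁, (Γ.cell_eq.2 h2).symm⟩
  ne := fun c => by
    obtain ⟨x, v, h⟩ := Γ.cell_surj c
    exact ⟨x, v, h⟩
  A_eq := by
    rintro e c x ⟨v, rfl⟩
    exact ⟨v, rfl⟩
  H_eq := by
    intro e c h hh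
    obtain ⟨x, v, rfl⟩ := Γ.cell_surj c
    rw [smul_cell]
    exact Γ.mem_H ((hh x v rfl).cast (by group))
  H_fix := by
    intro c h hh
    obtain ⟨x, v, rfl⟩ := Γ.cell_surj c
    rw [smul_cell]
    exact (Γ.cell_eq.2 ((hh x v rfl).cast (by group))).symm
  ovl := by
    rintro c c' hne x y ⟨v, rfl⟩ ⟨v', rfl⟩ ⟨w, hw⟩ ⟨w', hw'⟩
    by_contra hlt
    have hk := Γ.cell_eq.1 hw.symm
    have hk' := Γ.cell_eq.1 hw'.symm
    have := Γ.piece _ _ _ _ _ hk hk' isReduced_toWord (not_le.1 hlt)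
    exact hne (by rw [this])
  transl := by
    rintro c h hh h1 x ⟨v, rfl⟩
    have h2 := hh x v rfl
    have e : fd x (h • x) = (x⁻¹ * h * x).toWord.length := by
      rw [smul_eq_mul, mul_assoc]; rfl
    rw [e]
    refine Γ.girth v _ h2 isReduced_toWord (fun h3 => h1 ?_)
    have h4 := toWord_eq_nil_iff.1 h3
    have : h = x * (x⁻¹ * h * x) * x⁻¹ := by group
    rw [this, h4]; simp
  big := fun c => by omega

/-- The group generated by all loops. -/
def NN : Subgroup (FreeGroup S) := ⨆ c, Γ.H c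

theorem H_le_NN (c : Γ.Cell) : Γ.H c ≤ Γ.NN := le_iSup Γ.H c

instance NN_normal : Γ.NN.Normal := ⟨fun n hn e => by
  refine Subgroup.iSup_induction Γ.H (C := fun n => e * n * e⁻¹ ∈ Γ.NN) hn ?_ ?_ ?_
  · intro c h hh
    exact Γ.H_le_NN _ (Γ.mill.H_eq e c h hh)
  · simp
  · intro a b ha hb
    have : e * (a * b) * e⁻¹ = (e * a * e⁻¹) * (e * b * e⁻¹) := by group
    rw [this]
    exact mul_mem ha hb⟩

theorem loop_mem {v : V} {w : FreeGroup S} (h : Γ.Rel v w v) : w ∈ Γ.NN :=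
  Γ.H_le_NN (Γ.cell 1 v) (Γ.mem_H (by simpa using h))

theorem conv (c : Γ.Cell) : Conv fd (Γ.A c) := Γ.mill.conv c

theorem ovl {c c' : Γ.Cell} (h : c ≠ c') {x y : FreeGroup S} (h1 : x ∈ Γ.A c) (h2 : x ∈ Γ.A c')
    (h3 : y ∈ Γ.A c) (h4 : y ∈ Γ.A c') : fd x y ≤ Γ.rc c := Γ.mill.ovl c c' h x y h1 h2 h3 h4

theorem short {n : FreeGroup S} (hn : n ∈ Γ.NN) (h1 : n ≠ 1) :
    ∃ c p p' h, p ∈ Γ.A c ∧ p' ∈ Γ.A c ∧ h ∈ Γ.H c ∧
      fd 1 p + fd p p' + fd p' n = fd 1 n ∧ fd p (h * p') ≤ 4 * Γ.rc c + 3 ∧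
      8 * Γ.rc c + 8 ≤ fd p p' ∧ fd 1 (h * n) < fd 1 n := by
  obtain ⟨c, p, p', h, e1, e2, e3, e4, e5, e6⟩ := Γ.mill.short_of_mem 1 hn h1
  simp only [smul_eq_mul, mul_one] at e4 e5
  change fd 1 p + fd p p' + fd p' n = fd 1 n at e4
  change fd p (h * p') ≤ 4 * Γ.rc c + 3 at e5
  change 12 * Γ.rc c + 11 ≤ fd p p' + (4 * Γ.rc c + 3) at e6
  refine ⟨c, p, p', h, e1, e2, e3, e4, e5, by omega, ?_⟩
  have a1 := fd_tri 1 p (h * n)
  have a2 := fd_tri p (h * p') (h * n)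
  rw [fd_mul] at a2
  omega

/-- The components of the graph embed in the quotient. -/
theorem embed : ∀ (k : ℕ) {v v' : V} {w : FreeGroup S}, fd 1 w ≤ k → w ∈ Γ.NN → Γ.Rel v w v' →
    v = v' := by
  intro k
  induction k using Nat.strong_induction_on with
  | _ k ih =>
    intro v v' w hk hw h
    by_cases h1 : w = 1
    · subst h1
      exact Rd.nil_inv h
    obtain ⟨c, p, p', f, e1, e2, e3, e4, e5, e6, e7⟩ := Γ.short hw h1
    have hc : Γ.cell w v' = Γ.cell 1 v := (Γ.cell_eq.2 (by simpa using h)).symm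
    have t1 := fd_tri p p' w
    have t2 := fd_tri 1 p p'
    have t3 := fd_tri 1 p w
    have t4 := fd_tri 1 p' w
    have m1 : p ∈ Γ.A (Γ.cell 1 v) :=
      Γ.conv _ 1 ⟨v, rfl⟩ w ⟨v', hc⟩ p (by unfold P186.Btw; omega)
    have m2 : p' ∈ Γ.A (Γ.cell 1 v) :=
      Γ.conv _ 1 ⟨v, rfl⟩ w ⟨v', hc⟩ p' (by unfold P186.Btw; omega)
    have hcc : c = Γ.cell 1 v := by
      by_contra hne
      have := Γ.ovl hne e1 m1 e2 m2
      omega
    subst hcc
    have h2 : Γ.cell (f * w) v' = Γ.cell 1 v := by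
      rw [← smul_cell, hc]
      exact Γ.mill.H_fix _ f e3
    refine ih (fd 1 (f * w)) (by omega) le_rfl (mul_mem (Γ.H_le_NN _ e3) hw) ?_
    simpa using Γ.cell_eq.1 h2.symm

end SC

end Vale.Agent.P089
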