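import Vale.Agent.P086.Basic

/-! A uniform spectral gap from an isoperimetric inequality. -/

namespace Vale.Agent.P089

open Finset Vale.Agent.P086

open scoped Classical InnerProductSpace

variable {G : Type} {d : ℕ}

/-- The two step walk operator of a family of bijections. -/
noncomputable def Mop (σ : Fin d → G ≃ G) : Op G :=
  ((d : ℂ) ^ 2)⁻¹ • ∑ i, ∑ j, perm ((σ i).trans (σ j).symm)

/-- Finite invariant blocks, with an isoperimetric inequality for all finite sets that fill at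
most half of each block. -/
structure Blocks (σ : Fin d → G ≃ G) where
  blk : G → Finset G
  mem : ∀ g g', g' ∈ blk g → blk g' = blk g
  self : ∀ g, (blk g).Nonempty → g ∈ blk g
  inv : ∀ i j g, blk ((σ j).symm (σ i g)) = blk g
  iso : ∀ W : Finset G, (∀ g, 2 * (W ∩ blk g).card ≤ (blk g).card) →
    W.card ≤ ((W ×ˢ (univ : Finset (Fin d × Fin d))).filter
      fun x => (σ x.2.2).symm (σ x.2.1 x.1) ∉ W).card

/-- The contraction rate. -/
noncomputable def rate (d : ℕ) : ℝ := 1 - 1 / (16 * (d : ℝ) ^ 4)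

theorem rate_nonneg (hd : 0 < d) : 0 ≤ rate d := by
  have hd1 : (1 : ℝ) ≤ d := by exact_mod_cast hd
  have h4 : (1 : ℝ) ≤ (d : ℝ) ^ 4 := one_le_pow₀ hd1
  unfold rate
  rw [sub_nonneg, div_le_one (by positivity)]
  linarith

theorem rate_lt_one (hd : 0 < d) : rate d < 1 := by
  have hd1 : (0 : ℝ) < d := by exact_mod_cast hd
  unfold rate
  have : (0 : ℝ) < 1 / (16 * (d : ℝ) ^ 4) := by positivity
  linarith

theorem cheeger_median_aux (f : G → ℝ) (B : Finset G) :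
    ∃ m : ℝ, 2 * (B.filter fun g => m < f g).card ≤ B.card ∧
      2 * (B.filter fun g => f g < m).card ≤ B.card ∧ ((∀ g ∈ B, f g = 0) → m = 0) := by
  by_cases h0 : ∀ g ∈ B, f g = 0
  · refine ⟨0, ?_, ?_, fun _ => rfl⟩
    · rw [filter_false_of_mem (fun g hg => by simp [h0 g hg])]; simp
    · rw [filter_false_of_mem (fun g hg => by simp [h0 g hg])]; simp
  have hB : B.Nonempty := by
    by_contra hne
    rw [not_nonempty_iff_eq_empty] at hne
    exact h0 (by simp [hne])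
  set A := B.filter fun a => 2 * (B.filter fun g => f a < f g).card ≤ B.card with hA
  have hAne : A.Nonempty := by
    obtain ⟨a, ha, hmax⟩ := exists_max_image B f hB
    refine ⟨a, mem_filter.2 ⟨ha, ?_⟩⟩
    rw [filter_false_of_mem (fun g hg => not_lt.2 (hmax g hg))]; simp
  obtain ⟨a, ha, hmin⟩ := exists_min_image A f hAne
  refine ⟨f a, (mem_filter.1 ha).2, ?_, fun h => absurd h h0⟩
  by_contra hlt
  rw [not_le] at hlt
  have hne : (B.filter fun g => f g < f a).Nonempty := by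
    rw [← card_pos]; omega
  obtain ⟨b, hb, hbmax⟩ := exists_max_image _ f hne
  have hb' := mem_filter.1 hb
  have hsub : (B.filter fun g => f b < f g) ⊆ B.filter fun g => ¬ f g < f a := by
    intro g hg
    have hg' := mem_filter.1 hg
    refine mem_filter.2 ⟨hg'.1, fun hlt' => ?_⟩
    exact absurd (hbmax g (mem_filter.2 ⟨hg'.1, hlt'⟩)) (not_le.2 hg'.2)
  have h1 := card_le_card hsub
  have h2 := card_filter_add_card_filter_not (s := B) (fun g => f g < f a)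
  have hbA : b ∈ A := mem_filter.2 ⟨hb'.1, by omega⟩
  exact absurd (hmin b hbA) (not_le.2 hb'.2)

theorem cheeger_coarea_aux {σ : Fin d → G ≃ G} (B : Blocks σ) (W : Finset G) :
    (∀ g, 2 * (W ∩ B.blk g).card ≤ (B.blk g).card) → ∀ h : G → ℝ, (∀ g, 0 ≤ h g) →
      (∀ g, g ∉ W → h g = 0) →
      ∑ g ∈ W, h g ≤ ∑ g ∈ W, ∑ x : Fin d × Fin d, max (h g - h ((σ x.2).symm (σ x.1 g))) 0 := by
  induction W using Finset.strongInduction with
  | H W ih =>
  intro hW h hpos hzero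
  rcases W.eq_empty_or_nonempty with rfl | hne
  · simp
  obtain ⟨g0, hg0, hmin⟩ := exists_min_image W h hne
  set a := h g0 with ha
  have ha0 : 0 ≤ a := hpos g0
  let h' : G → ℝ := fun g => if g ∈ W then h g - a else 0
  have hpos' : ∀ g, 0 ≤ h' g := by
    intro g
    simp only [h']
    split_ifs with hg
    · linarith [hmin g hg]
    · exact le_rfl
  have hg0' : h' g0 = 0 := by simp [h', hg0, ha]
  have hzero' : ∀ g, g ∉ W.erase g0 → h' g = 0 := by
    intro g hg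
    by_cases hgg : g = g0
    · rw [hgg, hg0']
    · have : g ∉ W := fun hw => hg (mem_erase.2 ⟨hgg, hw⟩)
      simp [h', this]
  have hW' : ∀ g, 2 * (W.erase g0 ∩ B.blk g).card ≤ (B.blk g).card := by
    intro g
    have := card_le_card (inter_subset_inter_right (s := W.erase g0) (t := W) (u := B.blk g)
      (erase_subset g0 W))
    have := hW g
    omega
  have h1 := ih (W.erase g0) (erase_ssubset hg0) hW' h' hpos' hzero'
  have h2 : ∑ g ∈ W.erase g0, h' g = ∑ g ∈ W, h' g := sum_erase W hg0'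
  have h3 : ∑ g ∈ W.erase g0, ∑ x : Fin d × Fin d, max (h' g - h' ((σ x.2).symm (σ x.1 g))) 0
      ≤ ∑ g ∈ W, ∑ x : Fin d × Fin d, max (h' g - h' ((σ x.2).symm (σ x.1 g))) 0 :=
    sum_le_sum_of_subset_of_nonneg (erase_subset _ _)
      (fun g _ _ => sum_nonneg fun x _ => le_max_right _ _)
  have h4 : ∑ g ∈ W, h g = ∑ g ∈ W, h' g + a * W.card := by
    rw [card_eq_sum_ones, Nat.cast_sum, mul_sum, ← sum_add_distrib]
    refine sum_congr rfl fun g hg => ?_
    simp [h', hg]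
  have h5 : (W.card : ℝ) ≤ ∑ g ∈ W, ∑ x : Fin d × Fin d,
      (if (σ x.2).symm (σ x.1 g) ∉ W then (1 : ℝ) else 0) := by
    have := B.iso W hW
    rw [card_filter, sum_product] at this
    exact_mod_cast this
  have h6 : ∀ g ∈ W, ∀ x : Fin d × Fin d, max (h g - h ((σ x.2).symm (σ x.1 g))) 0 =
      max (h' g - h' ((σ x.2).symm (σ x.1 g))) 0 +
        a * (if (σ x.2).symm (σ x.1 g) ∉ W then (1 : ℝ) else 0) := by
    intro g hg x
    by_cases hx : (σ x.2).symm (σ x.1 g) ∈ W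
    · simp [h', hg, hx]
    · have e1 := hzero _ hx
      have e2 := hmin g hg
      simp only [h', hg, hx, e1, if_true, if_false, not_false_eq_true, sub_zero, mul_one]
      rw [max_eq_left (hpos g), max_eq_left (by linarith)]
      ring
  have h7 : ∑ g ∈ W, ∑ x : Fin d × Fin d, max (h g - h ((σ x.2).symm (σ x.1 g))) 0 =
      ∑ g ∈ W, ∑ x : Fin d × Fin d, max (h' g - h' ((σ x.2).symm (σ x.1 g))) 0 +
        a * ∑ g ∈ W, ∑ x : Fin d × Fin d,
          (if (σ x.2).symm (σ x.1 g) ∉ W then (1 : ℝ) else 0) := by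
    rw [mul_sum, ← sum_add_distrib]
    refine sum_congr rfl fun g hg => ?_
    rw [mul_sum, ← sum_add_distrib]
    exact sum_congr rfl fun x _ => h6 g hg x
  rw [h4, h7]
  have := mul_le_mul_of_nonneg_left h5 ha0
  linarith

theorem cheeger_pos_aux (hd : 0 < d) {σ : Fin d → G ≃ G} (B : Blocks σ) (W : Finset G)
    (hW : ∀ g, 2 * (W ∩ B.blk g).card ≤ (B.blk g).card) (u : G → ℝ) (hpos : ∀ g, 0 ≤ u g)
    (hzero : ∀ g, g ∉ W → u g = 0) :
    ∑ g ∈ W, u g ^ 2 ≤ 4 * (d : ℝ) ^ 2 *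
      ∑ g ∈ W, ∑ x : Fin d × Fin d, (u g - u ((σ x.2).symm (σ x.1 g))) ^ 2 := by
  have h1 := cheeger_coarea_aux B W hW (fun g => u g ^ 2) (fun g => sq_nonneg _)
    (fun g hg => by simp [hzero g hg])
  have hd' : (0 : ℝ) < (d : ℝ) ^ 2 := by positivity
  have key : ∀ a b : ℝ, 0 ≤ a → 0 ≤ b →
      max (a ^ 2 - b ^ 2) 0 ≤ 2 * (d : ℝ) ^ 2 * (a - b) ^ 2 + a ^ 2 / (2 * (d : ℝ) ^ 2) := by
    intro a b ha hb
    refine max_le ?_ (by positivity)
    have e : 2 * (d : ℝ) ^ 2 * (a - b) ^ 2 + a ^ 2 / (2 * (d : ℝ) ^ 2) - 2 * a * (a - b)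
        = (2 * (d : ℝ) ^ 2 * (a - b) - a) ^ 2 / (2 * (d : ℝ) ^ 2) := by
      field_simp
      ring
    have e2 : 0 ≤ (2 * (d : ℝ) ^ 2 * (a - b) - a) ^ 2 / (2 * (d : ℝ) ^ 2) := by positivity
    nlinarith [sq_nonneg (a - b)]
  have h2 : ∑ g ∈ W, ∑ x : Fin d × Fin d, max (u g ^ 2 - u ((σ x.2).symm (σ x.1 g)) ^ 2) 0 ≤
      2 * (d : ℝ) ^ 2 * ∑ g ∈ W, ∑ x : Fin d × Fin d, (u g - u ((σ x.2).symm (σ x.1 g))) ^ 2
        + (∑ g ∈ W, u g ^ 2) / 2 := by
    rw [mul_sum, sum_div, ← sum_add_distrib]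
    refine sum_le_sum fun g _ => ?_
    refine (sum_le_sum fun x _ => key _ _ (hpos g) (hpos _)).trans (le_of_eq ?_)
    rw [sum_add_distrib, ← mul_sum, sum_const, card_univ, Fintype.card_prod, Fintype.card_fin,
      nsmul_eq_mul]
    congr 1
    push_cast
    field_simp
  linarith

theorem cheeger_real_aux (hd : 0 < d) {σ : Fin d → G ≃ G} (B : Blocks σ) (S : Finset G)
    (f : G → ℝ) (hf : ∀ g, g ∉ S → f g = 0) :
    ∃ c : Finset G → ℝ, c ∅ = 0 ∧ (∀ g, g ∉ S ∪ S.biUnion B.blk → c (B.blk g) = 0) ∧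
      ∑ g ∈ S ∪ S.biUnion B.blk, (f g - c (B.blk g)) ^ 2 ≤ 4 * (d : ℝ) ^ 2 *
        ∑ g ∈ S ∪ S.biUnion B.blk, ∑ x : Fin d × Fin d,
          (f g - f ((σ x.2).symm (σ x.1 g))) ^ 2 := by
  choose c hc1 hc2 hc3 using cheeger_median_aux f
  set T := S ∪ S.biUnion B.blk with hT
  have hout : ∀ g, g ∉ T → c (B.blk g) = 0 := by
    intro g hg
    refine hc3 _ fun h hh => hf h fun hS => hg ?_
    refine mem_union_right _ (mem_biUnion.2 ⟨h, hS, ?_⟩)
    rw [B.mem g h hh]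
    exact B.self g ⟨h, hh⟩
  refine ⟨c, hc3 _ (by simp), hout, ?_⟩
  set F : G → ℝ := fun g => f g - c (B.blk g) with hF
  have hFout : ∀ g, g ∉ T → F g = 0 := by
    intro g hg
    have : g ∉ S := fun hS => hg (mem_union_left _ hS)
    simp [hF, hf g this, hout g hg]
  have hFd : ∀ g (x : Fin d × Fin d), F g - F ((σ x.2).symm (σ x.1 g))
      = f g - f ((σ x.2).symm (σ x.1 g)) := by
    intro g x
    simp [hF, B.inv]
  have hp := cheeger_pos_aux hd B (T.filter fun g => 0 < F g) (fun g => by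
      refine le_trans (Nat.mul_le_mul_left 2 (card_le_card fun h hh => ?_)) (hc1 (B.blk g))
      have h1 := mem_inter.1 hh
      have h2 := (mem_filter.1 h1.1).2
      refine mem_filter.2 ⟨h1.2, ?_⟩
      simp only [hF, B.mem g h h1.2] at h2
      linarith) (fun g => max (F g) 0) (fun g => le_max_right _ _) (fun g hg => by
      by_cases hgT : g ∈ T
      · exact max_eq_right (not_lt.1 fun h => hg (mem_filter.2 ⟨hgT, h⟩))
      · simp [hFout g hgT])
  have hn := cheeger_pos_aux hd B (T.filter fun g => F g < 0) (fun g => by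
      refine le_trans (Nat.mul_le_mul_left 2 (card_le_card fun h hh => ?_)) (hc2 (B.blk g))
      have h1 := mem_inter.1 hh
      have h2 := (mem_filter.1 h1.1).2
      refine mem_filter.2 ⟨h1.2, ?_⟩
      simp only [hF, B.mem g h h1.2] at h2
      linarith) (fun g => max (-F g) 0) (fun g => le_max_right _ _) (fun g hg => by
      by_cases hgT : g ∈ T
      · exact max_eq_right (neg_nonpos.2 (not_lt.1 fun h => hg (mem_filter.2 ⟨hgT, h⟩)))
      · simp [hFout g hgT])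
  have lip : ∀ a b : ℝ, (max a 0 - max b 0) ^ 2 ≤ (a - b) ^ 2 := by
    intro a b
    exact sq_le_sq.2 (abs_max_sub_max_le_abs a b 0)
  set E : G → ℝ := fun g => ∑ x : Fin d × Fin d, (f g - f ((σ x.2).symm (σ x.1 g))) ^ 2 with hE
  have hE0 : ∀ g, 0 ≤ E g := fun g => sum_nonneg fun x _ => sq_nonneg _
  have e1 : ∀ g, ∑ x : Fin d × Fin d, (max (F g) 0 - max (F ((σ x.2).symm (σ x.1 g))) 0) ^ 2
      ≤ E g := fun g => sum_le_sum fun x _ => by rw [← hFd]; exact lip _ _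
  have e2 : ∀ g, ∑ x : Fin d × Fin d, (max (-F g) 0 - max (-F ((σ x.2).symm (σ x.1 g))) 0) ^ 2
      ≤ E g := fun g => sum_le_sum fun x _ => by
    rw [← hFd]
    refine (lip _ _).trans (le_of_eq ?_)
    ring
  have hd' : (0 : ℝ) ≤ 4 * (d : ℝ) ^ 2 := by positivity
  have hp' := hp.trans (mul_le_mul_of_nonneg_left (sum_le_sum fun g _ => e1 g) hd')
  have hn' := hn.trans (mul_le_mul_of_nonneg_left (sum_le_sum fun g _ => e2 g) hd')
  rw [sum_filter, sum_filter] at hp' hn'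
  have e3 : ∑ g ∈ T, F g ^ 2 = ∑ g ∈ T, (if 0 < F g then (max (F g) 0) ^ 2 else 0)
      + ∑ g ∈ T, (if F g < 0 then (max (-F g) 0) ^ 2 else 0) := by
    rw [← sum_add_distrib]
    refine sum_congr rfl fun g _ => ?_
    rcases lt_trichotomy (F g) 0 with h | h | h
    · rw [if_neg (not_lt.2 h.le), if_pos h, max_eq_left (by linarith)]; ring
    · simp [h]
    · rw [if_pos h, if_neg (not_lt.2 h.le), max_eq_left h.le]; ring
  have e4 : ∑ g ∈ T, (if 0 < F g then E g else 0) + ∑ g ∈ T, (if F g < 0 then E g else 0)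
      ≤ ∑ g ∈ T, E g := by
    rw [← sum_add_distrib]
    refine sum_le_sum fun g _ => ?_
    rcases lt_trichotomy (F g) 0 with h | h | h
    · rw [if_neg (not_lt.2 h.le), if_pos h]; simp
    · simp [h, hE0 g]
    · rw [if_pos h, if_neg (not_lt.2 h.le)]; simp
  have e5 := mul_le_mul_of_nonneg_left e4 hd'
  show ∑ g ∈ T, F g ^ 2 ≤ 4 * (d : ℝ) ^ 2 * ∑ g ∈ T, E g
  rw [e3]
  linarith

theorem cheeger_eval_aux (g : G) : Continuous fun ξ : L2 G => ξ g := by
  have h := (innerSL ℂ (dl g)).continuous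
  have e : (fun ξ : L2 G => ξ g) = innerSL ℂ (dl g) := by
    funext ξ
    rw [innerSL_apply_apply, inner_dl_left]
  rw [e]
  exact h

theorem cheeger_vec_aux (T : Finset G) (c : G → ℂ) (h : G) :
    (∑ g ∈ T, c g • dl g) h = if h ∈ T then c h else 0 := by
  rw [← inner_dl_left, inner_sum]
  simp only [inner_dl_left, l2_smul_apply, dl_apply, mul_ite, mul_one, mul_zero]
  rw [sum_ite_eq]

theorem cheeger_norm_aux (T : Finset G) (ξ : L2 G) (hξ : ∀ g, g ∉ T → ξ g = 0) :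
    ‖ξ‖ ^ 2 = ∑ g ∈ T, ‖ξ g‖ ^ 2 :=
  (l2_hasSum ξ).unique (hasSum_sum_of_ne_finset_zero fun g hg => by simp [hξ g hg])

/-- The vectors that are constant on the blocks. -/
def Blocks.cheegerN {σ : Fin d → G ≃ G} (B : Blocks σ) : Submodule ℂ (L2 G) where
  carrier := {ξ | (∀ g h, B.blk h = B.blk g → ξ h = ξ g) ∧ ∀ g, B.blk g = ∅ → ξ g = 0}
  add_mem' := by
    rintro ξ η ⟨h1, h2⟩ ⟨h3, h4⟩
    exact ⟨fun g h e => by rw [l2_add_apply, l2_add_apply, h1 g h e, h3 g h e],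
      fun g e => by rw [l2_add_apply, h2 g e, h4 g e, add_zero]⟩
  zero_mem' := ⟨fun _ _ _ => rfl, fun _ _ => rfl⟩
  smul_mem' := by
    rintro a ξ ⟨h1, h2⟩
    exact ⟨fun g h e => by rw [l2_smul_apply, l2_smul_apply, h1 g h e],
      fun g e => by rw [l2_smul_apply, h2 g e, mul_zero]⟩

theorem cheeger_closed_aux {σ : Fin d → G ≃ G} (B : Blocks σ) :
    IsClosed (B.cheegerN : Set (L2 G)) := by
  have e : (B.cheegerN : Set (L2 G)) =
      (⋂ g, ⋂ h, ⋂ (_ : B.blk h = B.blk g), {ξ : L2 G | ξ h = ξ g}) ∩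
        ⋂ g, ⋂ (_ : B.blk g = ∅), {ξ : L2 G | ξ g = 0} := by
    ext ξ
    simp only [Set.mem_inter_iff, Set.mem_iInter, Set.mem_ofPred_eq]
    rfl
  rw [e]
  refine IsClosed.inter ?_ ?_
  · exact isClosed_iInter fun g => isClosed_iInter fun h => isClosed_iInter fun _ =>
      isClosed_eq (cheeger_eval_aux h) (cheeger_eval_aux g)
  · exact isClosed_iInter fun g => isClosed_iInter fun _ =>
      isClosed_eq (cheeger_eval_aux g) continuous_const

theorem cheeger_proj_aux {σ : Fin d → G ≃ G} (B : Blocks σ) :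
    B.cheegerN.HasOrthogonalProjection :=
  haveI := (cheeger_closed_aux B).completeSpace_coe
  Submodule.HasOrthogonalProjection.ofCompleteSpace _

theorem cheeger_fin_aux (hd : 0 < d) {σ : Fin d → G ≃ G} (B : Blocks σ) (S : Finset G)
    (ξ : L2 G) (hξ : ∀ g, g ∉ S → ξ g = 0) :
    ∃ c ∈ B.cheegerN, ‖ξ - c‖ ^ 2 ≤ 4 * (d : ℝ) ^ 2 *
      ∑ x : Fin d × Fin d, ‖ξ - perm ((σ x.2).trans (σ x.1).symm) ξ‖ ^ 2 := by
  obtain ⟨a, ha0, ha1, ha2⟩ := cheeger_real_aux hd B S (fun g => (ξ g).re)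
    (fun g hg => by simp [hξ g hg])
  obtain ⟨b, hb0, hb1, hb2⟩ := cheeger_real_aux hd B S (fun g => (ξ g).im)
    (fun g hg => by simp [hξ g hg])
  set T := S ∪ S.biUnion B.blk with hT
  let c : G → ℂ := fun g => ⟨a (B.blk g), b (B.blk g)⟩
  have hc : ∀ h, (∑ g ∈ T, c g • dl g) h = c h := by
    intro h
    rw [cheeger_vec_aux]
    split_ifs with hh
    · rfl
    · apply Complex.ext
      · exact (ha1 h hh).symm
      · exact (hb1 h hh).symm
  refine ⟨∑ g ∈ T, c g • dl g, ⟨fun g h e => ?_, fun g e => ?_⟩, ?_⟩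
  · rw [hc, hc]; simp only [c, e]
  · rw [hc]
    apply Complex.ext
    · simp only [c, e, ha0]; rfl
    · simp only [c, e, hb0]; rfl
  rw [cheeger_norm_aux T _ (fun g hg => by
    rw [l2_sub_apply, cheeger_vec_aux, if_neg hg, hξ g (fun h => hg (mem_union_left _ h)),
      sub_zero])]
  have e1 : ∀ g, ‖(ξ - ∑ g ∈ T, c g • dl g) g‖ ^ 2 =
      ((ξ g).re - a (B.blk g)) ^ 2 + ((ξ g).im - b (B.blk g)) ^ 2 := by
    intro g
    rw [l2_sub_apply, hc, Complex.sq_norm, Complex.normSq_apply]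
    simp only [c, Complex.sub_re, Complex.sub_im]
    ring
  have e2 : ∀ (x : Fin d × Fin d) g, ‖(ξ - perm ((σ x.2).trans (σ x.1).symm) ξ) g‖ ^ 2 =
      ((ξ g).re - (ξ ((σ x.2).symm (σ x.1 g))).re) ^ 2 +
        ((ξ g).im - (ξ ((σ x.2).symm (σ x.1 g))).im) ^ 2 := by
    intro x g
    rw [l2_sub_apply, perm_apply, Complex.sq_norm, Complex.normSq_apply]
    simp only [Complex.sub_re, Complex.sub_im, Equiv.symm_trans_apply, Equiv.symm_symm]
    ring
  have e3 : ∑ g ∈ T, ∑ x : Fin d × Fin d, ((ξ g).re - (ξ ((σ x.2).symm (σ x.1 g))).re) ^ 2 +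
      ∑ g ∈ T, ∑ x : Fin d × Fin d, ((ξ g).im - (ξ ((σ x.2).symm (σ x.1 g))).im) ^ 2 ≤
      ∑ x : Fin d × Fin d, ‖ξ - perm ((σ x.2).trans (σ x.1).symm) ξ‖ ^ 2 := by
    rw [sum_comm, sum_comm (s := T), ← sum_add_distrib]
    refine sum_le_sum fun x _ => ?_
    rw [← sum_add_distrib]
    refine le_trans (le_of_eq ?_) (l2_sum_le _ T)
    exact sum_congr rfl fun g _ => (e2 x g).symm
  have hd' : (0 : ℝ) ≤ 4 * (d : ℝ) ^ 2 := by positivity
  have e4 := mul_le_mul_of_nonneg_left e3 hd'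
  simp only [e1, sum_add_distrib]
  linarith

theorem cheeger_gap_aux (hd : 0 < d) {σ : Fin d → G ≃ G} (B : Blocks σ) (η : L2 G)
    (hη : η ∈ B.cheegerNᗮ) : ‖η‖ ^ 2 ≤ 4 * (d : ℝ) ^ 2 *
      ∑ x : Fin d × Fin d, ‖η - perm ((σ x.2).trans (σ x.1).symm) η‖ ^ 2 := by
  have := cheeger_proj_aux B
  have hc : IsClosed {ξ : L2 G | ‖B.cheegerNᗮ.starProjection ξ‖ ^ 2 ≤ 4 * (d : ℝ) ^ 2 *
      ∑ x : Fin d × Fin d, ‖ξ - perm ((σ x.2).trans (σ x.1).symm) ξ‖ ^ 2} :=
    isClosed_le (by fun_prop) (by fun_prop)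
  have h := hc.mem_of_tendsto (l2_hasSum_dl η) (Filter.Eventually.of_forall fun s => by
    obtain ⟨c, hc1, hc2⟩ := cheeger_fin_aux hd B s (∑ g ∈ s, η g • dl g)
      (fun g hg => by rw [cheeger_vec_aux, if_neg hg])
    refine le_trans ?_ hc2
    have e : B.cheegerNᗮ.starProjection (∑ g ∈ s, η g • dl g) =
        B.cheegerNᗮ.starProjection ((∑ g ∈ s, η g • dl g) - c) := by
      have : B.cheegerNᗮ.starProjection c = 0 :=
        (Submodule.starProjection_apply_eq_zero_iff _).2 (Submodule.le_orthogonal_orthogonal _ hc1)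
      rw [map_sub, this, sub_zero]
    rw [e]
    exact pow_le_pow_left₀ (norm_nonneg _) (Submodule.norm_starProjection_apply_le _ _) 2)
  have e : B.cheegerNᗮ.starProjection η = η := Submodule.starProjection_eq_self_iff.2 hη
  simpa only [Set.mem_ofPred_eq, e] using h

theorem cheeger_trans_aux (s t : G ≃ G) (ξ : L2 G) : perm (s.trans t) ξ = perm t (perm s ξ) := by
  apply lp.ext
  funext h
  rw [perm_apply, perm_apply, perm_apply]
  rfl

theorem cheeger_sum_aux (v : Fin d → L2 G) (r : ℝ) (hv : ∀ i, ‖v i‖ = r) :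
    ∑ x : Fin d × Fin d, ‖v x.1 - v x.2‖ ^ 2 = 2 * (d : ℝ) ^ 2 * r ^ 2 - 2 * ‖∑ i, v i‖ ^ 2 := by
  have e1 : ∀ x : Fin d × Fin d, ‖v x.1 - v x.2‖ ^ 2
      = 2 * r ^ 2 - 2 * RCLike.re ⟪v x.1, v x.2⟫_ℂ := by
    intro x
    rw [@norm_sub_sq ℂ, hv, hv]; ring
  have e2 : ‖∑ i, v i‖ ^ 2 = ∑ x : Fin d × Fin d, RCLike.re ⟪v x.1, v x.2⟫_ℂ := by
    rw [← @inner_self_eq_norm_sq ℂ, sum_inner, map_sum, Fintype.sum_prod_type]
    refine sum_congr rfl fun i _ => ?_
    rw [inner_sum, map_sum]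
  simp only [e1]
  rw [sum_sub_distrib, ← mul_sum, ← mul_sum, ← e2, sum_const, card_univ, Fintype.card_prod,
    Fintype.card_fin, nsmul_eq_mul]
  push_cast
  ring

theorem cheeger_Mop_aux (σ : Fin d → G ≃ G) (ξ : L2 G) :
    Mop σ ξ = ((d : ℂ) ^ 2)⁻¹ • ∑ i, ∑ j, perm ((σ i).trans (σ j).symm) ξ := by
  simp only [Mop, smul_apply, _root_.sum_apply]

theorem cheeger_contr_aux (hd : 0 < d) {σ : Fin d → G ≃ G} (B : Blocks σ) (η : L2 G)
    (hη : η ∈ B.cheegerNᗮ) : ‖Mop σ η‖ ≤ rate d * ‖η‖ := by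
  have h1 := cheeger_gap_aux hd B η hη
  have h2 := cheeger_sum_aux (fun i => perm (σ i) η) ‖η‖ (fun i => norm_perm _ _)
  have e1 : ∀ x : Fin d × Fin d, ‖η - perm ((σ x.2).trans (σ x.1).symm) η‖ =
      ‖perm (σ x.1) η - perm (σ x.2) η‖ := by
    intro x
    have e : ((σ x.2).trans (σ x.1).symm).trans (σ x.1) = σ x.2 := by
      ext g
      simp
    rw [← norm_perm (σ x.1), map_sub, ← cheeger_trans_aux, e]
  simp only [e1] at h1
  rw [h2] at h1
  set V := ∑ i, perm (σ i) η with hV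
  have e2 : Mop σ η = ((d : ℂ) ^ 2)⁻¹ • ∑ j, perm (σ j).symm V := by
    rw [cheeger_Mop_aux, sum_comm]
    congr 1
    refine sum_congr rfl fun j _ => ?_
    rw [hV, map_sum]
    exact sum_congr rfl fun i _ => cheeger_trans_aux _ _ _
  have e3 : ‖∑ j, perm (σ j).symm V‖ ≤ d * ‖V‖ := by
    refine (norm_sum_le _ _).trans (le_of_eq ?_)
    simp [norm_perm]
  have hd1 : (1 : ℝ) ≤ d := by exact_mod_cast hd
  have hd0 : (0 : ℝ) < d := by linarith
  have hr := rate_nonneg hd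
  have e4 : ‖V‖ ≤ d * (rate d * ‖η‖) := by
    refine (pow_le_pow_iff_left₀ (norm_nonneg _) (by positivity) two_ne_zero).1 ?_
    have e5 : (d * (rate d * ‖η‖)) ^ 2 =
        (d : ℝ) ^ 2 * ‖η‖ ^ 2 - ‖η‖ ^ 2 / (8 * (d : ℝ) ^ 2) + ‖η‖ ^ 2 / (256 * (d : ℝ) ^ 6) := by
      unfold rate
      field_simp
      ring
    have e6 : 0 ≤ ‖η‖ ^ 2 / (256 * (d : ℝ) ^ 6) := by positivity
    have e7 : ‖η‖ ^ 2 / (8 * (d : ℝ) ^ 2) ≤ (d : ℝ) ^ 2 * ‖η‖ ^ 2 - ‖V‖ ^ 2 := by
      rw [div_le_iff₀ (by positivity)]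
      linarith
    linarith
  rw [e2, norm_smul, norm_inv, norm_pow, Complex.norm_natCast]
  calc ((d : ℝ) ^ 2)⁻¹ * ‖∑ j, perm (σ j).symm V‖
      ≤ ((d : ℝ) ^ 2)⁻¹ * (d * (d * (rate d * ‖η‖))) :=
        mul_le_mul_of_nonneg_left (e3.trans (mul_le_mul_of_nonneg_left e4 hd0.le))
          (by positivity)
    _ = rate d * ‖η‖ := by field_simp

theorem cheeger_fix_aux {σ : Fin d → G ≃ G} (B : Blocks σ) (ξ : L2 G) (hξ : ξ ∈ B.cheegerN)
    (i j : Fin d) : perm ((σ i).trans (σ j).symm) ξ = ξ := by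
  apply lp.ext
  funext h
  rw [perm_apply]
  exact hξ.1 _ _ (B.inv j i h)

theorem cheeger_fixM_aux (hd : 0 < d) {σ : Fin d → G ≃ G} (B : Blocks σ) (ξ : L2 G)
    (hξ : ξ ∈ B.cheegerN) : Mop σ ξ = ξ := by
  have hd0 : (d : ℂ) ≠ 0 := by exact_mod_cast hd.ne'
  rw [cheeger_Mop_aux]
  simp only [cheeger_fix_aux B ξ hξ, sum_const, card_univ, Fintype.card_fin]
  rw [← Nat.cast_smul_eq_nsmul ℂ, ← Nat.cast_smul_eq_nsmul ℂ, smul_smul, smul_smul]
  have : ((d : ℂ) ^ 2)⁻¹ * d * d = 1 := by field_simp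
  rw [this, one_smul]

theorem cheeger_perp_aux {σ : Fin d → G ≃ G} (B : Blocks σ) (η : L2 G)
    (hη : η ∈ B.cheegerNᗮ) : Mop σ η ∈ B.cheegerNᗮ := by
  rw [cheeger_Mop_aux]
  refine Submodule.smul_mem _ _ (Submodule.sum_mem _ fun i _ => Submodule.sum_mem _ fun j _ => ?_)
  rw [Submodule.mem_orthogonal]
  intro w hw
  have e : ((σ i).trans (σ j).symm).symm = (σ j).trans (σ i).symm := rfl
  rw [← ContinuousLinearMap.adjoint_inner_left, ← ContinuousLinearMap.star_eq_adjoint, star_perm,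
    e, cheeger_fix_aux B w hw]
  exact (Submodule.mem_orthogonal _ _).1 hη w hw

theorem cheeger_pow_aux (hd : 0 < d) {σ : Fin d → G ≃ G} (B : Blocks σ)
    [B.cheegerN.HasOrthogonalProjection] (k : ℕ) (ξ : L2 G) :
    (Mop σ ^ k - B.cheegerN.starProjection) ξ ∈ B.cheegerNᗮ ∧
      ‖(Mop σ ^ k - B.cheegerN.starProjection) ξ‖ ≤ rate d ^ k * ‖ξ‖ := by
  induction k with
  | zero =>
    have e : (Mop σ ^ 0 - B.cheegerN.starProjection) ξ = B.cheegerNᗮ.starProjection ξ := by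
      rw [Submodule.starProjection_orthogonal_val, pow_zero]; rfl
    rw [e, pow_zero, one_mul]
    exact ⟨Submodule.starProjection_apply_mem _ _, Submodule.norm_starProjection_apply_le _ _⟩
  | succ k ih =>
    have e : (Mop σ ^ (k + 1) - B.cheegerN.starProjection) ξ =
        Mop σ ((Mop σ ^ k - B.cheegerN.starProjection) ξ) := by
      rw [sub_apply, sub_apply, map_sub,
        cheeger_fixM_aux hd B _ (Submodule.starProjection_apply_mem _ _), pow_succ', op_mul_apply]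
    rw [e]
    refine ⟨cheeger_perp_aux B _ ih.1, (cheeger_contr_aux hd B _ ih.1).trans ?_⟩
    rw [pow_succ', mul_assoc]
    exact mul_le_mul_of_nonneg_left ih.2 (rate_nonneg hd)

theorem cheeger_dl_aux {σ : Fin d → G ≃ G} (B : Blocks σ)
    [B.cheegerN.HasOrthogonalProjection] (g : G) :
    B.cheegerN.starProjection (dl g) g = (((B.blk g).card : ℝ)⁻¹ : ℝ) := by
  have hmem : ∀ h, B.blk h = B.blk g → (B.blk g).Nonempty → h ∈ B.blk g := by
    intro h e hne
    rw [← e] at hne ⊢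
    exact B.self h hne
  have hv : (∑ h ∈ B.blk g, (((B.blk g).card : ℂ)⁻¹) • dl h) ∈ B.cheegerN := by
    refine ⟨fun a b e => ?_, fun a e => ?_⟩
    · rw [cheeger_vec_aux (B.blk g) (fun _ => ((B.blk g).card : ℂ)⁻¹),
        cheeger_vec_aux (B.blk g) (fun _ => ((B.blk g).card : ℂ)⁻¹)]
      have : b ∈ B.blk g ↔ a ∈ B.blk g :=
        ⟨fun hb => hmem a (e.symm.trans (B.mem g b hb)) ⟨b, hb⟩,
          fun ha => hmem b (e.trans (B.mem g a ha)) ⟨a, ha⟩⟩
      simp only [this]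
    · rw [cheeger_vec_aux (B.blk g) (fun _ => ((B.blk g).card : ℂ)⁻¹), if_neg]
      intro ha
      have := B.mem g a ha
      rw [← this, e] at ha
      simp at ha
  have e : B.cheegerN.starProjection (dl g) = ∑ h ∈ B.blk g, (((B.blk g).card : ℂ)⁻¹) • dl h := by
    refine Submodule.eq_starProjection_of_mem_of_inner_eq_zero hv fun w hw => ?_
    rw [inner_sub_left, sum_inner, inner_dl_left]
    simp only [inner_smul_left, inner_dl_left, map_inv₀, map_natCast]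
    rw [sum_congr rfl (fun h hh => by rw [hw.1 g h (B.mem g h hh)]), sum_const, nsmul_eq_mul]
    rcases (B.blk g).eq_empty_or_nonempty with h0 | hne
    · rw [hw.2 g h0]; simp
    · have : ((B.blk g).card : ℂ) ≠ 0 := by exact_mod_cast hne.card_pos.ne'
      field_simp
      ring
  rw [e, cheeger_vec_aux (B.blk g) (fun _ => ((B.blk g).card : ℂ)⁻¹)]
  rcases (B.blk g).eq_empty_or_nonempty with h0 | hne
  · simp [h0]
  · rw [if_pos (B.self g hne)]; simp

theorem Blocks.cauchy (hd : 0 < d) {σ : Fin d → G ≃ G} (B : Blocks σ) (m k : ℕ) :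
    ‖Mop σ ^ m - Mop σ ^ k‖ ≤ rate d ^ m + rate d ^ k := by
  have := cheeger_proj_aux B
  have h : ∀ n : ℕ, ‖Mop σ ^ n - B.cheegerN.starProjection‖ ≤ rate d ^ n := fun n =>
    ContinuousLinearMap.opNorm_le_bound _ (pow_nonneg (rate_nonneg hd) n)
      fun ξ => (cheeger_pow_aux hd B n ξ).2
  have e : Mop σ ^ m - Mop σ ^ k =
      (Mop σ ^ m - B.cheegerN.starProjection) - (Mop σ ^ k - B.cheegerN.starProjection) := by
    abel
  rw [e]
  exact (norm_sub_le _ _).trans (add_le_add (h m) (h k))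

theorem Blocks.diag (hd : 0 < d) {σ : Fin d → G ≃ G} (B : Blocks σ) (g : G) (k : ℕ) :
    ‖(Mop σ ^ k) (dl g) g - (((B.blk g).card : ℝ)⁻¹ : ℝ)‖ ≤ rate d ^ k := by
  have := cheeger_proj_aux B
  have h := (cheeger_pow_aux hd B k (dl g)).2
  rw [norm_dl, mul_one] at h
  rw [← cheeger_dl_aux B g, ← l2_sub_apply]
  exact (norm_apply_le _ g).trans h

end Vale.Agent.P089
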