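import Vale.Agent.P089.Walk

/-! The local code, the parameters and the levels. -/

namespace Vale.Agent.P089

open Finset

/-- The parameters of the construction. -/
structure Par where
  B : ℕ
  c : ℕ
  p : ℕ
  hB : 0 < B
  hc : 12 * B ≤ c
  prime : p.Prime
  hp1 : 2 * (32 * (12 * c) * (24 * c) ^ 48) ^ 3 < p
  hp2 : 2 ^ (13 * B) < p
  graphs : ∀ g n : ℕ, 3 ≤ g → (24 * c) ^ (4 * g) ≤ n → ∃ π : Gr n (12 * c), Girth π g ∧
    Exp π (12 * c - 7) (3 * B - 1) (3 * B) ∧ Exp π c 1 B

namespace Par

variable (P : Par)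

instance : Fact P.p.Prime := ⟨P.prime⟩

/-- The degree. -/
abbrev d : ℕ := 12 * P.c

/-- The field. -/
abbrev F : Type := ZMod P.p

/-- The local space. -/
abbrev E : Type := Fin (22 * P.c) → P.F

/-- The number of sources at level `k`. -/
def n (k : ℕ) : ℕ := ((24 * P.c) ^ 48) ^ (k + 1)

/-- The moment curve. -/
def eps (t : P.F) : P.E := fun k => t ^ (k : ℕ)

/-- The first vector of a colour. -/
def ea (i : Fin P.d) : P.E := P.eps ((i : ℕ) : P.F)

/-- The second vector of a colour. -/
def eb (i : Fin P.d) : P.E := P.eps ((P.d + i : ℕ) : P.F)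

/-- Local dual words. -/
def Loc (x : (Fin P.d → P.F) × (Fin P.d → P.F)) : Prop :=
  ∑ i, x.1 i • P.ea i + ∑ i, x.2 i • P.eb i = 0

/-- There is no dual word outside a set `Q` to which every other vertex sends at most one
edge. -/
def Dual {n : ℕ} (π : Gr n P.d) (bit : Fin n × Fin P.d → P.F) : Prop :=
  ∀ (Q : Set (Vx n)) (x : Vx n → (Fin P.d → P.F) × (Fin P.d → P.F)),
    (∀ v, v ∉ Q → ∀ i j, mv π v i ∈ Q → mv π v j ∈ Q → i = j) → (∀ v, v ∉ Q → P.Loc (x v)) →
    (∀ u i, (u, false) ∉ Q → (π i u, true) ∉ Q →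
      (x (π i u, true)).2 i = bit (u, i) * (x (u, false)).2 i) →
    ∀ v, v ∉ Q → x v = 0

theorem c_pos : 12 ≤ P.c := by
  have := P.hB
  have := P.hc
  omega

theorem n_pos (k : ℕ) : 0 < P.n k := by
  have := P.c_pos
  unfold n
  positivity

theorem n_succ (k : ℕ) : 44 * P.c * P.n k + k + 1 ≤ P.n (k + 1) := by
  have h0 := P.c_pos
  have h1 : 44 * P.c + 1 ≤ (24 * P.c) ^ 48 :=
    le_trans (by nlinarith) (Nat.pow_le_pow_right (by omega) (show 2 ≤ 48 by omega))
  have h2 : k + 1 < P.n k := Nat.lt_pow_self (by omega)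
  have h3 : P.n (k + 1) = P.n k * (24 * P.c) ^ 48 := pow_succ _ _
  nlinarith

theorem two_d_le : 2 * P.d ≤ P.p := by
  have h0 := P.c_pos
  have h1 := P.hp1
  have h2 : 1 ≤ (24 * P.c) ^ 48 := Nat.one_le_pow _ _ (by omega)
  have h3 := Nat.le_self_pow (show 3 ≠ 0 by omega) (32 * (12 * P.c) * (24 * P.c) ^ 48)
  have h4 := Nat.mul_le_mul_left (32 * (12 * P.c)) h2
  show 2 * (12 * P.c) ≤ _
  omega

/-- The nodes of the code. -/
def nod : Fin P.d ⊕ Fin P.d → P.F :=
  Sum.elim (fun i => ((i : ℕ) : P.F)) fun i => ((P.d + i : ℕ) : P.F)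

theorem nod_inj : Function.Injective P.nod := by
  have h := P.two_d_le
  have k := CharP.natCast_injOn_Iio P.F P.p
  rintro (i | i) (j | j) e <;> have := i.2 <;> have := j.2 <;>
    have := k (Set.mem_Iio.2 (by omega)) (Set.mem_Iio.2 (by omega)) e
  · exact congrArg _ (Fin.ext this)
  · omega
  · omega
  · exact congrArg _ (Fin.ext (by omega))

open Classical in
/-- A functional that vanishes on both vectors of `11 c` colours vanishes. -/
theorem fun_zero (φ : P.E →ₗ[P.F] P.F)
    (h : 11 * P.c ≤ (univ.filter fun i => φ (P.ea i) = 0 ∧ φ (P.eb i) = 0).card) : φ = 0 := by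
  set T := univ.filter fun i => φ (P.ea i) = 0 ∧ φ (P.eb i) = 0 with hT
  obtain ⟨g, hg⟩ := Function.Embedding.exists_of_card_le_finset (α := Fin (22 * P.c))
    (s := T.disjSum T) (by rw [card_disjSum, Fintype.card_fin]; omega)
  have k := Matrix.eq_zero_of_forall_index_sum_pow_mul_eq_zero (P.nod_inj.comp g.injective)
    (v := fun k => φ fun j => if k = j then 1 else 0) fun j => by
      have k1 : φ (P.eps (P.nod (g j))) = 0 := by
        have := hg ⟨j, rfl⟩
        generalize g j = x at this
        rcases x with i | i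
        · exact (mem_filter.1 (inl_mem_disjSum.1 this)).2.1
        · exact (mem_filter.1 (inr_mem_disjSum.1 this)).2.2
      rwa [LinearMap.pi_apply_eq_sum_univ] at k1
  ext1 v
  ext
  refine (LinearMap.pi_apply_eq_sum_univ φ _).trans (sum_eq_zero fun j _ => ?_)
  rw [show φ _ = 0 from congrFun k j, smul_zero]

open Classical in
/-- A nonzero dual word has more than `10 c` nonzero second coordinates. -/
theorem loc_zero {x : (Fin P.d → P.F) × (Fin P.d → P.F)} (h : P.Loc x)
    (h' : (univ.filter fun i => x.2 i ≠ 0).card ≤ 10 * P.c) : x = 0 := by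
  set y : Fin P.d ⊕ Fin P.d → P.F := Sum.elim x.1 x.2 with hy
  set S := univ.filter fun j => y j ≠ 0 with hS
  have h1 : S.card ≤ 22 * P.c := by
    have : S ⊆ univ.disjSum (univ.filter fun i => x.2 i ≠ 0) := by
      rintro (i | i) hi
      · simp
      · simpa [hS, hy] using hi
    have := card_le_card this
    rw [card_disjSum, card_univ, Fintype.card_fin] at this
    have hd : P.d = 12 * P.c := rfl
    omega
  have k := Matrix.eq_zero_of_forall_pow_sum_mul_pow_eq_zero
    ((P.nod_inj.comp Subtype.val_injective).comp S.equivFin.symm.injective)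
    (v := fun j => y (S.equivFin.symm j)) fun i => by
      have k1 := congrFun h (Fin.castLE h1 i)
      refine (Equiv.sum_comp S.equivFin.symm fun j => y j * P.nod j ^ (i : ℕ)).trans ?_
      rw [sum_coe_sort S fun j => y j * P.nod j ^ (i : ℕ)]
      refine (sum_filter_of_ne fun j _ hj => left_ne_zero_of_mul hj).trans ?_
      rw [Fintype.sum_sum_type]
      simpa [ea, eb, eps, Finset.sum_apply, nod, hy] using k1
  have k2 : ∀ j, y j = 0 := fun j => by
    by_contra hj
    simpa [hj] using congrFun k (S.equivFin ⟨j, by simpa [hS] using hj⟩)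
  exact Prod.ext (funext fun i => k2 (Sum.inl i)) (funext fun i => k2 (Sum.inr i))

open Classical in
theorem card_loc : (univ.filter P.Loc).card ≤ P.p ^ (2 * P.c) := by
  have hd : P.d = 12 * P.c := rfl
  have h2 : 2 * P.c ≤ P.d := by omega
  have : (univ : Finset (Fin (2 * P.c) → P.F)).card = P.p ^ (2 * P.c) := by simp
  rw [← this]
  refine card_le_card_of_injOn (fun x j => x.2 (Fin.castLE h2 j)) (fun _ _ => by simp) ?_
  intro x hx y hy e
  have hx : P.Loc x := by simpa using hx
  have hy : P.Loc y := by simpa using hy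
  refine sub_eq_zero.1 (P.loc_zero ?_ ?_)
  · unfold Loc at *
    simp only [Prod.fst_sub, Prod.snd_sub, Pi.sub_apply, sub_smul, sum_sub_distrib]
    linear_combination (exp := 1) hx - hy
  · have k : (univ.filter fun i => (x - y).2 i ≠ 0) ⊆ (univ.map (Fin.castLEEmb h2))ᶜ := by
      intro i hi
      simp only [mem_compl, mem_map, mem_univ, true_and]
      rintro ⟨j, rfl⟩
      exact (mem_filter.1 hi).2 (sub_eq_zero.2 (congrFun e j))
    have := card_le_card k
    rw [card_compl, card_map, card_univ, Fintype.card_fin, Fintype.card_fin] at this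
    omega

theorem exists_tau {n : ℕ} {π : Gr n P.d} {bit : Fin n × Fin P.d → P.F} (h : P.Dual π bit) :
    ∃ tau : Vx n → P.E →ₗ[P.F] P.F, ∀ u i, tau (u, false) (P.ea i) = bit (u, i) ∧
      tau (π i u, true) (P.ea i) = bit (u, i) ∧
      tau (u, false) (P.eb i) = bit (u, i) * tau (π i u, true) (P.eb i) := by
  let w : (Vx n × Fin P.d) ⊕ (Fin n × Fin P.d) → Vx n → P.E :=
    Sum.elim (fun x => Pi.single x.1 (P.ea x.2)) fun e =>
      Pi.single (e.1, false) (P.eb e.2) - Pi.single (π e.2 e.1, true) (bit e • P.eb e.2)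
  have hw : LinearIndependent P.F w := by
    refine Fintype.linearIndependent_iff.2 fun a ha => ?_
    have k := h ∅ (fun v => (fun i => (if v.2 then -1 else 1) * a (Sum.inl (v, i)),
      fun i => (if v.2 then bit (key π v i) else 1) * a (Sum.inr (key π v i))))
      (fun _ _ _ _ k => k.elim) (fun v _ => ?_) (fun u i _ _ => by simp)
    · rintro (⟨⟨u, _ | _⟩, i⟩ | ⟨u, i⟩)
      · simpa using congrFun (congrArg Prod.fst (k (u, false) id)) i
      · simpa using congrFun (congrArg Prod.fst (k (u, true) id)) i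
      · simpa using congrFun (congrArg Prod.snd (k (u, false) id)) i
    · have k := congrFun ha v
      simp only [Fintype.sum_sum_type, w, Sum.elim_inl, Sum.elim_inr, Finset.sum_apply,
        Pi.smul_apply, Pi.sub_apply, Pi.single_apply, Pi.zero_apply,
        Fintype.sum_prod_type_right (α₂ := Fin P.d)] at k
      unfold Loc
      rcases v with ⟨u, _ | _⟩
      · simpa using k
      · simp only [Prod.mk.injEq, ← Equiv.symm_apply_eq] at k
        simpa [smul_smul, mul_comm, neg_add_eq_zero, add_neg_eq_zero] using k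
  obtain ⟨g, hg⟩ := LinearMap.exists_leftInverse_of_injective _
    (LinearMap.ker_eq_bot.2 hw)
  let Φ := Finsupp.linearCombination P.F (Sum.elim (fun x : Vx n × Fin P.d => bit (key π x.1 x.2))
    fun _ : Fin n × Fin P.d => (0 : P.F)) ∘ₗ g
  have hΦ : ∀ j, Φ (w j) = Sum.elim (fun x : Vx n × Fin P.d => bit (key π x.1 x.2))
      (fun _ : Fin n × Fin P.d => (0 : P.F)) j := fun j => by
    have := LinearMap.congr_fun hg (Finsupp.single j 1)
    simp only [LinearMap.comp_apply, Finsupp.linearCombination_single, one_smul,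
      LinearMap.id_apply] at this
    simp only [Φ, LinearMap.comp_apply, this, Finsupp.linearCombination_single, one_smul]
  refine ⟨fun v => Φ ∘ₗ LinearMap.single P.F (fun _ => P.E) v, fun u i => ⟨?_, ?_, ?_⟩⟩
  · exact hΦ (Sum.inl ((u, false), i))
  · simpa [w] using hΦ (Sum.inl ((π i u, true), i))
  · exact (sub_eq_zero.1 ((map_sub Φ _ _).symm.trans (hΦ (Sum.inr (u, i))))).trans
      (map_smul (Φ ∘ₗ LinearMap.single P.F (fun _ => P.E) (π i u, true)) _ _)

open Classical in
theorem conn_aux {n : ℕ} {π : Gr n P.d} (h : Exp π (12 * P.c - 7) (3 * P.B - 1) (3 * P.B))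
    (S : Vx n → Prop) (hS : ∀ v i, S v → S (mv π v i)) {v : Vx n} (hv : S v) :
    (3 * P.B - 1) * n < 3 * P.B * (univ.filter fun u => S (u, false)).card := by
  have hc := P.c_pos
  let i : Fin P.d := ⟨0, by show 0 < 12 * P.c; omega⟩
  by_contra k
  have h1 := h (univ.filter fun u => S (u, false)) (univ.filter fun u => S (u, true)) _ le_rfl
    (card_le_card_of_injOn (π i).symm (fun u hu => by
      simpa using hS _ i (mem_filter.1 (mem_coe.1 hu)).2) (π i).symm.injective.injOn)
    (card_pos.2 (by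
      rcases v with ⟨u, _ | _⟩
      · exact ⟨u, by simpa using hv⟩
      · exact ⟨(π i).symm u, by simpa using hS _ i hv⟩)) (not_lt.1 k)
  have h2 : ((univ.filter fun u => S (u, false)) ×ˢ (univ : Finset (Fin P.d))).card ≤
      ec π (univ.filter fun u => S (u, false)) (univ.filter fun u => S (u, true)) := by
    refine card_le_card fun e he => ?_
    simp only [mem_product, mem_filter, mem_univ, true_and, and_true] at he ⊢
    exact ⟨he, hS _ e.2 he⟩
  rw [card_product, card_univ, Fintype.card_fin, mul_comm] at h2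
  exact absurd (lt_of_mul_lt_mul_right (h2.trans_lt h1) (Nat.zero_le _))
    (by show ¬ 12 * P.c < _; omega)

theorem conn {n : ℕ} {π : Gr n P.d} (h : Exp π (12 * P.c - 7) (3 * P.B - 1) (3 * P.B))
    (v w : Vx n) : ∃ cs L, walk π v cs L = w := by
  classical
  by_contra k
  have h0 : ∀ v' i, (∃ cs L, walk π v cs L = v') → ∃ cs L, walk π v cs L = mv π v' i := by
    rintro _ i ⟨cs, L, rfl⟩
    refine ⟨Function.update cs L i, L + 1, ?_⟩
    rw [walk, Function.update_self,
      walk_congr π v L fun s hs => Function.update_of_ne hs.ne _ _]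
  have h1 := P.conn_aux h _ h0 (v := v) ⟨fun _ => ⟨0, by
    have := P.c_pos
    show 0 < 12 * P.c
    omega⟩, 0, rfl⟩
  have h2 := P.conn_aux h (fun v' => ¬ ∃ cs L, walk π v cs L = v')
    (fun v' i h1 h2 => h1 (by simpa using h0 _ i h2)) k
  have h3 := card_filter_add_card_filter_not (s := (univ : Finset (Fin n)))
    fun u => ∃ cs L, walk π v cs L = (u, false)
  rw [card_univ, Fintype.card_fin] at h3
  have h4 := add_lt_add h1 h2
  obtain ⟨b, hb⟩ : ∃ b, P.B = b + 1 := ⟨P.B - 1, by have := P.hB; omega⟩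
  replace h4 := h4.trans_eq ((mul_add _ _ _).symm.trans (congrArg (3 * P.B * ·)
    (show _ = n by convert h3)))
  rw [← add_mul] at h4
  have h5 := lt_of_mul_lt_mul_right (a := n) h4 (Nat.zero_le _)
  omega

/-- One level: a labelled expander with a codeword. -/
structure Lev (k : ℕ) where
  π : Gr (P.n k) P.d
  bit : Fin (P.n k) × Fin P.d → P.F
  tau : Vx (P.n k) → P.E →ₗ[P.F] P.F
  bit_ne : ∀ e, bit e ≠ 0
  girth : Girth π (12 * k + 11)
  exp1 : Exp π (12 * P.c - 7) (3 * P.B - 1) (3 * P.B)
  exp2 : Exp π P.c 1 P.B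
  dual : P.Dual π bit
  sc : ∀ (v v' : Vx (P.n k)) (cs : ℕ → Fin P.d), v.2 = v'.2 → Red cs (k + 1) →
    (∀ t < k + 1, bw π bit v cs t = bw π bit v' cs t) → v = v'
  tau_ed : ∀ u i, tau (u, false) (P.ea i) = bit (u, i) ∧
    tau (π i u, true) (P.ea i) = bit (u, i) ∧
    tau (u, false) (P.eb i) = bit (u, i) * tau (π i u, true) (P.eb i)

/-- No word of length `j + 1` of the first graph is read in the second graph. -/
def Avoid {n n' : ℕ} (j : ℕ) (π : Gr n P.d) (bit : Fin n × Fin P.d → P.F) (π' : Gr n' P.d)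
    (bit' : Fin n' × Fin P.d → P.F) : Prop :=
  ∀ (v : Vx n) (v' : Vx n') (cs : ℕ → Fin P.d), v.2 = v'.2 → Red cs (j + 1) →
    ¬ ∀ t < j + 1, bw π bit v cs t = bw π' bit' v' cs t

/-- All levels, and a set of levels that are switched on. -/
structure Tower where
  lev : ∀ k, P.Lev k
  on : Set ℕ
  avoid : ∀ j k, j < k → P.Avoid j (lev j).π (lev j).bit (lev k).π (lev k).bit

end Par

end Vale.Agent.P089
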