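import Vale.Agent.P086.Defs

/-! The reduced group C*-algebra of a discrete group and its canonical trace. -/

namespace Vale.Agent.P089

open Vale.Agent.P086

/-- The reduced group C*-algebra: the operator norm closure of the complex span of the left
translation operators on `ℓ²(G)`. -/
def reducedCStar (G : Type) [Group G] : Set (Op G) :=
  closure (Submodule.span ℂ (leftTranslations G) : Set (Op G))

open Classical in
/-- The unit vector at the identity element. -/
noncomputable def deltaOne (G : Type) [Group G] : L2 G := lp.single 2 (1 : G) (1 : ℂ)

/-- The canonical trace `T ↦ ⟨δ_e, T δ_e⟩`. -/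
noncomputable def canonicalTrace {G : Type} [Group G] (T : Op G) : ℂ :=
  inner ℂ (deltaOne G) (T (deltaOne G))

end Vale.Agent.P089
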