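import Vale.Agent.P089.GeoDef
import Vale.Agent.P186.FreeTree

/-! Geodesic Schreier transversals for quotients of free groups. -/

namespace Vale.Agent.P089

open Vale.Agent.P186

variable {S G : Type} [DecidableEq S] [Group G]

theorem fd_letter (x : FreeGroup S) (l : S × Bool) : fd x (x * FreeGroup.mk [l]) = 1 := by
  unfold fd
  rw [inv_mul_cancel_left, norm_mk_red FreeGroup.IsReduced.singleton]
  rfl

omit [DecidableEq S] in
theorem mk_fl (l : S × Bool) : (FreeGroup.mk [fl l] : FreeGroup S) = (FreeGroup.mk [l])⁻¹ := by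
  rw [FreeGroup.inv_mk]
  simp [FreeGroup.invRev, fl]

theorem mk_letter_inj {l l' : S × Bool} (h : (FreeGroup.mk [l] : FreeGroup S) = FreeGroup.mk [l']) : l = l' := by
  have := congrArg FreeGroup.toWord h
  rw [toWord_mk_red FreeGroup.IsReduced.singleton, toWord_mk_red FreeGroup.IsReduced.singleton] at this
  simpa using this

theorem exists_last {x : FreeGroup S} (h : x ≠ 1) :
    ∃ y l, x = y * FreeGroup.mk [l] ∧ fd 1 x = fd 1 y + 1 := by
  have hne : x.toWord ≠ [] := fun h' => h (FreeGroup.toWord_eq_nil_iff.1 h')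
  have e : x.toWord = x.toWord.dropLast ++ [x.toWord.getLast hne] :=
    (List.dropLast_append_getLast hne).symm
  refine ⟨FreeGroup.mk x.toWord.dropLast, x.toWord.getLast hne, ?_, ?_⟩
  · rw [FreeGroup.mul_mk, ← e, FreeGroup.mk_toWord]
  · rw [(fd_prefix e).1, fd_one]
    conv_lhs => rw [e]
    simp

theorem btw_ord {x y t u : FreeGroup S} (ht : Btw fd x t y) (hu : Btw fd x u y)
    (h : fd x t ≤ fd x u) : fd x t + fd t u = fd x u := by
  rcases fd_tree.thin x y u t ht with h1 | h1
  · exact h1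
  · unfold P186.Btw at *
    have := fd_symm t u
    omega

/-- A geodesic transversal that is closed under initial segments. -/
structure Schreier (π : FreeGroup S →* G) where
  rep : G → FreeGroup S
  lt : G → S × Bool
  map : ∀ g, π (rep g) = g
  min : ∀ x, fd 1 (rep (π x)) ≤ fd 1 x
  last : ∀ g, g ≠ 1 → rep g = rep (g * (π (FreeGroup.mk [lt g]))⁻¹) * FreeGroup.mk [lt g] ∧
    fd 1 (rep g) = fd 1 (rep (g * (π (FreeGroup.mk [lt g]))⁻¹)) + 1

theorem exists_schreier [Nonempty S] (π : FreeGroup S →* G) (hπ : Function.Surjective π) :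
    Nonempty (Schreier π) := by
  classical
  have h0 : ∀ g : G, ∃ k, ∃ x, π x = g ∧ fd 1 x = k := fun g => by
    obtain ⟨x, hx⟩ := hπ g
    exact ⟨_, x, hx, rfl⟩
  let len : G → ℕ := fun g => Nat.find (h0 g)
  have len_le : ∀ x, len (π x) ≤ fd 1 x := fun x => Nat.find_min' (h0 _) ⟨x, rfl, rfl⟩
  have len_spec : ∀ g, ∃ x, π x = g ∧ fd 1 x = len g := fun g => Nat.find_spec (h0 g)
  have h2 : ∀ g : G, g ≠ 1 → ∃ l : S × Bool, len g = len (g * (π (FreeGroup.mk [l]))⁻¹) + 1 := by
    intro g hg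
    obtain ⟨x, rfl, hx⟩ := len_spec g
    obtain ⟨y, l, rfl, e⟩ := exists_last (x := x) (by rintro rfl; exact hg (map_one π))
    refine ⟨l, ?_⟩
    rw [map_mul, mul_inv_cancel_right]
    obtain ⟨z, hz, hz'⟩ := len_spec (π y)
    have a1 := len_le y
    have a2 := len_le (z * FreeGroup.mk [l])
    have a3 := fd_tri 1 z (z * FreeGroup.mk [l])
    rw [fd_letter] at a3
    rw [map_mul, hz] at a2
    rw [map_mul] at hx
    omega
  choose! lt hlt using h2
  let rp : ℕ → G → FreeGroup S := fun k => Nat.rec (fun _ => 1)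
    (fun _ f g => f (g * (π (FreeGroup.mk [lt g]))⁻¹) * FreeGroup.mk [lt g]) k
  have rp_succ : ∀ k g, rp (k + 1) g = rp k (g * (π (FreeGroup.mk [lt g]))⁻¹) * FreeGroup.mk [lt g] := fun _ _ => rfl
  have len_one : len 1 = 0 := by
    have := len_le 1
    rw [map_one, fd_tree.self] at this
    omega
  have key : ∀ k g, len g = k → π (rp k g) = g ∧ fd 1 (rp k g) ≤ k := by
    intro k
    induction k with
    | zero =>
      intro g hg
      obtain ⟨x, rfl, hx⟩ := len_spec g
      have : (1 : FreeGroup S) = x := fd_tree.eq_of _ _ (by omega)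
      subst this
      exact ⟨rfl, (fd_tree.self _).le⟩
    | succ k ih =>
      intro g hg
      have hg1 : g ≠ 1 := by
        rintro rfl
        omega
      obtain ⟨a1, a2⟩ := ih (g * (π (FreeGroup.mk [lt g]))⁻¹) (by have := hlt g hg1; omega)
      rw [rp_succ, map_mul, a1, inv_mul_cancel_right]
      refine ⟨rfl, ?_⟩
      have a3 := fd_tri 1 (rp k (g * (π (FreeGroup.mk [lt g]))⁻¹))
        (rp k (g * (π (FreeGroup.mk [lt g]))⁻¹) * FreeGroup.mk [lt g])
      rw [fd_letter] at a3
      omega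
  have key2 : ∀ g, fd 1 (rp (len g) g) = len g := fun g => by
    obtain ⟨a1, a2⟩ := key _ g rfl
    have := len_le (rp (len g) g)
    rw [a1] at this
    omega
  refine ⟨⟨fun g => rp (len g) g, lt, fun g => (key _ g rfl).1, fun x => ?_, fun g hg => ?_⟩⟩
  · rw [key2]
    exact len_le x
  · refine ⟨?_, ?_⟩
    · rw [hlt g hg, rp_succ]
    · rw [key2, key2, hlt g hg]

namespace Schreier

variable {π : FreeGroup S →* G} (T : Schreier π)

/-- The word length. -/
def len (g : G) : ℕ := fd 1 (T.rep g)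

theorem len_le (x : FreeGroup S) : T.len (π x) ≤ fd 1 x := T.min x

theorem rep_one : T.rep 1 = 1 := by
  have := T.min 1
  rw [map_one, fd_tree.self] at this
  exact (fd_tree.eq_of _ _ (by omega)).symm

theorem lip (x y : FreeGroup S) : T.len (π x) ≤ T.len (π y) + fd y x := by
  have h1 := T.len_le (T.rep (π y) * (y⁻¹ * x))
  rw [map_mul, T.map, ← map_mul, mul_inv_cancel_left] at h1
  have h2 := fd_tri 1 (T.rep (π y)) (T.rep (π y) * (y⁻¹ * x))
  have h3 := fd_mul (T.rep (π y)) 1 (y⁻¹ * x)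
  have h4 := fd_mul y⁻¹ y x
  rw [mul_one] at h3
  rw [inv_mul_cancel] at h4
  unfold len at *
  omega

theorem pref : ∀ (k : ℕ) (g : G), T.len g ≤ k → ∀ p, Btw fd 1 p (T.rep g) → T.rep (π p) = p := by
  intro k
  induction k with
  | zero =>
    intro g hg p hp
    unfold len at hg
    unfold P186.Btw at hp
    have : (1 : FreeGroup S) = p := fd_tree.eq_of _ _ (by omega)
    subst this
    rw [map_one, T.rep_one]
  | succ k ih =>
    intro g hg p hp
    by_cases h1 : g = 1
    · subst h1
      exact ih 1 (by unfold len; rw [T.rep_one, fd_tree.self]; omega) p hp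
    obtain ⟨e1, e2⟩ := T.last g h1
    rcases fd_tree.thin 1 _ (T.rep (g * (π (FreeGroup.mk [T.lt g]))⁻¹)) p hp with h | h
    · exact ih _ (by unfold len at *; omega) p h
    · rcases fd_tree.btw_le_one h (by rw [e1, fd_letter]) with rfl | rfl
      · rw [T.map]
      · rw [T.map]

theorem rep_of_btw {g : G} {p : FreeGroup S} (h : Btw fd 1 p (T.rep g)) : T.rep (π p) = p :=
  T.pref _ g le_rfl p h

theorem len_of_btw {g : G} {p : FreeGroup S} (h : Btw fd 1 p (T.rep g)) :
    T.len (π p) = fd 1 p := by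
  unfold len
  rw [T.rep_of_btw h]

theorem len_of_btw' {g : G} {p n : FreeGroup S} (hn : π n = 1) (h : Btw fd n p (n * T.rep g)) :
    T.len (π p) = fd n p := by
  have h1 : Btw fd 1 (n⁻¹ * p) (T.rep g) := by simpa using (btw_mul n⁻¹).2 h
  have h2 := T.len_of_btw h1
  rw [map_mul, map_inv, hn, inv_one, one_mul] at h2
  have h3 := fd_mul n⁻¹ n p
  rw [inv_mul_cancel] at h3
  rw [h2, h3]

theorem eq_one_of_btw {g g' : G} {p n : FreeGroup S} (hn : π n = 1) (h : Btw fd 1 p (T.rep g))
    (h' : Btw fd n p (n * T.rep g')) : n = 1 := by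
  have h1 : Btw fd 1 (n⁻¹ * p) (T.rep g') := by simpa using (btw_mul n⁻¹).2 h'
  have h2 := T.rep_of_btw h1
  rw [map_mul, map_inv, hn, inv_one, one_mul, T.rep_of_btw h] at h2
  simpa using h2

/-- If the two chosen words differ by one letter, the letter is one of the last letters. -/
theorem tree_edge {g : G} {l : S × Bool} (h : T.rep (g * π (FreeGroup.mk [l])) = T.rep g * FreeGroup.mk [l]) :
    (T.lt (g * π (FreeGroup.mk [l])) = l ∧ T.len (g * π (FreeGroup.mk [l])) = T.len g + 1) ∨
      (g ≠ 1 ∧ T.lt g = fl l) := by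
  have aux : ∀ (g : G) (l : S × Bool), T.rep (g * π (FreeGroup.mk [l])) = T.rep g * FreeGroup.mk [l] →
      Btw fd 1 (T.rep g) (T.rep g * FreeGroup.mk [l]) → g * π (FreeGroup.mk [l]) ≠ 1 ∧ T.lt (g * π (FreeGroup.mk [l])) = l ∧
        T.len (g * π (FreeGroup.mk [l])) = T.len g + 1 := by
    intro g l h hb
    have e0 : T.len (g * π (FreeGroup.mk [l])) = T.len g + 1 := by
      unfold len
      unfold P186.Btw at hb
      rw [h, ← hb, fd_letter]
    have h1 : g * π (FreeGroup.mk [l]) ≠ 1 := by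
      intro h1
      rw [h1] at e0
      unfold len at e0
      rw [T.rep_one, fd_tree.self] at e0
      omega
    obtain ⟨e1, e2⟩ := T.last _ h1
    refine ⟨h1, ?_, e0⟩
    set y := T.rep (g * π (FreeGroup.mk [l]) * (π (FreeGroup.mk [T.lt (g * π (FreeGroup.mk [l]))]))⁻¹) with hy
    have b2 : Btw fd 1 y (T.rep g * FreeGroup.mk [l]) := by
      unfold P186.Btw
      rw [← h, e2]
      conv_lhs => rw [e1, fd_letter]
    unfold len at e0
    have b3 := btw_ord hb b2 (by omega)
    have b4 : T.rep g = y := fd_tree.eq_of _ _ (by omega)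
    rw [h, b4] at e1
    exact (mk_letter_inj (mul_left_cancel e1)).symm
  obtain ⟨m, h1, h2, h3⟩ := fd_tree.med 1 (T.rep g) (T.rep g * FreeGroup.mk [l])
  rcases fd_tree.btw_le_one h2 (by rw [fd_letter]) with rfl | rfl
  · exact Or.inl (aux g l h h3).2
  · right
    have e : g * π (FreeGroup.mk [l]) * π (FreeGroup.mk [fl l]) = g := by
      rw [mk_fl, map_inv, mul_inv_cancel_right]
    have := aux (g * π (FreeGroup.mk [l])) (fl l) (by rw [e, h, mk_fl, mul_inv_cancel_right])
      (by rw [h, mk_fl, mul_inv_cancel_right]; exact h1)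
    rw [e] at this
    exact ⟨this.1, this.2.1⟩

end Schreier

end Vale.Agent.P089
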