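import Vale.Agent.P089.Cell
import Vale.Agent.P089.Trans

/-! How the chosen geodesics meet the cells. -/

namespace Vale.Agent.P089

open Vale.Agent.P186

variable {S V G : Type} {Ed : V → S × Bool → V → Prop} {r : V → ℕ} [DecidableEq S] [Group G]
  (Γ : SC Ed r) {π : FreeGroup S →* G} (T : Schreier π) (hk : ∀ x, π x = 1 ↔ x ∈ Γ.NN)

include hk

theorem short_len {n : FreeGroup S} (hn : π n = 1) (h1 : n ≠ 1) :
    ∃ c p p' h, p ∈ Γ.A c ∧ p' ∈ Γ.A c ∧ h ∈ Γ.H c ∧
      fd 1 p + fd p p' + fd p' n = fd 1 n ∧ T.len (π p) ≤ T.len (π p') + (4 * Γ.rc c + 3) ∧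
      T.len (π p') ≤ T.len (π p) + (4 * Γ.rc c + 3) ∧
      8 * Γ.rc c + 8 ≤ fd p p' ∧ fd 1 (h * n) < fd 1 n := by
  obtain ⟨c, p, p', h, e1, e2, e3, e4, e5, e6, e7⟩ := Γ.short ((hk n).1 hn) h1
  have hh : π (h * p') = π p' := by rw [map_mul, (hk h).2 (Γ.H_le_NN c e3), one_mul]
  have a1 := T.lip p (h * p')
  have a2 := T.lip (h * p') p
  rw [hh] at a1 a2
  rw [fd_symm] at a1
  exact ⟨c, p, p', h, e1, e2, e3, e4, by omega, by omega, e6, e7⟩

/-- An edge outside the chosen tree lies high up in a cell. -/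
theorem high_edge {g : G} {l : S × Bool}
    (h : T.rep (g * π (FreeGroup.mk [l])) ≠ T.rep g * FreeGroup.mk [l]) :
    ∃ c p p', T.rep g ∈ Γ.A c ∧ T.rep g * FreeGroup.mk [l] ∈ Γ.A c ∧ p ∈ Γ.A c ∧ p' ∈ Γ.A c ∧
      T.len (π p) + 2 * Γ.rc c + 1 ≤ T.len g ∧
      T.len (π p') + 2 * Γ.rc c + 1 ≤ T.len (g * π (FreeGroup.mk [l])) := by
  set x := T.rep g with hx
  set x' := T.rep g * FreeGroup.mk [l] with hx'
  set y := T.rep (g * π (FreeGroup.mk [l])) with hy
  set n := x' * y⁻¹ with hn
  have hn1 : π n = 1 := by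
    rw [hn, map_mul, map_inv, hx', hy, map_mul, T.map, T.map, mul_inv_cancel]
  have hn2 : n ≠ 1 := fun h' => h (mul_inv_eq_one.1 h').symm
  have hny : n * y = x' := inv_mul_cancel_right _ _
  have dis : ∀ t, Btw fd 1 t x → Btw fd n t x' → False := fun t h1 h2 =>
    hn2 (T.eq_one_of_btw hn1 h1 (by rw [← hy, hny]; exact h2))
  have l1 : ∀ t, Btw fd 1 t x → T.len (π t) = fd 1 t := fun t h1 => T.len_of_btw h1
  have l2 : ∀ t, Btw fd n t x' → T.len (π t) = fd n t := fun t h2 =>
    T.len_of_btw' hn1 (by rw [← hy, hny]; exact h2)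
  have d1 : fd x x' = 1 := fd_letter _ _
  have s0 := fd_tree.self x
  have s0' := fd_tree.self x'
  have s1 := fd_symm x x'
  have s2 := fd_symm x n
  have s3 := fd_symm x' n
  have b1 : Btw fd 1 x x' := by
    obtain ⟨m, h1, h2, h3⟩ := fd_tree.med 1 x x'
    rcases fd_tree.btw_le_one h2 d1.le with rfl | rfl
    · exact h3
    · exact (dis _ h1 (by unfold P186.Btw; omega)).elim
  have b2 : Btw fd 1 x' n := by
    obtain ⟨m, h1, h2, h3⟩ := fd_tree.med 1 x' n
    rcases fd_tree.thin 1 x' x m h1 with h4 | h4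
    · exact (dis _ h4 (fd_tree.btw_symm h2)).elim
    · rcases fd_tree.btw_le_one h4 d1.le with rfl | rfl
      · exact (dis _ (by unfold P186.Btw; omega) (fd_tree.btw_symm h2)).elim
      · exact h3
  obtain ⟨c, p, p', f, e1, e2, e3, e4, e5, e6, e7, -⟩ := short_len Γ T hk hn1 hn2
  have t1 := fd_tri p p' n
  have t2 := fd_tri 1 p p'
  have t3 := fd_tri 1 p n
  have t4 := fd_tri 1 p' n
  have t5 := fd_tri x x' n
  have t6 := fd_tri 1 x n
  have bp : Btw fd 1 p n := by unfold P186.Btw; omega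
  have bp' : Btw fd 1 p' n := by unfold P186.Btw; omega
  have bx : Btw fd 1 x n := by unfold P186.Btw at *; omega
  have lx : T.len g = fd 1 x := rfl
  have ly : T.len (g * π (FreeGroup.mk [l])) = fd n x' := by
    have := l2 x' (by unfold P186.Btw; omega)
    rwa [hx', map_mul, T.map] at this
  have lip1 := T.lip x x'
  have lip2 := T.lip x' x
  rw [hx, T.map, ← hx, hx', map_mul, T.map, ← hx'] at lip1 lip2
  have c1 : fd 1 p ≤ fd 1 x := by
    by_contra hlt
    have o1 := btw_ord b2 bp (by unfold P186.Btw at *; omega)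
    have o2 := btw_ord b2 bp' (by unfold P186.Btw at *; omega)
    have q1 := l2 p (fd_tree.btw_symm (by unfold P186.Btw at *; omega))
    have q2 := l2 p' (fd_tree.btw_symm (by unfold P186.Btw at *; omega))
    rw [fd_symm n] at q1 q2
    omega
  have c2 : fd 1 x' ≤ fd 1 p' := by
    by_contra hlt
    have o2 := btw_ord bp' bx (by unfold P186.Btw at *; omega)
    have q1 := l1 p (btw_ord bp bx c1)
    have q2 := l1 p' o2
    omega
  have o1 := btw_ord bp bx c1
  have o2 := btw_ord b2 bp' c2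
  have o3 := btw_ord bp b2 (by unfold P186.Btw at *; omega)
  have o4 := btw_ord bx bp' (by unfold P186.Btw at *; omega)
  have q1 := l1 p o1
  have q2 := l2 p' (fd_tree.btw_symm (by unfold P186.Btw at *; omega))
  rw [fd_symm n] at q2
  refine ⟨c, p, p', Γ.conv c p e1 p' e2 x ?_, Γ.conv c p e1 p' e2 x' ?_, e1, e2, ?_, ?_⟩ <;>
    unfold P186.Btw at * <;> omega

/-- The entrance points of the chosen geodesics into one copy have almost the same height. -/
theorem exit_aux : ∀ (k : ℕ) {n : FreeGroup S} {c : Γ.Cell} {a a' : FreeGroup S} {g g' : G},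
    fd 1 n ≤ k → π n = 1 → Gate fd (Γ.A c) 1 a → Gate fd (Γ.A (n • c)) 1 a' →
    Btw fd 1 a (T.rep g) → Btw fd 1 a' (T.rep g') →
    fd 1 a' ≤ fd 1 a + Γ.rc c ∧ (a = 1 → a' = 1) := by
  intro k
  induction k using Nat.strong_induction_on with
  | _ k ih =>
    intro n c a a' g g' hnk hn ha ha' hb hb'
    have gb : Gate fd (Γ.A (n • c)) n (n * a) := by
      refine ⟨Γ.mill.A_eq n c a ha.1, fun t ht => ?_⟩
      have h1 : n⁻¹ * t ∈ Γ.A c := by
        have := Γ.mill.A_eq n⁻¹ _ t ht
        rwa [inv_smul_smul] at this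
      simpa using (btw_mul n).2 (ha.2 _ h1)
    by_cases he : a' = n * a
    · have : a' = a := by
        rw [← T.rep_of_btw hb', he, map_mul, hn, one_mul, T.rep_of_btw hb]
      subst this
      exact ⟨by omega, id⟩
    have h1 : n ≠ 1 := by
      rintro rfl
      have u1 := ha'.2 _ gb.1
      have u2 := gb.2 _ ha'.1
      unfold P186.Btw at u1 u2
      exact he (fd_tree.eq_of _ _ (by omega))
    have ch := fd_tree.gate_chain ha' gb he
    obtain ⟨c', p, p', f, e1, e2, e3, e4, e5, e6, e7, e8⟩ := short_len Γ T hk hn h1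
    by_cases hc : c' = n • c
    · subst hc
      refine ih (fd 1 (f * n)) (by omega) le_rfl ?_ ha ?_ hb hb'
      · rw [map_mul, hn, (hk f).2 (Γ.H_le_NN _ e3), one_mul]
      · rw [mul_smul, show f • n • c = n • c from Γ.mill.H_fix _ f e3]
        exact ha'
    set b := n * a with hbdef
    have rr : Γ.rc (n • c) = Γ.rc c := Γ.mill.r_eq n c
    have db : fd b n = fd 1 a := by
      have := fd_mul n a 1
      rw [mul_one] at this
      rw [this, fd_symm]
    have t1 := fd_tri p p' n
    have t2 := fd_tri 1 p p'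
    have t3 := fd_tri 1 p n
    have t4 := fd_tri 1 p' n
    have t5 := fd_tri a' b n
    have t6 := fd_tri 1 a' b
    have t7 := fd_tri 1 a' n
    have t8 := fd_tri 1 b n
    have bp : Btw fd 1 p n := by unfold P186.Btw; omega
    have bp' : Btw fd 1 p' n := by unfold P186.Btw; omega
    have ba : Btw fd 1 a' n := by unfold P186.Btw; omega
    have bb : Btw fd 1 b n := by unfold P186.Btw; omega
    have l1 : ∀ t, Btw fd 1 t n → fd 1 t ≤ fd 1 a' → T.len (π t) = fd 1 t := by
      intro t ht h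
      have o := btw_ord ht ba h
      have u1 := fd_tri t a' (T.rep g')
      have u2 := fd_tri 1 t (T.rep g')
      exact T.len_of_btw (g := g') (by unfold P186.Btw at *; omega)
    have l2 : ∀ t, Btw fd 1 t n → fd 1 b ≤ fd 1 t → T.len (π t) = fd t n := by
      intro t ht h
      have o := btw_ord bb ht h
      have u0 : Btw fd n b (n * T.rep g) := by simpa using (btw_mul n).2 hb
      have u1 := fd_tri t b (n * T.rep g)
      have u2 := fd_tri n t (n * T.rep g)
      have u3 := fd_symm t b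
      have u4 := fd_symm t n
      have u5 := fd_symm b n
      rw [u4]
      exact T.len_of_btw' (g := g) hn (by unfold P186.Btw at *; omega)
    have mem : ∀ {C : Γ.Cell} {u w t : FreeGroup S}, u ∈ Γ.A C → w ∈ Γ.A C → Btw fd 1 u n →
        Btw fd 1 w n → Btw fd 1 t n → fd 1 u ≤ fd 1 t → fd 1 t ≤ fd 1 w → t ∈ Γ.A C := by
      intro C u w t hu hw bu bw bt h1 h2
      have o1 := btw_ord bu bt h1
      have o2 := btw_ord bt bw h2
      have o3 := btw_ord bu bw (by omega)
      exact Γ.conv C u hu w hw t (by unfold P186.Btw; omega)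
    have la := l1 a' ba le_rfl
    have lb := l2 b bb le_rfl
    have p1 := T.lip a' p'
    have p2 := T.lip b p
    have p3 := T.lip a' b
    have s1 := fd_symm a' p'
    have s2 := fd_symm a' b
    unfold P186.Btw at bp bp' ba bb
    by_cases k1 : fd 1 p' ≤ fd 1 a'
    · have := l1 p bp (by omega)
      have := l1 p' bp' k1
      omega
    by_cases k2 : fd 1 b ≤ fd 1 p
    · have := l2 p bp k2
      have := l2 p' bp' (by omega)
      omega
    by_cases k3 : fd 1 a' ≤ fd 1 p
    · have m1 := mem ha'.1 gb.1 ba bb bp k3 (by omega)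
      by_cases k4 : fd 1 p' ≤ fd 1 b
      · have m2 := mem ha'.1 gb.1 ba bb bp' (by omega) k4
        have := Γ.ovl hc e1 m1 e2 m2
        omega
      · have m2 := mem e1 e2 bp bp' bb (by omega) (by omega)
        have := Γ.ovl hc e1 m1 m2 gb.1
        have := l2 p' bp' (by omega)
        have := btw_ord bp bb (by omega)
        omega
    · have m1 := mem e1 e2 bp bp' ba (by omega) (by omega)
      have lp := l1 p bp (by omega)
      by_cases k4 : fd 1 p' ≤ fd 1 b
      · have m2 := mem ha'.1 gb.1 ba bb bp' (by omega) k4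
        have := Γ.ovl hc m1 ha'.1 e2 m2
        have := btw_ord ba bp' (by omega)
        omega
      · have m2 := mem e1 e2 bp bp' bb (by omega) (by omega)
        have o1 := Γ.ovl hc m1 ha'.1 m2 gb.1
        have o2 := Γ.ovl (Ne.symm hc) ha'.1 m1 gb.1 m2
        refine ⟨by omega, fun h => ?_⟩
        subst h
        have := fd_tree.self (1 : FreeGroup S)
        omega

end Vale.Agent.P089
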