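import Vale.Agent.P089.Defs
import Vale.Agent.P089.Cheeger

/-! Semidirect products with an elementary abelian group, and the decomposition of the regular
representation along the characters. -/

namespace Vale.Agent.P089

open Finset Vale.Agent.P086

open scoped Classical

/-- The semidirect product of an abelian group `A` by a group `G`. -/
@[ext] structure SD (A G : Type) where
  a : A
  h : G

section

variable {A G : Type} [Group G] [AddCommGroup A] [DistribMulAction G A]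

instance : Mul (SD A G) := ⟨fun x y => ⟨x.a + x.h • y.a, x.h * y.h⟩⟩

instance : One (SD A G) := ⟨⟨0, 1⟩⟩

instance : Inv (SD A G) := ⟨fun x => ⟨-(x.h⁻¹ • x.a), x.h⁻¹⟩⟩

@[simp] theorem SD.mul_a (x y : SD A G) : (x * y).a = x.a + x.h • y.a := rfl

@[simp] theorem SD.mul_h (x y : SD A G) : (x * y).h = x.h * y.h := rfl

@[simp] theorem SD.one_a : (1 : SD A G).a = 0 := rfl

@[simp] theorem SD.one_h : (1 : SD A G).h = 1 := rfl

@[simp] theorem SD.inv_a (x : SD A G) : (x⁻¹).a = -(x.h⁻¹ • x.a) := rfl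

@[simp] theorem SD.inv_h (x : SD A G) : (x⁻¹).h = x.h⁻¹ := rfl

instance : Group (SD A G) :=
  Group.ofLeftAxioms
    (fun x y z => by ext <;> simp [mul_smul, add_assoc, mul_assoc])
    (fun x => by ext <;> simp) (fun x => by ext <;> simp)

instance [Countable A] [Countable G] : Countable (SD A G) :=
  Function.Injective.countable (f := fun x : SD A G => (x.a, x.h)) fun x y h =>
    SD.ext (congrArg Prod.fst h) (congrArg Prod.snd h)

end

variable {p : ℕ} [Fact p.Prime] {A : Type} [AddCommGroup A] [Module (ZMod p) A]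

/-- The characters `y j` are orthogonal on the nonzero elements of `T`. -/
def Ortho (T : Set A) {N : ℕ} (y : Fin N → A →ₗ[ZMod p] ZMod p) : Prop :=
  0 < N ∧ ∀ a ∈ T, a ≠ 0 → ∑ j, (ZMod.stdAddChar (y j a) : ℂ) = 0

theorem fourier_sum_aux {X : Type} [AddCommGroup X] [Fintype X] (f : X →+ ZMod p) :
    ∑ x, (ZMod.stdAddChar (f x) : ℂ) = if f = 0 then (Fintype.card X : ℂ) else 0 := by
  have h := AddChar.sum_eq_ite ((ZMod.stdAddChar (N := p)).compAddMonoidHom f)
  refine h.trans (if_congr ⟨fun h0 => ?_, fun h0 => ?_⟩ rfl rfl)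
  · ext x
    refine ZMod.injective_stdAddChar ?_
    simpa using DFunLike.congr_fun h0 x
  · subst h0
    ext x
    simp

theorem exists_ortho {T : Set A} (hT : T.Finite) :
    ∃ (N : ℕ) (y : Fin N → A →ₗ[ZMod p] ZMod p), Ortho T y := by
  have := hT.fintype
  have h1 : ∀ t : T, ∃ φ : A →ₗ[ZMod p] ZMod p, (t : A) ≠ 0 → φ t = 1 := by
    intro t
    by_cases h : (t : A) = 0
    · exact ⟨0, fun h' => absurd h h'⟩
    · obtain ⟨φ, hφ⟩ := Module.Projective.exists_dual_eq_one (ZMod p) h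
      exact ⟨φ, fun _ => hφ⟩
  choose φ hφ using h1
  let e := Fintype.equivFin (T → ZMod p)
  refine ⟨_, fun j => ∑ t, e.symm j t • φ t, Fintype.card_pos, fun a ha h0 => ?_⟩
  let f : (T → ZMod p) →+ ZMod p :=
    { toFun := fun c => ∑ t, c t * φ t a
      map_zero' := by simp
      map_add' := fun c c' => by simp [add_mul, sum_add_distrib] }
  have h2 := fourier_sum_aux f
  rw [if_neg, ← e.symm.sum_comp] at h2
  · simpa [f] using h2
  · intro h
    have := DFunLike.congr_fun h (Pi.single ⟨a, ha⟩ 1)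
    simp [f, Pi.single_apply, hφ ⟨a, ha⟩ h0] at this

theorem Ortho.mono {T T' : Set A} {N : ℕ} {y : Fin N → A →ₗ[ZMod p] ZMod p} (h : Ortho T y)
    (h' : T' ⊆ T) : Ortho T' y :=
  ⟨h.1, fun a ha => h.2 a (h' ha)⟩

/-- The proportion of characters with a prescribed restriction. -/
theorem Ortho.count {X : Type} [AddCommGroup X] [Module (ZMod p) X] [Finite X]
    (Φ : X →ₗ[ZMod p] A) (τ : X →ₗ[ZMod p] ZMod p) (hτ : ∀ x, Φ x = 0 → τ x = 0) {N : ℕ}
    {y : Fin N → A →ₗ[ZMod p] ZMod p} (h : Ortho (Set.range Φ) y) :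
    (univ.filter fun j => y j ∘ₗ Φ = τ).card *
      p ^ (Module.finrank (ZMod p) X - Module.finrank (ZMod p) (LinearMap.ker Φ)) = N := by
  have := Fintype.ofFinite X
  have h1 : ∑ j, ∑ x, (ZMod.stdAddChar ((y j ∘ₗ Φ - τ) x) : ℂ) =
      (univ.filter fun j => y j ∘ₗ Φ = τ).card * (Fintype.card X : ℂ) := by
    rw [card_filter, Nat.cast_sum, sum_mul]
    refine sum_congr rfl fun j _ => (fourier_sum_aux (y j ∘ₗ Φ - τ).toAddMonoidHom).trans ?_
    have : (y j ∘ₗ Φ - τ).toAddMonoidHom = 0 ↔ y j ∘ₗ Φ = τ := by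
      rw [← sub_eq_zero (a := y j ∘ₗ Φ)]
      exact ⟨fun h => LinearMap.ext fun x => DFunLike.congr_fun h x, fun h => by rw [h]; rfl⟩
    simp only [this]
    split_ifs <;> simp
  have h2 : ∑ x, ∑ j, (ZMod.stdAddChar ((y j ∘ₗ Φ - τ) x) : ℂ) =
      N * (Fintype.card (LinearMap.ker Φ) : ℂ) := by
    rw [Fintype.card_subtype, card_filter, Nat.cast_sum, mul_sum]
    refine sum_congr rfl fun x _ => ?_
    by_cases hx : Φ x = 0
    · simp [hx, hτ x hx]
    · simp only [LinearMap.sub_apply, LinearMap.comp_apply, sub_eq_add_neg, LinearMap.add_apply,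
        AddChar.map_add_eq_mul, ← sum_mul, h.2 _ ⟨x, rfl⟩ hx]
      simp [hx]
  rw [sum_comm, h2, Module.card_eq_pow_finrank (K := ZMod p) (V := X),
    Module.card_eq_pow_finrank (K := ZMod p) (V := LinearMap.ker Φ), ZMod.card] at h1
  have h3 : N * p ^ Module.finrank (ZMod p) (LinearMap.ker Φ) =
    (univ.filter fun j => y j ∘ₗ Φ = τ).card * p ^ Module.finrank (ZMod p) X := by exact_mod_cast h1
  have h4 := Submodule.finrank_le (LinearMap.ker Φ)
  refine Nat.eq_of_mul_eq_mul_right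
    (pow_pos (Fact.out : p.Prime).pos (Module.finrank (ZMod p) (LinearMap.ker Φ))) ?_
  rw [h3, mul_assoc, ← pow_add, Nat.sub_add_cancel h4]
  congr!

section

open Filter Topology
open scoped InnerProductSpace ComplexConjugate

variable {G : Type} [Group G] [DistribMulAction G A]

theorem fourier_norm_aux (t : ZMod p) :
    conj (ZMod.stdAddChar t : ℂ) * ZMod.stdAddChar t = 1 := by
  rw [ZMod.stdAddChar_apply, Complex.conj_mul', Circle.norm_coe]
  simp

theorem fourier_on_aux (y : A →ₗ[ZMod p] ZMod p) (x : SD A G) : Orthonormal ℂ fun g : G =>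
    (ZMod.stdAddChar (y ((g * x.h⁻¹) • x.a)) : ℂ) • dl (g * x.h⁻¹) := by
  rw [orthonormal_iff_ite]
  intro g g'
  rw [inner_smul_left, inner_smul_right, inner_dl_left, dl_apply]
  by_cases h : g = g'
  · subst h
    simp only [if_true, mul_one]
    exact fourier_norm_aux _
  · simp [h]

/-- The representation induced from a character. -/
noncomputable def fourierRho (y : A →ₗ[ZMod p] ZMod p) (x : SD A G) : Op G :=
  (isoOf (fourier_on_aux y x)).toContinuousLinearMap

theorem fourierRho_dl (y : A →ₗ[ZMod p] ZMod p) (x : SD A G) (g : G) :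
    fourierRho y x (dl g) = (ZMod.stdAddChar (y ((g * x.h⁻¹) • x.a)) : ℂ) • dl (g * x.h⁻¹) :=
  isoOf_dl (fourier_on_aux y x) g

variable (p A G) in
/-- The regular representation together with all induced representations. -/
noncomputable def fourierU : SD A G →* Op (SD A G) × ((A →ₗ[ZMod p] ZMod p) → Op G) where
  toFun x := (lam x, fun y => fourierRho y x)
  map_one' := Prod.ext lam_one (funext fun y => op_ext fun g => by simp [fourierRho_dl])
  map_mul' x x' := Prod.ext (lam_mul x x') (funext fun y => op_ext fun g => by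
    simp only [Prod.snd_mul, Pi.mul_apply, op_mul_apply, fourierRho_dl, map_smul, smul_smul,
      SD.mul_h, SD.mul_a, mul_inv_rev, smul_add, map_add, AddChar.map_add_eq_mul, mul_assoc,
      inv_mul_cancel, mul_one]
    rw [mul_comm])

theorem fourierU_star (x : SD A G) : star (fourierU p A G x) = fourierU p A G x⁻¹ := by
  have h1 : star (fourierU p A G x) * fourierU p A G x = 1 :=
    Prod.ext (Unitary.mem_iff.1 (lam_unitary x)).1
      (funext fun y => star_mul_self_of_isometry (isoOf (fourier_on_aux y x)))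
  calc star (fourierU p A G x) = star (fourierU p A G x) * fourierU p A G (x * x⁻¹) := by simp
    _ = _ := by rw [map_mul, ← mul_assoc, h1, one_mul]

variable (p A G) in
/-- The algebra of finite combinations. -/
noncomputable def fourierS : Subalgebra ℂ (Op (SD A G) × ((A →ₗ[ZMod p] ZMod p) → Op G)) :=
  Algebra.adjoin ℂ (Set.range (fourierU p A G))

theorem fourierS_U (x : SD A G) : fourierU p A G x ∈ fourierS p A G :=
  Algebra.subset_adjoin ⟨x, rfl⟩

theorem fourierS_span {s : Op (SD A G) × ((A →ₗ[ZMod p] ZMod p) → Op G)} (hs : s ∈ fourierS p A G) :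
    s ∈ Submodule.span ℂ (Set.range (fourierU p A G)) := by
  have h := Algebra.adjoin_eq_span (R := ℂ) (s := Set.range (fourierU p A G))
  rw [← MonoidHom.coe_mrange, Submonoid.closure_eq] at h
  rw [← MonoidHom.coe_mrange, ← h]
  exact hs

theorem fourierS_star {s : Op (SD A G) × ((A →ₗ[ZMod p] ZMod p) → Op G)} (hs : s ∈ fourierS p A G) :
    star s ∈ fourierS p A G := by
  refine Submodule.span_induction (p := fun s _ => star s ∈ fourierS p A G) ?_ ?_ ?_ ?_
    (fourierS_span hs)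
  · rintro _ ⟨x, rfl⟩
    rw [fourierU_star]
    exact fourierS_U _
  · rw [star_zero]; exact zero_mem _
  · intro a b _ _ ha hb
    rw [star_add]; exact add_mem ha hb
  · intro c a _ ha
    rw [star_smul]; exact Subalgebra.smul_mem _ ha _

theorem fourierS_fst {s : Op (SD A G) × ((A →ₗ[ZMod p] ZMod p) → Op G)} (hs : s ∈ fourierS p A G) :
    s.1 ∈ Submodule.span ℂ (leftTranslations (SD A G)) := by
  refine Submodule.span_induction
    (p := fun s _ => s.1 ∈ Submodule.span ℂ (leftTranslations (SD A G))) ?_ ?_ ?_ ?_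
    (fourierS_span hs)
  · rintro _ ⟨x, rfl⟩
    rw [leftTranslations_eq]
    exact Submodule.subset_span ⟨x, rfl⟩
  · exact zero_mem _
  · exact fun a b _ _ ha hb => add_mem ha hb
  · exact fun c a _ ha => Submodule.smul_mem _ c ha

theorem fourierS_trace {s : Op (SD A G) × ((A →ₗ[ZMod p] ZMod p) → Op G)}
    (hs : s ∈ fourierS p A G) : ∃ T : Set A, T.Finite ∧
      ∀ (N : ℕ) (y : Fin N → A →ₗ[ZMod p] ZMod p), Ortho T y →
        (N : ℂ) * s.1 (dl 1) 1 = ∑ j, s.2 (y j) (dl 1) 1 := by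
  refine Submodule.span_induction (p := fun s _ => ∃ T : Set A, T.Finite ∧
      ∀ (N : ℕ) (y : Fin N → A →ₗ[ZMod p] ZMod p), Ortho T y →
        (N : ℂ) * s.1 (dl 1) 1 = ∑ j, s.2 (y j) (dl 1) 1) ?_ ?_ ?_ ?_ (fourierS_span hs)
  · rintro _ ⟨x, rfl⟩
    refine ⟨{x.a}, Set.finite_singleton _, fun N y hy => ?_⟩
    change (N : ℂ) * lam x (dl 1) 1 = ∑ j, fourierRho (y j) x (dl 1) 1
    simp only [lam_dl, fourierRho_dl, l2_smul_apply, dl_apply, mul_one, one_mul]
    by_cases hh : x.h = 1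
    · by_cases ha : x.a = 0
      · have : x = 1 := SD.ext ha hh
        simp [this]
      · have : (1 : SD A G) ≠ x := fun h => ha (by rw [← h]; rfl)
        simp [this, hh, hy.2 _ rfl ha]
    · have : (1 : SD A G) ≠ x := fun h => hh (by rw [← h]; rfl)
      simp [this, hh, eq_comm (a := (1 : G))]
  · exact ⟨∅, Set.finite_empty, fun N y _ => by simp⟩
  · rintro a b _ _ ⟨T, hT, ha⟩ ⟨T', hT', hb⟩
    refine ⟨T ∪ T', hT.union hT', fun N y hy => ?_⟩
    simp only [Prod.fst_add, Prod.snd_add, Pi.add_apply, ContinuousLinearMap.add_apply,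
      l2_add_apply, sum_add_distrib, mul_add]
    rw [ha N y (hy.mono Set.subset_union_left), hb N y (hy.mono Set.subset_union_right)]
  · rintro c a _ ⟨T, hT, ha⟩
    refine ⟨T, hT, fun N y hy => ?_⟩
    simp only [Prod.smul_fst, Prod.smul_snd, Pi.smul_apply, ContinuousLinearMap.smul_apply,
      l2_smul_apply, ← mul_sum]
    rw [← ha N y hy]
    ring

theorem fourier_sq_aux {H : Type} [Group H] (x : Op H) (g : H) :
    (star x * x) (dl g) g = ((‖x (dl g)‖ ^ 2 : ℝ) : ℂ) := by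
  rw [← inner_dl_left, op_mul_apply, inner_star_right, inner_self_eq_norm_sq_to_K]
  simp

theorem fourierS_parseval {s : Op (SD A G) × ((A →ₗ[ZMod p] ZMod p) → Op G)}
    (hs : s ∈ fourierS p A G) : ∃ T : Set A, T.Finite ∧
      ∀ (N : ℕ) (y : Fin N → A →ₗ[ZMod p] ZMod p), Ortho T y →
        (N : ℝ) * ‖s.1 (dl 1)‖ ^ 2 = ∑ j, ‖s.2 (y j) (dl 1)‖ ^ 2 := by
  obtain ⟨T, hT, h⟩ := fourierS_trace (mul_mem (fourierS_star hs) hs)
  refine ⟨T, hT, fun N y hy => ?_⟩
  have h1 := h N y hy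
  simp only [Prod.fst_mul, Prod.snd_mul, Prod.fst_star, Prod.snd_star, Pi.mul_apply,
    Pi.star_apply, fourier_sq_aux] at h1
  exact_mod_cast h1

theorem fourierS_norm {s : Op (SD A G) × ((A →ₗ[ZMod p] ZMod p) → Op G)}
    (hs : s ∈ fourierS p A G) {C : ℝ} (hC : 0 ≤ C) (h : ∀ y, ‖s.2 y‖ ≤ C) : ‖s.1‖ ≤ C := by
  have key : ∀ z ∈ fourierS p A G, ‖s.1 (z.1 (dl 1))‖ ≤ C * ‖z.1 (dl 1)‖ := by
    intro z hz
    obtain ⟨T, hT, h1⟩ := fourierS_parseval hz
    obtain ⟨T', hT', h2⟩ := fourierS_parseval (mul_mem hs hz)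
    obtain ⟨N, y, hy⟩ := exists_ortho (p := p) (hT.union hT')
    have h3 := h1 N y (hy.mono Set.subset_union_left)
    have h4 := h2 N y (hy.mono Set.subset_union_right)
    have h5 : (N : ℝ) * ‖s.1 (z.1 (dl 1))‖ ^ 2 ≤ N * (C * ‖z.1 (dl 1)‖) ^ 2 := by
      refine h4.le.trans ?_
      rw [mul_pow, mul_left_comm, h3, mul_sum]
      refine sum_le_sum fun j _ => ?_
      rw [← mul_pow]
      exact pow_le_pow_left₀ (norm_nonneg _) ((s.2 (y j)).le_of_opNorm_le (h _) _) 2
    exact (pow_le_pow_iff_left₀ (norm_nonneg _) (by positivity) two_ne_zero).1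
      (le_of_mul_le_mul_left h5 (Nat.cast_pos.2 hy.1))
  refine ContinuousLinearMap.opNorm_le_bound _ hC fun ξ => ?_
  have hc : IsClosed {ξ : L2 (SD A G) | ‖s.1 ξ‖ ≤ C * ‖ξ‖} :=
    isClosed_le (by fun_prop) (by fun_prop)
  refine hc.mem_of_tendsto (l2_hasSum_dl ξ) (Eventually.of_forall fun F => ?_)
  have h1 := key (∑ g ∈ F, ξ g • fourierU p A G g)
    (sum_mem fun g _ => Subalgebra.smul_mem _ (fourierS_U g) _)
  have e : (∑ g ∈ F, ξ g • fourierU p A G g).1 (dl 1) = ∑ g ∈ F, ξ g • dl g := by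
    rw [Prod.fst_sum, ContinuousLinearMap.sum_apply]
    refine sum_congr rfl fun g _ => ?_
    change ξ g • lam g (dl 1) = _
    rw [lam_dl, mul_one]
  rwa [e] at h1

theorem fourierS_proj [SMulCommClass G (ZMod p) A] (u : A) (a : ZMod p) :
    ∃ s ∈ fourierS p A G, ∀ y g, s.2 y (dl g) = if y (g • u) = a then dl g else 0 := by
  refine ⟨∑ m : ZMod p, ((p : ℂ)⁻¹ * ZMod.stdAddChar (m * -a)) • fourierU p A G ⟨m • u, 1⟩,
    sum_mem fun m _ => Subalgebra.smul_mem _ (fourierS_U _) _, fun y g => ?_⟩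
  rw [Prod.snd_sum, Finset.sum_apply, ContinuousLinearMap.sum_apply]
  have e : ∀ m : ZMod p, (((p : ℂ)⁻¹ * ZMod.stdAddChar (m * -a)) •
      fourierU p A G ⟨m • u, 1⟩).2 y (dl g) =
      ((p : ℂ)⁻¹ * ZMod.stdAddChar (AddMonoidHom.mulRight (y (g • u) - a) m)) • dl g := by
    intro m
    change ((p : ℂ)⁻¹ * ZMod.stdAddChar (m * -a)) • fourierRho y ⟨m • u, 1⟩ (dl g) = _
    simp only [fourierRho_dl, inv_one, mul_one, smul_smul, smul_comm g m u, map_smul, smul_eq_mul,
      mul_assoc, ← AddChar.map_add_eq_mul, AddMonoidHom.coe_mulRight]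
    congr 3
    ring
  have hp : (p : ℂ) ≠ 0 := Nat.cast_ne_zero.2 (Fact.out : p.Prime).ne_zero
  simp only [e]
  rw [← sum_smul, ← mul_sum, fourier_sum_aux]
  have : AddMonoidHom.mulRight (y (g • u) - a) = 0 ↔ y (g • u) = a := by
    rw [← sub_eq_zero (a := y (g • u))]
    exact ⟨fun h => by simpa using DFunLike.congr_fun h 1, fun h => by rw [h]; ext; simp⟩
  simp only [this]
  split_ifs <;> simp [hp]

theorem fourierS_perm [SMulCommClass G (ZMod p) A] (gen : ZMod p → ZMod p → G) (u v : A)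
    (σ : (A →ₗ[ZMod p] ZMod p) → G ≃ G)
    (hσ : ∀ y g, σ y g = g * gen (y (g • u)) (y (g • v))) :
    ∃ s ∈ fourierS p A G, ∀ y, s.2 y = perm (σ y) := by
  choose q hq hq' using fourierS_proj (p := p) (A := A) (G := G)
  refine ⟨∑ a, ∑ b, fourierU p A G ⟨0, (gen a b)⁻¹⟩ * (q u a * q v b),
    sum_mem fun a _ => sum_mem fun b _ => mul_mem (fourierS_U _) (mul_mem (hq _ _) (hq _ _)),
    fun y => op_ext fun g => ?_⟩
  simp only [Prod.snd_sum, Finset.sum_apply, ContinuousLinearMap.sum_apply, Prod.snd_mul, Pi.mul_apply,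
    op_mul_apply, hq']
  rw [perm_dl, hσ, sum_eq_single (y (g • u)) (fun a _ ha => sum_eq_zero fun b _ => ?_) (by simp),
    sum_eq_single (y (g • v)) (fun b _ hb => by simp [hb.symm]) (by simp)]
  · simp only [if_true, hq']
    change fourierRho y _ _ = _
    simp [fourierRho_dl]
  · split_ifs <;> simp [hq', ha.symm]

theorem fourier_perm_mul {H : Type} (σ τ : H ≃ H) : perm σ * perm τ = perm (τ.trans σ) :=
  op_ext fun g => by simp [perm_dl]

end

/-- The limit projection and its trace. -/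
theorem transfer {G : Type} [Group G] [DistribMulAction G A] [SMulCommClass G (ZMod p) A] {d : ℕ}
    (hd : 0 < d) (gen : Fin d × ZMod p × ZMod p → G) (ea eb : Fin d → A)
    (σ : (A →ₗ[ZMod p] ZMod p) → Fin d → G ≃ G)
    (hσ : ∀ y i g, σ y i g = g * gen (i, y (g • ea i), y (g • eb i)))
    (B : ∀ y, Blocks (σ y)) :
    ∃ P ∈ reducedCStar (SD A G), IsSelfAdjoint P ∧ P * P = P ∧ ∀ ε : ℝ, 0 < ε →
      ∃ T : Set A, T.Finite ∧ ∀ (N : ℕ) (y : Fin N → A →ₗ[ZMod p] ZMod p), Ortho T y →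
        ‖canonicalTrace P - ((N : ℝ)⁻¹ * ∑ j, (((B (y j)).blk 1).card : ℝ)⁻¹ : ℝ)‖ ≤ ε := by
  choose V hV hV' using fun i => fourierS_perm (fun a b => gen (i, a, b)) (ea i) (eb i)
    (fun y => σ y i) (fun y g => hσ y i g)
  set M := ((d : ℂ) ^ 2)⁻¹ • ∑ i, ∑ j, star (V j) * V i with hM
  have hMS : M ∈ fourierS p A G := Subalgebra.smul_mem _
    (sum_mem fun i _ => sum_mem fun j _ => mul_mem (fourierS_star (hV j)) (hV i)) _
  have hM2 : ∀ y, M.2 y = Mop (σ y) := by
    intro y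
    simp only [hM, Mop, Prod.smul_snd, Pi.smul_apply, Prod.snd_sum, Finset.sum_apply, Prod.snd_mul,
      Pi.mul_apply, Prod.snd_star, Pi.star_apply, hV', star_perm, fourier_perm_mul]
  have hsa : star M = M := by
    rw [hM, star_smul, star_sum]
    simp only [star_sum, star_mul, star_star]
    rw [sum_comm]
    simp
  have hsa1 : star M.1 = M.1 := congrArg Prod.fst hsa
  have r0 := rate_nonneg hd
  have r1 := rate_lt_one hd
  have ht := tendsto_pow_atTop_nhds_zero_of_lt_one r0 r1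
  have hb : ∀ m k, ‖M.1 ^ m - M.1 ^ k‖ ≤ rate d ^ m + rate d ^ k := fun m k =>
    fourierS_norm (sub_mem (pow_mem hMS m) (pow_mem hMS k)) (by positivity) fun y => by
      simpa [hM2] using (B y).cauchy hd m k
  have hc : CauchySeq fun k => M.1 ^ k := by
    refine cauchySeq_of_le_tendsto_0 (fun k => rate d ^ k + rate d ^ k) (fun m k N hm hk => ?_)
      (by simpa using ht.add ht)
    rw [dist_eq_norm]
    exact (hb m k).trans (add_le_add (pow_le_pow_of_le_one r0 r1.le hm)
      (pow_le_pow_of_le_one r0 r1.le hk))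
  obtain ⟨P, hP⟩ := cauchySeq_tendsto_of_complete hc
  refine ⟨P, mem_closure_of_tendsto hP (.of_forall fun k => fourierS_fst (pow_mem hMS k)), ?_, ?_,
    fun ε hε => ?_⟩
  · have h1 := hP.star
    simp only [star_pow, hsa1] at h1
    exact tendsto_nhds_unique h1 hP
  · have h1 := hP.mul hP
    simp only [← pow_add] at h1
    exact tendsto_nhds_unique h1 (hP.comp (Filter.tendsto_atTop_mono (fun k => Nat.le_add_right k k)
      Filter.tendsto_id))
  · obtain ⟨k, hk⟩ := (ht.eventually (gt_mem_nhds (half_pos hε))).exists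
    have h1 : ‖P - M.1 ^ k‖ ≤ 0 + rate d ^ k :=
      le_of_tendsto_of_tendsto' (hP.sub_const _).norm (ht.add_const _) fun m => hb m k
    obtain ⟨T, hT, h2⟩ := fourierS_trace (pow_mem hMS k)
    refine ⟨T, hT, fun N y hy => ?_⟩
    have h3 := h2 N y hy
    have hN : (0 : ℝ) < N := Nat.cast_pos.2 hy.1
    have hN' : (N : ℂ) ≠ 0 := Nat.cast_ne_zero.2 hy.1.ne'
    have e : canonicalTrace P - ((N : ℝ)⁻¹ * ∑ j, (((B (y j)).blk 1).card : ℝ)⁻¹ : ℝ) =
        (P - M.1 ^ k) (dl 1) 1 + (N : ℂ)⁻¹ * ∑ j, ((Mop (σ (y j)) ^ k) (dl 1) 1 -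
          ((((B (y j)).blk 1).card : ℝ)⁻¹ : ℝ)) := by
      simp only [Prod.pow_fst, Prod.pow_snd, Pi.pow_apply, hM2] at h3
      rw [sum_sub_distrib, ← h3, ContinuousLinearMap.sub_apply, l2_sub_apply, ← inner_dl_left 1 (P _)]
      change inner ℂ (dl 1) (P (dl 1)) - _ = _
      push_cast
      field_simp
      ring
    rw [e]
    refine (norm_add_le _ _).trans ?_
    have h4 : ‖(P - M.1 ^ k) (dl 1) 1‖ ≤ rate d ^ k := by
      refine (norm_apply_le _ _).trans (((P - M.1 ^ k).le_of_opNorm_le h1 _).trans_eq ?_)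
      rw [norm_dl]; ring
    have h5 : ‖∑ j, ((Mop (σ (y j)) ^ k) (dl 1) 1 - ((((B (y j)).blk 1).card : ℝ)⁻¹ : ℝ))‖ ≤
        N * rate d ^ k :=
      (norm_sum_le _ _).trans ((sum_le_sum fun j _ => (B (y j)).diag hd 1 k).trans_eq (by simp))
    rw [norm_mul, norm_inv, Complex.norm_natCast]
    have h6 := (inv_mul_le_iff₀ hN).2 h5
    linarith

end Vale.Agent.P089
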