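import Vale.Agent.P089.Exit

/-! The graphical small cancellation group and its Cayley graph. -/

namespace Vale.Agent.P089

open Vale.Agent.P186

section

variable {S V G : Type} {Ed : V → S × Bool → V → Prop} {r : V → ℕ} [DecidableEq S] [Group G]
  (Γ : SC Ed r) {π : FreeGroup S →* G} (T : Schreier π)

/-- Two positions lie in the same copy. -/
def SameG (π : FreeGroup S →* G) (a b : G × V) : Prop :=
  ∃ w, Γ.Rel a.2 w b.2 ∧ b.1 = a.1 * π w

/-- The position lies in the upper part of its copy. -/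
def OwnG (g : G) (v : V) : Prop :=
  ∃ g' v', SameG Γ π (g, v) (g', v') ∧ T.len g' + 2 * r v + 1 ≤ T.len g

/-- The height of a copy. -/
noncomputable def htG (g : G) (v : V) : ℕ :=
  sInf {k | ∃ g' v', SameG Γ π (g, v) (g', v') ∧ T.len g' = k} + 2 * r v + 1

open Classical in
/-- The height function. -/
noncomputable def hvG (g : G) : ℕ :=
  if h : ∃ v, OwnG Γ T g v then 2 * htG Γ T g h.choose else 2 * T.len g + 1

theorem sameG_equiv : Equivalence (SameG Γ π) :=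
  ⟨fun a => ⟨1, Γ.rel_one _, by simp⟩,
    fun ⟨w, h, e⟩ => ⟨w⁻¹, h.symm, by rw [e, map_inv, mul_inv_cancel_right]⟩,
    fun ⟨w, h, e⟩ ⟨w', h', e'⟩ => ⟨w * w', h.trans h', by rw [e', e, map_mul, mul_assoc]⟩⟩

theorem sameG_ed (g : G) {v v' : V} {l : S × Bool} (h : Ed v l v') :
    SameG Γ π (g, v) (g * π (FreeGroup.mk [l]), v') := ⟨_, Γ.rel_letter.2 h, rfl⟩

theorem sameG_r {g g' : G} {v v' : V} (h : SameG Γ π (g, v) (g', v')) : r v' = r v := by
  obtain ⟨w, h, -⟩ := h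
  exact h.r_eq

theorem sameG_of_cell {x x' : FreeGroup S} {v v' : V} (h : Γ.cell x v = Γ.cell x' v') :
    SameG Γ π (π x, v) (π x', v') :=
  ⟨x⁻¹ * x', Γ.cell_eq.1 h, by rw [← map_mul, mul_inv_cancel_left]⟩

theorem ed_of_cell {x : FreeGroup S} {l : S × Bool} {v v' : V}
    (h : Γ.cell x v = Γ.cell (x * FreeGroup.mk [l]) v') : Ed v l v' := by
  have := Γ.cell_eq.1 h
  rw [inv_mul_cancel_left] at this
  exact Γ.rel_letter.1 this

theorem ht_le {g g' : G} {v v' : V} (h : SameG Γ π (g, v) (g', v')) :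
    htG Γ T g v ≤ T.len g' + 2 * r v + 1 := by
  have : sInf {k | ∃ g' v', SameG Γ π (g, v) (g', v') ∧ T.len g' = k} ≤ T.len g' :=
    Nat.sInf_le ⟨g', v', h, rfl⟩
  unfold htG
  omega

theorem ht_spec (g : G) (v : V) : ∃ g' v', SameG Γ π (g, v) (g', v') ∧
    htG Γ T g v = T.len g' + 2 * r v + 1 := by
  obtain ⟨g', v', h, e⟩ := Nat.sInf_mem (s := {k | ∃ g' v', SameG Γ π (g, v) (g', v') ∧
    T.len g' = k}) ⟨_, g, v, (sameG_equiv Γ).refl _, rfl⟩
  exact ⟨g', v', h, by rw [e]; rfl⟩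

theorem ht_same {g g' : G} {v v' : V} (h : SameG Γ π (g, v) (g', v')) :
    htG Γ T g v = htG Γ T g' v' := by
  obtain ⟨a, b, h1, e1⟩ := ht_spec Γ T g v
  obtain ⟨a', b', h2, e2⟩ := ht_spec Γ T g' v'
  have h3 := ht_le Γ T ((sameG_equiv Γ).trans h h2)
  have h4 := ht_le Γ T ((sameG_equiv Γ).trans ((sameG_equiv Γ).symm h) h1)
  have := sameG_r Γ h
  omega

theorem own_iff {g : G} {v : V} : OwnG Γ T g v ↔ htG Γ T g v ≤ T.len g := by
  constructor
  · rintro ⟨g', v', h, e⟩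
    exact (ht_le Γ T h).trans e
  · intro h
    obtain ⟨g', v', h1, e⟩ := ht_spec Γ T g v
    exact ⟨g', v', h1, by omega⟩

theorem exists_gate (g : G) (v : V) : ∃ a, Gate fd (Γ.A (Γ.cell (T.rep g) v)) 1 a ∧
    Btw fd 1 a (T.rep g) := by
  obtain ⟨a, ha⟩ := fd_tree.exists_gate (Γ.conv (Γ.cell (T.rep g) v)) ⟨_, v, rfl⟩ 1
  exact ⟨a, ha, ha.2 _ ⟨v, rfl⟩⟩

theorem ed_last {g : G} (hg : g ≠ 1) {v : V} {a : FreeGroup S}
    (ha : a ∈ Γ.A (Γ.cell (T.rep g) v)) (hb : Btw fd 1 a (T.rep g)) (h : fd 1 a < T.len g) :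
    ∃ v', Ed v (fl (T.lt g)) v' := by
  obtain ⟨e1, e2⟩ := T.last g hg
  set y := T.rep (g * (π (FreeGroup.mk [T.lt g]))⁻¹)
  have d1 : fd y (T.rep g) = 1 := by rw [e1, fd_letter]
  have b2 : Btw fd 1 y (T.rep g) := by unfold P186.Btw; omega
  have o := btw_ord hb b2 (by unfold Schreier.len at h; omega)
  obtain ⟨v', hv'⟩ := Γ.conv _ a ha _ ⟨v, rfl⟩ y (by unfold P186.Btw at *; omega)
  refine ⟨v', ed_of_cell Γ (x := T.rep g) ?_⟩
  rw [← hv', mk_fl]
  congr 1
  rw [e1, mul_inv_cancel_right]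

variable (hk : ∀ x, π x = 1 ↔ x ∈ Γ.NN)

include hk

theorem gate_le {g g' : G} {v v' : V} (h : SameG Γ π (g, v) (g', v')) {a a' : FreeGroup S}
    (ha : Gate fd (Γ.A (Γ.cell (T.rep g) v)) 1 a)
    (ha' : Gate fd (Γ.A (Γ.cell (T.rep g') v')) 1 a') :
    fd 1 a' ≤ fd 1 a + r v ∧ (a = 1 → a' = 1) := by
  obtain ⟨w, h, e⟩ := h
  have e2 : (T.rep g' * (T.rep g * w)⁻¹) • Γ.cell (T.rep g) v = Γ.cell (T.rep g') v' := by
    rw [Γ.smul_cell]
    exact Γ.cell_eq.2 (h.cast (by group))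
  refine exit_aux Γ T hk _ (n := T.rep g' * (T.rep g * w)⁻¹) (g := g) (g' := g') le_rfl ?_ ha
    (by rw [e2]; exact ha') (ha.2 _ ⟨v, rfl⟩) (ha'.2 _ ⟨v', rfl⟩)
  simp only at e
  rw [map_mul, map_inv, map_mul, T.map, T.map, e, mul_inv_cancel]

theorem gate_ht {g : G} {v : V} {a : FreeGroup S}
    (ha : Gate fd (Γ.A (Γ.cell (T.rep g) v)) 1 a) : fd 1 a + r v + 1 ≤ htG Γ T g v := by
  obtain ⟨g', v', h, e⟩ := ht_spec Γ T g v
  obtain ⟨a', ha', hb'⟩ := exists_gate Γ T g' v'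
  have h1 := (gate_le Γ T hk ((sameG_equiv Γ).symm h) ha' ha).1
  have h2 := sameG_r Γ h
  unfold P186.Btw at hb'
  unfold Schreier.len at e
  omega

theorem own_cell {g : G} {v v' : V} (h : OwnG Γ T g v) {b : FreeGroup S}
    (hb : b ∈ Γ.A (Γ.cell (T.rep g) v')) (hb' : Btw fd 1 b (T.rep g))
    (hr : fd 1 b + r v + 1 ≤ T.len g ∨ fd 1 b + r v' + 1 ≤ T.len g ∧ r v' ≤ r v) : v = v' := by
  obtain ⟨a, ha, ha'⟩ := exists_gate Γ T g v
  have h1 := gate_ht Γ T hk ha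
  have h2 := (own_iff Γ T).1 h
  by_contra hne
  have hc : Γ.cell (T.rep g) v ≠ Γ.cell (T.rep g) v' := fun e => hne (Γ.cell_inj e)
  have m1 : T.rep g ∈ Γ.A (Γ.cell (T.rep g) v) := ⟨v, rfl⟩
  have m2 : T.rep g ∈ Γ.A (Γ.cell (T.rep g) v') := ⟨v', rfl⟩
  unfold Schreier.len at *
  rcases le_total (fd 1 a) (fd 1 b) with k | k
  · have o := btw_ord ha' hb' k
    have m3 := Γ.conv _ a ha.1 _ m1 b (by unfold P186.Btw at *; omega)
    have o1 := Γ.ovl hc m3 hb m1 m2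
    have o2 := Γ.ovl hc.symm hb m3 m2 m1
    rw [Γ.rc_cell] at o1 o2
    unfold P186.Btw at *
    omega
  · have o := btw_ord hb' ha' k
    have m3 := Γ.conv _ b hb _ m2 a (by unfold P186.Btw at *; omega)
    have o1 := Γ.ovl hc ha.1 m3 m1 m2
    rw [Γ.rc_cell] at o1
    unfold P186.Btw at *
    omega

theorem ownG_unique {g : G} {v v' : V} (h : OwnG Γ T g v) (h' : OwnG Γ T g v') : v = v' := by
  wlog hr : r v' ≤ r v generalizing v v'
  · exact (this h' h (by omega)).symm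
  obtain ⟨b, hb, hb'⟩ := exists_gate Γ T g v'
  have h1 := gate_ht Γ T hk hb
  have h2 := (own_iff Γ T).1 h'
  exact own_cell Γ T hk h hb.1 hb' (Or.inr ⟨by omega, hr⟩)

theorem ownG_last {g : G} {v : V} (h : OwnG Γ T g v) : ∃ v', Ed v (fl (T.lt g)) v' := by
  obtain ⟨a, ha, ha'⟩ := exists_gate Γ T g v
  have h1 := gate_ht Γ T hk ha
  have h2 := (own_iff Γ T).1 h
  refine ed_last Γ T ?_ ha.1 ha' (by omega)
  rintro rfl
  unfold Schreier.len at h2
  rw [T.rep_one, fd_tree.self] at h2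
  omega

theorem hv_of_own {g : G} {v : V} (h : OwnG Γ T g v) : hvG Γ T g = 2 * htG Γ T g v := by
  have h0 : ∃ v, OwnG Γ T g v := ⟨v, h⟩
  unfold hvG
  rw [dif_pos h0, ownG_unique Γ T hk h0.choose_spec h]

theorem triG (g : G) (l : S × Bool) :
    (T.lt (g * π (FreeGroup.mk [l])) = l ∧ T.len (g * π (FreeGroup.mk [l])) = T.len g + 1 ∧
      T.rep (g * π (FreeGroup.mk [l])) = T.rep g * FreeGroup.mk [l]) ∨
    (g ≠ 1 ∧ T.lt g = fl l) ∨
    ∃ v v', Ed v l v' ∧ OwnG Γ T g v ∧ OwnG Γ T (g * π (FreeGroup.mk [l])) v' := by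
  by_cases h : T.rep (g * π (FreeGroup.mk [l])) = T.rep g * FreeGroup.mk [l]
  · rcases T.tree_edge h with h1 | h1
    · exact Or.inl ⟨h1.1, h1.2, h⟩
    · exact Or.inr (Or.inl h1)
  · obtain ⟨c, p, p', ⟨v, rfl⟩, ⟨v', h2⟩, ⟨w, h3⟩, ⟨w', h4⟩, e1, e2⟩ := high_edge Γ T hk h
    have he := ed_of_cell Γ h2.symm
    rw [Γ.rc_cell] at e1 e2
    refine Or.inr (Or.inr ⟨v, v', he, ⟨π p, w, ?_, e1⟩, ⟨π p', w', ?_, ?_⟩⟩)
    · have := sameG_of_cell (π := π) Γ h3.symm
      rwa [T.map] at this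
    · have := sameG_of_cell (π := π) Γ (h2.trans h4.symm)
      rwa [map_mul, T.map] at this
    · rwa [Γ.r_ed _ _ _ he]

theorem base_mem {v₀ v : V} {g : G} (h : SameG Γ π (1, v₀) (g, v)) :
    1 ∈ Γ.A (Γ.cell (T.rep g) v) := by
  obtain ⟨a, ha, -⟩ := exists_gate Γ T g v
  have h1 : Gate fd (Γ.A (Γ.cell (T.rep 1) v₀)) 1 1 := by
    refine ⟨⟨v₀, by rw [T.rep_one]⟩, fun t _ => ?_⟩
    unfold P186.Btw
    rw [fd_tree.self, zero_add]
  have := (gate_le Γ T hk h h1 ha).2 rfl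
  subst this
  exact ha.1

/-- The geometric structure. -/
noncomputable def geo : Geo Ed G where
  ed l := π (FreeGroup.mk [l])
  Same := SameG Γ π
  Own := OwnG Γ T
  lt := T.lt
  hv := hvG Γ T
  ed_fl l := by rw [mk_fl, map_inv]
  equiv := sameG_equiv Γ
  same_ed g v l v' h := sameG_ed Γ g h
  same_mul := by
    rintro h g v g' v' ⟨w, h1, e⟩
    exact ⟨w, h1, by simp only at e ⊢; rw [e, mul_assoc]⟩
  same_left := by
    rintro g g' v ⟨w, h1, e⟩
    simp only at e h1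
    rw [e, (hk w).2 (Γ.loop_mem h1), mul_one]
  same_right := by
    rintro g v v' ⟨w, h1, e⟩
    exact Γ.embed _ le_rfl ((hk w).1 (left_eq_mul.1 e)) h1
  same_reach := by
    rintro g v g' v' ⟨w, h1, -⟩
    exact Rd.reach h1
  tri g l := by
    rcases triG Γ T hk g l with h | h | h
    · exact Or.inl h.1
    · exact Or.inr (Or.inl h.2)
    · exact Or.inr (Or.inr h)
  own_unique g v v' h h' := ownG_unique Γ T hk h h'
  own_ed g v h := ⟨_, ownG_last Γ T hk h⟩
  one_edge g v l v' h he hn := by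
    rcases triG Γ T hk g l with h1 | h1 | ⟨w, w', h1, h2, h3⟩
    · refine (hn ((own_iff Γ T).2 ?_)).elim
      rw [← ht_same Γ T (sameG_ed Γ g he)]
      have := (own_iff Γ T).1 h
      omega
    · rw [h1.2, fl_fl]
    · obtain rfl := ownG_unique Γ T hk h h2
      obtain rfl := Γ.func _ _ _ _ he h1
      exact (hn h3).elim
  hv_same g v g' v' h h' hs := by
    rw [hv_of_own Γ T hk h, hv_of_own Γ T hk h', ht_same Γ T hs]
  hv_own g v l h hn := by
    have h0 := (own_iff Γ T).1 h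
    rw [hv_of_own Γ T hk h]
    rcases triG Γ T hk g l with ⟨h1, h2, h3⟩ | h1 | ⟨w, w', h1, h2, h3⟩
    · by_cases ho : ∃ w, OwnG Γ T (g * π (FreeGroup.mk [l])) w
      · obtain ⟨w, hw⟩ := ho
        rw [hv_of_own Γ T hk hw]
        obtain ⟨w', hw'⟩ := ownG_last Γ T hk hw
        rw [h1] at hw'
        have he := Γ.symm _ _ _ hw'
        rw [fl_fl] at he
        have hc : Γ.cell (T.rep g) w' = Γ.cell (T.rep (g * π (FreeGroup.mk [l]))) w := by
          rw [h3]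
          exact Γ.cell_eq.2 (by rw [inv_mul_cancel_left]; exact Γ.rel_letter.2 he)
        obtain ⟨b, hb, hb'⟩ := exists_gate Γ T g w'
        have h4 := gate_ht Γ T hk (hc ▸ hb)
        by_contra hlt
        obtain ⟨a, ha, ha'⟩ := exists_gate Γ T g v
        have h5 := gate_ht Γ T hk ha
        have hne : v ≠ w' := by
          rintro rfl
          exact hn _ he
        have hr := Γ.r_ed _ _ _ he
        by_cases hrr : r w' ≤ r v
        · exact hne (own_cell Γ T hk h hb.1 hb' (Or.inr ⟨by omega, hrr⟩))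
        · exact hne (own_cell Γ T hk h hb.1 hb' (Or.inl (by omega)))
      · unfold hvG
        rw [dif_neg ho]
        omega
    · obtain ⟨v', hv'⟩ := ownG_last Γ T hk h
      rw [h1.2, fl_fl] at hv'
      exact (hn _ hv').elim
    · obtain rfl := ownG_unique Γ T hk h h2
      exact (hn _ h1).elim
  hv_free g l hn := by
    have e0 : hvG Γ T g = 2 * T.len g + 1 := dif_neg (not_exists.2 hn)
    rcases triG Γ T hk g l with ⟨h1, h2, h3⟩ | h1 | ⟨w, w', h1, h2, h3⟩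
    · right
      rw [e0]
      by_cases ho : ∃ w, OwnG Γ T (g * π (FreeGroup.mk [l])) w
      · obtain ⟨w, hw⟩ := ho
        rw [hv_of_own Γ T hk hw]
        obtain ⟨w', hw'⟩ := ownG_last Γ T hk hw
        rw [h1] at hw'
        have he := Γ.symm _ _ _ hw'
        rw [fl_fl] at he
        have h4 := mt (own_iff Γ T).2 (hn w')
        rw [← ht_same Γ T (sameG_ed Γ g he)]
        omega
      · unfold hvG
        rw [dif_neg ho]
        omega
    · exact Or.inl ⟨h1.1, by rw [h1.2, fl_fl]⟩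
    · exact (hn _ h2).elim
  base v₀ g v h hg := by
    refine ed_last Γ T hg (base_mem Γ T hk h) ?_ ?_
    · unfold P186.Btw
      rw [fd_tree.self, zero_add]
    · have := (T.last g hg).2
      unfold Schreier.len
      rw [fd_tree.self]
      omega
  base_own v₀ g v v' h h' := by
    obtain ⟨a, ha, ha'⟩ := exists_gate Γ T g v'
    have h1 := gate_ht Γ T hk ha
    have h2 := (own_iff Γ T).1 h'
    refine own_cell Γ T hk h' (base_mem Γ T hk h) ?_ (Or.inl ?_)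
    · unfold P186.Btw
      rw [fd_tree.self, zero_add]
    · rw [fd_tree.self]
      omega

end

theorem exists_geo {S V : Type} [Finite S] [Nonempty S] {Ed : V → S × Bool → V → Prop}
    {r : V → ℕ} (h : SC Ed r) :
    ∃ (G : Type) (_ : Group G) (_ : Countable G), Nonempty (Geo Ed G) := by
  classical
  obtain ⟨T⟩ := exists_schreier (QuotientGroup.mk' h.NN) (QuotientGroup.mk'_surjective _)
  exact ⟨FreeGroup S ⧸ h.NN, inferInstance, (QuotientGroup.mk'_surjective h.NN).countable,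
    ⟨geo h T fun x => QuotientGroup.eq_one_iff x⟩⟩

end Vale.Agent.P089
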