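import Mathlib

/-! The geometric facts about the Cayley graph of a graphical small cancellation group that are
used later. -/

namespace Vale.Agent.P089

/-- The inverse letter. -/
def fl {S : Type} (l : S × Bool) : S × Bool := (l.1, !l.2)

@[simp] theorem fl_fl {S : Type} (l : S × Bool) : fl (fl l) = l := by simp [fl]

/-- Reading a word along a labelled graph. -/
inductive Rd {S V : Type} (Ed : V → S × Bool → V → Prop) : V → List (S × Bool) → V → Prop
  | nil (v : V) : Rd Ed v [] v
  | cons {v v₁ v' : V} {l : S × Bool} {L : List (S × Bool)} :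
      Ed v l v₁ → Rd Ed v₁ L v' → Rd Ed v (l :: L) v'

/-- A folded labelled graph with large girth and short pieces, at every scale. -/
structure SC {S V : Type} (Ed : V → S × Bool → V → Prop) (r : V → ℕ) : Prop where
  func : ∀ v l v₁ v₂, Ed v l v₁ → Ed v l v₂ → v₁ = v₂
  symm : ∀ v l v', Ed v l v' → Ed v' (fl l) v
  r_ed : ∀ v l v', Ed v l v' → r v' = r v
  girth : ∀ v L, Rd Ed v L v → FreeGroup.IsReduced L → L ≠ [] → 12 * r v + 11 ≤ L.length
  piece : ∀ v w v' w' L, Rd Ed v L w → Rd Ed v' L w' → FreeGroup.IsReduced L → r v < L.length →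
    v = v'

/-- A group in whose Cayley graph the components of the labelled graph are drawn. A position
`(g, v)` says that the vertex `v` is drawn at `g`; `Same` relates positions of the same copy;
`lt g` is the last letter of a chosen geodesic word for `g`; `Own g v` says that `g` lies in the
upper part of the copy through `(g, v)`; `hv` is a height function. -/
structure Geo {S V : Type} (Ed : V → S × Bool → V → Prop) (G : Type) [Group G] where
  ed : S × Bool → G
  Same : G × V → G × V → Prop
  Own : G → V → Prop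
  lt : G → S × Bool
  hv : G → ℕ
  ed_fl : ∀ l, ed (fl l) = (ed l)⁻¹
  equiv : Equivalence Same
  same_ed : ∀ g v l v', Ed v l v' → Same (g, v) (g * ed l, v')
  same_mul : ∀ h g v g' v', Same (g, v) (g', v') → Same (h * g, v) (h * g', v')
  same_left : ∀ g g' v, Same (g, v) (g', v) → g = g'
  same_right : ∀ g v v', Same (g, v) (g, v') → v = v'
  same_reach : ∀ g v g' v', Same (g, v) (g', v') →
    Relation.ReflTransGen (fun a b => ∃ l, Ed a l b) v v'
  tri : ∀ g l, lt (g * ed l) = l ∨ lt g = fl l ∨ ∃ v v', Ed v l v' ∧ Own g v ∧ Own (g * ed l) v'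
  own_unique : ∀ g v v', Own g v → Own g v' → v = v'
  own_ed : ∀ g v, Own g v → ∃ l v', Ed v l v'
  one_edge : ∀ g v l v', Own g v → Ed v l v' → ¬ Own (g * ed l) v' → l = fl (lt g)
  hv_same : ∀ g v g' v', Own g v → Own g' v' → Same (g, v) (g', v') → hv g = hv g'
  hv_own : ∀ g v l, Own g v → (∀ v', ¬ Ed v l v') → hv g < hv (g * ed l)
  hv_free : ∀ g l, (∀ v, ¬ Own g v) → (g ≠ 1 ∧ l = fl (lt g)) ∨ hv g < hv (g * ed l)
  base : ∀ v₀ g v, Same (1, v₀) (g, v) → g ≠ 1 → ∃ v', Ed v (fl (lt g)) v'
  base_own : ∀ v₀ g v v', Same (1, v₀) (g, v) → Own g v' → v' = v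

end Vale.Agent.P089
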