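import Vale.Agent.P089.Code

/-! Rigidity of the codeword of a level, and the local relations. -/

namespace Vale.Agent.P089

open Finset

namespace Par

variable {P : Par} {k : ℕ} (Y : P.Lev k)

theorem rigid_card_aux {n d : ℕ} (π : Gr n d) (s : Bool) (G : Finset (Fin n × Fin d)) :
    G.card = ∑ x, (univ.filter fun i => key π (x, s) i ∈ G).card := by
  have h : Function.Bijective fun e : Fin n × Fin d => key π (e.1, s) e.2 :=
    Finite.injective_iff_bijective.1 fun e e' k => by
      obtain ⟨h1, h2 | h2⟩ := key_eq π k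
      · exact Prod.ext (Prod.mk.inj h2).1 h1
      · simpa using congrArg Prod.snd h2
  simp only [card_filter]
  rw [← Fintype.sum_prod_type', h.sum_comp fun e => if e ∈ G then 1 else 0]
  simp

theorem rigid_arith_aux {B c n m C y x e : ℕ} (hB : 0 < B) (hc : 12 * B ≤ c) (hC : C ≤ m)
    (h1 : (3 * B - 1) * n < 3 * B * m) (h2 : 12 * c * m < 12 * c * C + 7 * n)
    (h3 : (c + 1) * y + e ≤ 12 * c * C) (h4 : 12 * c * C < e + 7 * n) (h5 : x + C ≤ y + n) :
    B * x ≤ n ∧ n < 2 * C := by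
  obtain ⟨r, rfl⟩ := Nat.exists_eq_add_of_le hC
  obtain ⟨b, rfl⟩ : ∃ b, B = b + 1 := ⟨B - 1, by omega⟩
  rw [show 3 * (b + 1) - 1 = 3 * b + 2 by omega] at h1
  have k1 := Nat.mul_le_mul_right r hc
  have k2 := Nat.mul_le_mul_right y hc
  have k3 := Nat.mul_le_mul_left b h5
  refine ⟨by nlinarith, ?_⟩
  by_contra k
  have k4 := Nat.mul_le_mul_left b (not_lt.1 k)
  nlinarith

open Classical in
theorem rigid_few_aux {φ ψ : P.E →ₗ[P.F] P.F} (h : φ ≠ ψ) (T : Fin P.d → Prop) [DecidablePred T]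
    (hT : ∀ i, T i → φ (P.ea i) = ψ (P.ea i) ∧ φ (P.eb i) = ψ (P.eb i)) :
    (univ.filter T).card + (P.c + 1) ≤ P.d := by
  by_contra k
  refine h (sub_eq_zero.1 (P.fun_zero _ (le_trans ?_ (card_le_card (s := univ.filter T)
    fun i hi => ?_))))
  · have : P.d = 12 * P.c := rfl
    omega
  · simpa [sub_eq_zero] using hT i (mem_filter.1 hi).2

/-- A family of functionals that agrees with the codeword along most edges agrees with it
everywhere. -/
theorem Lev.rigid (φ : Vx (P.n k) → P.E →ₗ[P.F] P.F)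
    (hφ : ∀ x i, φ (mv Y.π x i) = Y.tau (mv Y.π x i) →
      φ x (P.ea i) = Y.tau x (P.ea i) ∧ φ x (P.eb i) = Y.tau x (P.eb i))
    (A B : Finset (Fin (P.n k))) (Gd : Finset (Fin (P.n k) × Fin P.d))
    (hA : ∀ e ∈ Gd, e.1 ∈ A) (hB : ∀ e ∈ Gd, Y.π e.2 e.1 ∈ B)
    (hGd : ∀ x i, key Y.π x i ∈ Gd →
      φ x (P.ea i) = Y.tau x (P.ea i) ∧ φ x (P.eb i) = Y.tau x (P.eb i))
    (h : P.d * A.card + P.d * B.card < 2 * Gd.card + 7 * A.card) :
    (∀ x, φ x = Y.tau x) ∧ P.n k < 2 * A.card := by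
  classical
  have hd : P.d = 12 * P.c := rfl
  have hc := P.c_pos
  let bad : Bool → Finset (Fin (P.n k)) := fun s => univ.filter fun x => φ (x, s) ≠ Y.tau (x, s)
  have side : ∀ (s : Bool) (C : Finset (Fin (P.n k))), (∀ x i, key Y.π (x, s) i ∈ Gd → x ∈ C) →
      ∃ y, (P.c + 1) * y + Gd.card ≤ 12 * P.c * C.card ∧ (bad s).card + C.card ≤ y + P.n k := by
    intro s C hC
    refine ⟨(C ∩ bad s).card, ?_, ?_⟩
    · rw [rigid_card_aux Y.π s, ← sum_subset (subset_univ C) fun x _ hx =>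
        card_eq_zero.2 (filter_eq_empty_iff.2 fun i _ hi => hx (hC x i hi)), mul_comm,
        ← smul_eq_mul, ← sum_const, ← sum_ite_mem, ← sum_add_distrib, mul_comm]
      refine sum_le_card_nsmul _ _ _ fun x _ => ?_
      split_ifs with hx
      · rw [add_comm]
        exact rigid_few_aux (mem_filter.1 hx).2 _ (hGd _)
      · exact (zero_add _).trans_le ((card_le_univ _).trans_eq (Fintype.card_fin _))
    · rw [← card_inter_add_card_union, inter_comm]
      exact Nat.add_le_add_left ((card_le_univ _).trans_eq (Fintype.card_fin _)) _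
  obtain ⟨y, a1, a2⟩ := side false A fun x i hx => hA _ hx
  obtain ⟨z, b1, b2⟩ := side true B fun x i hx => by simpa using hB _ hx
  have ha : A.card ≤ P.n k := (card_le_univ _).trans_eq (Fintype.card_fin _)
  have he : Gd.card ≤ ec Y.π A B :=
    card_le_card fun e he => mem_filter.2 ⟨mem_univ _, hA e he, hB e he⟩
  change 12 * P.c * _ + 12 * P.c * _ < _ at h
  have m1 : ∀ m, (m = A.card ∨ m = B.card) → A.card ≤ m → B.card ≤ m →
      P.B * (bad false).card ≤ P.n k ∧ P.B * (bad true).card ≤ P.n k ∧ P.n k < 2 * A.card := by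
    intro m h0 h1 h2
    have k1 : (3 * P.B - 1) * P.n k < 3 * P.B * m := by
      by_contra k
      have := Y.exp1 A B m h1 h2 (Nat.pos_of_ne_zero fun k => by
        have e1 := Nat.le_zero.1 (h1.trans k.le)
        have e2 := Nat.le_zero.1 (h2.trans k.le)
        rw [e1, e2] at h
        rw [e2] at b1
        omega) (not_lt.1 k)
      rw [Nat.sub_mul] at this
      rcases h0 with rfl | rfl <;> omega
    have k2 := rigid_arith_aux P.hB P.hc h1 k1 (by rcases h0 with rfl | rfl <;> omega) a1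
      (by omega) a2
    have k3 := rigid_arith_aux P.hB P.hc h2 k1 (by rcases h0 with rfl | rfl <;> omega) b1
      (by omega) b2
    exact ⟨k2.1, k3.1, k2.2⟩
  obtain ⟨m2, m3, m4⟩ := m1 (max A.card B.card) (max_choice _ _) (le_max_left _ _)
    (le_max_right _ _)
  refine ⟨?_, m4⟩
  have big : ∀ s, (P.c + 1) * (bad s).card ≤ ec Y.π (bad false) (bad true) := by
    intro s
    rw [ec, rigid_card_aux Y.π s, mul_comm, ← smul_eq_mul]
    refine le_trans (card_nsmul_le_sum _ _ _ fun x hx => ?_)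
      (sum_le_sum_of_subset (subset_univ (bad s)))
    have k1 := rigid_few_aux (mem_filter.1 hx).2 _ (hφ (x, s))
    have k2 := card_filter_add_card_filter_not (s := (univ : Finset (Fin P.d)))
      fun i => φ (mv Y.π (x, s) i) = Y.tau (mv Y.π (x, s) i)
    rw [card_univ, Fintype.card_fin] at k2
    refine le_trans (by omega) (card_le_card (s := univ.filter fun i =>
      ¬ φ (mv Y.π (x, s) i) = Y.tau (mv Y.π (x, s) i)) fun i hi => ?_)
    cases s <;> simp only [bad, mem_filter, mem_univ, true_and] at hx hi ⊢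
    · exact ⟨hx, hi⟩
    · exact ⟨hi, by simpa using hx⟩
  by_contra hx
  obtain ⟨⟨x, s⟩, hx⟩ := not_forall.1 hx
  have k0 : 0 < (bad s).card := card_pos.2 ⟨x, mem_filter.2 ⟨mem_univ _, hx⟩⟩
  have k1 := big false
  have k2 := big true
  have k3 := Y.exp2 _ _ (max (bad false).card (bad true).card) (le_max_left _ _) (le_max_right _ _)
    (by cases s <;> omega) (by rcases max_choice (bad false).card (bad true).card with k | k <;>
      rw [k] <;> omega)
  rcases max_choice (bad false).card (bad true).card with k | k <;> rw [k] at k3 <;>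
    rw [add_mul] at k1 k2 <;> omega

/-- The local relations. -/
def Lev.RX : Submodule P.F (Vx (P.n k) → P.E) :=
  Submodule.span P.F
    ((Set.range fun e : Fin (P.n k) × Fin P.d =>
      (Pi.single (e.1, false) (P.ea e.2) - Pi.single (Y.π e.2 e.1, true) (P.ea e.2) :
        Vx (P.n k) → P.E)) ∪
    Set.range fun e : Fin (P.n k) × Fin P.d =>
      (Pi.single (e.1, false) (P.eb e.2) - Pi.single (Y.π e.2 e.1, true) (Y.bit e • P.eb e.2) :
        Vx (P.n k) → P.E))

/-- The codeword as one functional. -/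
def Lev.tot : (Vx (P.n k) → P.E) →ₗ[P.F] P.F := ∑ x, Y.tau x ∘ₗ LinearMap.proj x

/-- The dimension of the code. -/
noncomputable def Lev.D : ℕ :=
  Module.finrank P.F (Vx (P.n k) → P.E) - Module.finrank P.F Y.RX

theorem Lev.tot_RX {a : Vx (P.n k) → P.E} (ha : a ∈ Y.RX) : Y.tot a = 0 := by
  have k : ∀ x v, Y.tot (Pi.single x v) = Y.tau x v := fun x v => by
    simp [Lev.tot, Pi.single_apply, apply_ite (Y.tau _)]
  refine (Submodule.span_le (p := LinearMap.ker Y.tot)).2 ?_ ha
  rintro _ (⟨⟨u, i⟩, rfl⟩ | ⟨⟨u, i⟩, rfl⟩) <;> obtain ⟨h1, h2, h3⟩ := Y.tau_ed u i <;>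
    simp [k, h1, h2, h3]

theorem Lev.le_D : P.n k ≤ Y.D := by
  have h1 : Module.finrank P.F Y.RX ≤ P.n k * P.d + P.n k * P.d := by
    rw [Lev.RX, ← Set.Sum.elim_range]
    exact (finrank_range_le_card (R := P.F) _).trans_eq (by simp)
  have h2 : Module.finrank P.F (Vx (P.n k) → P.E) = P.n k * 2 * (22 * P.c) := by
    simp [Module.finrank_pi_fintype]
  have hd : P.d = 12 * P.c := rfl
  have := P.c_pos
  rw [Lev.D, h2]
  refine Nat.le_sub_of_add_le ?_
  rw [hd] at h1
  nlinarith

theorem Lev.D_le : Y.D ≤ 44 * P.c * P.n k := by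
  have h2 : Module.finrank P.F (Vx (P.n k) → P.E) = P.n k * 2 * (22 * P.c) := by
    simp [Module.finrank_pi_fintype]
  rw [Lev.D, h2]
  exact (Nat.sub_le _ _).trans_eq (by ring)

theorem Lev.D_lt (Y' : P.Lev (k + 1)) : Y.D < Y'.D := by
  have h1 := Y.D_le
  have h2 := Y'.le_D
  have h3 := P.n_succ k
  omega

end Par

end Vale.Agent.P089
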