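import Vale.Agent.P089.Mod
import Vale.Agent.P089.Rigid
import Vale.Agent.P089.Cheeger

/-! The intact copies are the only obstruction to an isoperimetric inequality. -/

namespace Vale.Agent.P089

open Finset

open scoped Classical

namespace Par

namespace Tower

variable {P : Par} {X : P.Tower} {G : Type} [Group G] (Θ : Geo X.Ed G) (y : A Θ →ₗ[P.F] P.F)

/-- The sources of the intact copy through `g`, if there is one. -/
noncomputable def blk (g : G) : Finset G :=
  if h : ∃ (k : ℕ) (C : Copy Θ k) (u : Fin (P.n k)),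
      C.ι (u, false) = g ∧ Intact Θ y g ⟨k, (u, false)⟩ then
    univ.image fun u => h.choose_spec.choose.ι (u, false)
  else ∅

theorem iso_copy_aux {k : ℕ} (C C' : Copy Θ k) {x : Vx (P.n k)} (h : C.ι x = C'.ι x)
    (x' : Vx (P.n k)) : C.ι x' = C'.ι x' := by
  obtain ⟨x'', h1, h2⟩ := C.all x _ _ (h ▸ C'.same x x')
  obtain rfl : x' = x'' := eq_of_heq (Sigma.mk.inj h1).2
  exact h2.symm

theorem blk_of_intact {k : ℕ} (C : Copy Θ k) (u : Fin (P.n k))
    (h : Intact Θ y (C.ι (u, false)) ⟨k, (u, false)⟩) :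
    blk Θ y (C.ι (u, false)) = univ.image fun u => C.ι (u, false) := by
  have key : ∀ (k' : ℕ) (C' : Copy Θ k'), (∃ u' : Fin (P.n k'), C'.ι (u', false) = C.ι (u, false) ∧
      Intact Θ y (C.ι (u, false)) ⟨k', (u', false)⟩) →
      (univ.image fun u => C'.ι (u, false)) = univ.image fun u => C.ι (u, false) := by
    rintro k' C' ⟨u', h1, h2⟩
    have h3 := intact_unique Θ y h2 h rfl
    obtain rfl : k' = k := congrArg Sigma.fst h3
    have h4 : ((u', false) : Vx (P.n k')) = (u, false) := eq_of_heq (Sigma.mk.inj h3).2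
    rw [h4] at h1
    simp only [iso_copy_aux Θ C' C h1]
  have h' : ∃ (k' : ℕ) (C' : Copy Θ k') (u' : Fin (P.n k')),
      C'.ι (u', false) = C.ι (u, false) ∧ Intact Θ y (C.ι (u, false)) ⟨k', (u', false)⟩ :=
    ⟨k, C, u, rfl, h⟩
  rw [blk, dif_pos h']
  exact key _ _ h'.choose_spec.choose_spec

theorem blk_of_not {g : G} (h : ∀ k u, ¬ Intact Θ y g ⟨k, (u, false)⟩) : blk Θ y g = ∅ := by
  rw [blk, dif_neg]
  rintro ⟨k, -, u, -, h'⟩
  exact h k u h'

theorem card_blk {g : G} {k : ℕ} {u : Fin (P.n k)} (h : Intact Θ y g ⟨k, (u, false)⟩) :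
    (blk Θ y g).card = P.n k := by
  obtain ⟨C, rfl⟩ := exists_copy Θ g h.1 (u, false)
  rw [blk_of_intact Θ y C u h, card_image_of_injective, card_univ, Fintype.card_fin]
  exact fun a b hab => congrArg Prod.fst (C.inj hab)

theorem iso_nbr_aux (W : Finset G) :
    P.d * ((W ×ˢ (univ : Finset (Fin P.d))).image fun x => sig Θ y x.2 x.1).card ≤
      P.d * W.card + ((W ×ˢ (univ : Finset (Fin P.d × Fin P.d))).filter
        fun x => (sig Θ y x.2.2).symm (sig Θ y x.2.1 x.1) ∉ W).card := by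
  set N := (W ×ˢ (univ : Finset (Fin P.d))).image fun x => sig Θ y x.2 x.1 with hN
  set Bd := (W ×ˢ (univ : Finset (Fin P.d × Fin P.d))).filter
    fun x => (sig Θ y x.2.2).symm (sig Θ y x.2.1 x.1) ∉ W with hBd
  have h1 : N ×ˢ (univ : Finset (Fin P.d)) ⊆
      ((W ×ˢ (univ : Finset (Fin P.d))).image fun x => (sig Θ y x.2 x.1, x.2)) ∪
        Bd.image fun x => (sig Θ y x.2.1 x.1, x.2.2) := by
    rintro ⟨t, j⟩ ht
    obtain ⟨⟨g, i⟩, hg, rfl⟩ := mem_image.1 (mem_product.1 ht).1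
    by_cases hw : (sig Θ y j).symm (sig Θ y i g) ∈ W
    · exact mem_union_left _ (mem_image.2 ⟨(_, j), mem_product.2 ⟨hw, mem_univ _⟩, by simp⟩)
    · exact mem_union_right _ (mem_image.2 ⟨(g, i, j), mem_filter.2
        ⟨mem_product.2 ⟨(mem_product.1 hg).1, mem_univ _⟩, hw⟩, rfl⟩)
  have h2 := (card_le_card h1).trans ((card_union_le _ _).trans
    (add_le_add card_image_le card_image_le))
  simp only [card_product, card_univ, Fintype.card_fin] at h2
  rw [mul_comm, mul_comm P.d]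
  exact h2

/-- The edge of colour `i` at `g` is an edge between two owned positions. -/
def IsoGood (e : G × Fin P.d) : Prop :=
  ∃ v v', X.Ed v (labY Θ y (e.1, false) e.2, true) v' ∧ Θ.Own e.1 v ∧ Θ.Own (sig Θ y e.2 e.1) v'

theorem iso_good_aux (W : Finset G) :
    P.d * W.card ≤ ((W ×ˢ (univ : Finset (Fin P.d))).image fun x => sig Θ y x.2 x.1).card +
      W.card + ((W ×ˢ (univ : Finset (Fin P.d))).filter (IsoGood Θ y)).card := by
  set E := W ×ˢ (univ : Finset (Fin P.d)) with hE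
  set E1 := E.filter fun e => Θ.lt (sig Θ y e.2 e.1) = (labY Θ y (e.1, false) e.2, true) with hE1
  set E2 := E.filter fun e => Θ.lt e.1 = fl (labY Θ y (e.1, false) e.2, true) with hE2
  have h1 : E ⊆ E1 ∪ E2 ∪ E.filter (IsoGood Θ y) := by
    intro e he
    rcases Θ.tri e.1 (labY Θ y (e.1, false) e.2, true) with h | h | h
    · exact mem_union_left _ (mem_union_left _ (mem_filter.2 ⟨he, h⟩))
    · exact mem_union_left _ (mem_union_right _ (mem_filter.2 ⟨he, h⟩))
    · exact mem_union_right _ (mem_filter.2 ⟨he, h⟩)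
  have h2 : E1.card ≤ (E.image fun x => sig Θ y x.2 x.1).card := by
    refine card_le_card_of_injOn (fun x => sig Θ y x.2 x.1)
      (fun e he => mem_image_of_mem _ (mem_filter.1 he).1) ?_
    rintro ⟨g, i⟩ he ⟨g', i'⟩ he' h
    have h3 := (mem_filter.1 he).2
    have h4 := (mem_filter.1 he').2
    simp only at h h3 h4
    rw [h, h4] at h3
    obtain rfl : i' = i := congrArg (fun l : P.S × Bool => l.1.1) h3
    rw [(sig Θ y i').injective h]
  have h3 : E2.card ≤ W.card := by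
    refine card_le_card_of_injOn Prod.fst
      (fun e he => (mem_product.1 (mem_filter.1 he).1).1) ?_
    rintro ⟨g, i⟩ he ⟨g', i'⟩ he' h
    have h3 := (mem_filter.1 he).2
    have h4 := (mem_filter.1 he').2
    obtain rfl : g = g' := h
    rw [h4] at h3
    obtain rfl : i' = i := congrArg (fun l : P.S × Bool => l.1.1) h3
    rfl
  have h4 := (card_le_card h1).trans ((card_union_le _ _).trans
    (Nat.add_le_add_right (card_union_le _ _) _))
  have h5 : E.card = P.d * W.card := by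
    rw [hE, card_product, card_univ, Fintype.card_fin, mul_comm]
  omega

/-- The class of the copy that owns `g`. -/
noncomputable def isoCls (g : G) : Option (Quotient ⟨Θ.Same, Θ.equiv⟩) :=
  if h : ∃ v, Θ.Own g v then some (Quotient.mk _ (g, h.choose)) else none

theorem iso_cls_aux {g : G} {v : P.V} (h : Θ.Own g v) :
    isoCls Θ g = some (Quotient.mk _ (g, v)) := by
  have h' : ∃ v, Θ.Own g v := ⟨v, h⟩
  rw [isoCls, dif_pos h', Θ.own_unique _ _ _ h'.choose_spec h]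

theorem iso_same_aux {g g' : G} {v v' : P.V} (h : Θ.Own g v) (h' : Θ.Own g' v') :
    isoCls Θ g = isoCls Θ g' ↔ Θ.Same (g, v) (g', v') := by
  rw [iso_cls_aux Θ h, iso_cls_aux Θ h', Option.some.injEq, Quotient.eq]
  rfl

theorem iso_edge_aux {e : G × Fin P.d} (h : IsoGood Θ y e) :
    ∃ (k : ℕ) (u : Fin (P.n k)), Θ.Own e.1 ⟨k, (u, false)⟩ ∧
      Θ.Own (sig Θ y e.2 e.1) ⟨k, ((X.lev k).π e.2 u, true)⟩ ∧
      labY Θ y (e.1, false) e.2 = X.lab ⟨k, (u, false)⟩ e.2 ∧
      isoCls Θ (sig Θ y e.2 e.1) = isoCls Θ e.1 := by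
  obtain ⟨⟨k, u, b⟩, v', h1, h2, h3⟩ := h
  have h4 := Θ.same_ed e.1 _ _ _ h1
  obtain ⟨-, i, rfl, hl⟩ := h1
  obtain ⟨h5, h6⟩ := Prod.mk.inj hl
  obtain rfl : e.2 = i := congrArg Prod.fst h5
  obtain rfl : b = false := by simpa using h6
  exact ⟨k, u, h2, h3, h5, ((iso_same_aux Θ h2 h3).2 h4).symm⟩

theorem iso_num_aux {d w n b e : ℕ} (hd : 7 ≤ d) (h : b < w) (h1 : d * n ≤ d * w + b)
    (h2 : d * w ≤ n + w + e) : (d - 7) * w + d * n < 2 * e := by
  obtain ⟨m, rfl⟩ := Nat.exists_eq_add_of_le hd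
  rw [Nat.add_sub_cancel_left]
  by_contra hc
  have h3 : (m + 12) * w ≤ (m + 9) * n := by nlinarith
  have h4 : (7 + m) * n + 1 ≤ (8 + m) * w := by nlinarith
  nlinarith [Nat.mul_le_mul_left (7 + m) h3, Nat.mul_le_mul_left (m + 9) h4]

theorem iso_num2_aux {d a b e a' b' e' : ℕ} (hd : 7 ≤ d) (h : (d - 7) * a + d * b < 2 * e)
    (ha : a' ≤ a) (hb : b' ≤ b) (he : e ≤ e') : d * a' + d * b' < 2 * e' + 7 * a' := by
  obtain ⟨m, rfl⟩ := Nat.exists_eq_add_of_le hd
  rw [Nat.add_sub_cancel_left] at h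
  nlinarith [Nat.mul_le_mul_left m ha, Nat.mul_le_mul_left (7 + m) hb]

/-- A finite set with small boundary fills most of some copy along edges of that copy. -/
theorem exists_dense (W : Finset G)
    (h : ((W ×ˢ (univ : Finset (Fin P.d × Fin P.d))).filter
      fun x => (sig Θ y x.2.2).symm (sig Θ y x.2.1 x.1) ∉ W).card < W.card) :
    ∃ (k : ℕ) (C : Copy Θ k) (A B : Finset (Fin (P.n k))) (Gd : Finset (Fin (P.n k) × Fin P.d)),
      (∀ u ∈ A, C.ι (u, false) ∈ W) ∧ (∀ e ∈ Gd, e.1 ∈ A) ∧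
      (∀ e ∈ Gd, (X.lev k).π e.2 e.1 ∈ B) ∧
      (∀ e ∈ Gd, labY Θ y (C.ι (e.1, false), false) e.2 = X.lab ⟨k, (e.1, false)⟩ e.2) ∧
      P.d * A.card + P.d * B.card < 2 * Gd.card + 7 * A.card := by
  have hd : 7 ≤ P.d := by
    have := P.c_pos
    unfold d
    omega
  have h1 := iso_nbr_aux Θ y W
  have h2 := iso_good_aux Θ y W
  set N := (W ×ˢ (univ : Finset (Fin P.d))).image fun x => sig Θ y x.2 x.1 with hN
  set Go := (W ×ˢ (univ : Finset (Fin P.d))).filter (IsoGood Θ y) with hGo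
  set T := (W ∪ N).image (isoCls Θ) with hT
  have hW : W.card = ∑ κ ∈ T, (W.filter fun g => isoCls Θ g = κ).card :=
    card_eq_sum_card_fiberwise fun g hg => mem_image_of_mem _ (mem_union_left _ hg)
  have hN' : N.card = ∑ κ ∈ T, (N.filter fun g => isoCls Θ g = κ).card :=
    card_eq_sum_card_fiberwise fun g hg => mem_image_of_mem _ (mem_union_right _ hg)
  have hG : Go.card = ∑ κ ∈ T, (Go.filter fun e => isoCls Θ e.1 = κ).card :=
    card_eq_sum_card_fiberwise fun e he => mem_image_of_mem _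
      (mem_union_left _ (mem_product.1 (mem_filter.1 he).1).1)
  obtain ⟨κ, -, hκ⟩ : ∃ κ ∈ T, (P.d - 7) * (W.filter fun g => isoCls Θ g = κ).card +
      P.d * (N.filter fun g => isoCls Θ g = κ).card <
        2 * (Go.filter fun e => isoCls Θ e.1 = κ).card := by
    refine exists_lt_of_sum_lt ?_
    rw [sum_add_distrib, ← mul_sum, ← mul_sum, ← mul_sum, ← hW, ← hN', ← hG]
    exact iso_num_aux hd h h1 h2
  obtain ⟨e₀, he₀⟩ : (Go.filter fun e => isoCls Θ e.1 = κ).Nonempty := by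
    rw [← card_pos]
    omega
  obtain ⟨k, u₀, ho, -⟩ := iso_edge_aux Θ y (mem_filter.1 (mem_filter.1 he₀).1).2
  obtain ⟨C, hC⟩ := exists_copy Θ e₀.1 (own_on Θ ho) (u₀, false)
  have hκ0 := (mem_filter.1 he₀).2
  have key : ∀ e ∈ Go.filter fun e => isoCls Θ e.1 = κ, ∃ u, e.1 = C.ι (u, false) ∧
      sig Θ y e.2 e.1 = C.ι ((X.lev k).π e.2 u, true) ∧
      labY Θ y (e.1, false) e.2 = X.lab ⟨k, (u, false)⟩ e.2 ∧ isoCls Θ (sig Θ y e.2 e.1) = κ := by
    intro e he
    obtain ⟨k', u, h3, h4, h5, h6⟩ := iso_edge_aux Θ y (mem_filter.1 (mem_filter.1 he).1).2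
    have h7 := (iso_same_aux Θ ho h3).1 (hκ0.trans (mem_filter.1 he).2.symm)
    obtain ⟨x', h8, h9⟩ := C.all (u₀, false) _ _ (hC ▸ h7)
    obtain rfl : k' = k := congrArg Sigma.fst h8
    obtain rfl : (u, false) = x' := eq_of_heq (Sigma.mk.inj h8).2
    refine ⟨u, h9, ?_, h5, h6.trans (mem_filter.1 he).2⟩
    rw [sig_apply, h5, h9]
    exact (C.step (u, false) e.2).symm
  refine ⟨k, C, univ.filter fun u => C.ι (u, false) ∈ W.filter fun g => isoCls Θ g = κ,
    univ.filter fun t => C.ι (t, true) ∈ N.filter fun g => isoCls Θ g = κ,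
    univ.filter fun e => (C.ι (e.1, false), e.2) ∈ Go.filter fun e => isoCls Θ e.1 = κ,
    fun u hu => (mem_filter.1 (mem_filter.1 hu).2).1, fun e he => ?_, fun e he => ?_,
    fun e he => ?_, ?_⟩
  · have h3 := mem_filter.1 (mem_filter.1 he).2
    exact mem_filter.2 ⟨mem_univ _, mem_filter.2 ⟨(mem_product.1 (mem_filter.1 h3.1).1).1, h3.2⟩⟩
  · obtain ⟨u, h3, h4, -, h6⟩ := key _ (mem_filter.1 he).2
    obtain rfl : e.1 = u := congrArg Prod.fst (C.inj h3)
    refine mem_filter.2 ⟨mem_univ _, ?_⟩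
    rw [← h4]
    exact mem_filter.2 ⟨mem_image_of_mem _ (mem_filter.1 (mem_filter.1 (mem_filter.1 he).2).1).1,
      h6⟩
  · obtain ⟨u, h3, -, h5, -⟩ := key _ (mem_filter.1 he).2
    obtain rfl : e.1 = u := congrArg Prod.fst (C.inj h3)
    exact h5
  · refine iso_num2_aux hd hκ ?_ ?_ ?_
    · exact card_le_card_of_injOn (fun u => C.ι (u, false)) (fun u hu => (mem_filter.1 hu).2)
        fun a _ b _ hab => congrArg Prod.fst (C.inj hab)
    · exact card_le_card_of_injOn (fun u => C.ι (u, true)) (fun u hu => (mem_filter.1 hu).2)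
        fun a _ b _ hab => congrArg Prod.fst (C.inj hab)
    · refine le_trans (card_le_card fun e he => ?_)
        (card_image_le (f := fun e : Fin (P.n k) × Fin P.d => (C.ι (e.1, false), e.2)))
      obtain ⟨u, h3, -⟩ := key e he
      have h4 : (C.ι (u, false), e.2) = e := Prod.ext h3.symm rfl
      exact mem_image.2 ⟨(u, e.2), mem_filter.2 ⟨mem_univ _, h4 ▸ he⟩, h4⟩

theorem iso_lab_aux {k : ℕ} (C : Copy Θ k) (x : Vx (P.n k)) (i : Fin P.d)
    (h : labY Θ y (C.ι (mv (X.lev k).π x i), (mv (X.lev k).π x i).2) i =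
      X.lab ⟨k, mv (X.lev k).π x i⟩ i) : labY Θ y (C.ι x, x.2) i = X.lab ⟨k, x⟩ i := by
  have h1 : X.lab ⟨k, mv (X.lev k).π x i⟩ i = X.lab ⟨k, x⟩ i := X.lab_mv ⟨k, x⟩ i
  obtain ⟨u, _ | _⟩ := x
  · rw [h1, C.step] at h
    exact (labY_step Θ y _ (X.lab ⟨k, (u, false)⟩ i)).1 h
  · have h2 := C.step (mv (X.lev k).π (u, true) i) i
    rw [mv_mv] at h2
    rw [h2, ← h1]
    exact (labY_step Θ y _ (X.lab ⟨k, mv (X.lev k).π (u, true) i⟩ i)).2 h

theorem blk_iso (W : Finset G) (hW : ∀ g, 2 * (W ∩ blk Θ y g).card ≤ (blk Θ y g).card) :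
    W.card ≤ ((W ×ˢ (univ : Finset (Fin P.d × Fin P.d))).filter
      fun x => (sig Θ y x.2.2).symm (sig Θ y x.2.1 x.1) ∉ W).card := by
  by_contra hc
  obtain ⟨k, C, A, B, Gd, h1, h2, h3, h4, h5⟩ := exists_dense Θ y W (not_le.1 hc)
  obtain ⟨h6, h7⟩ := (X.lev k).rigid (fun x => y ∘ₗ nd Θ (C.ι x, x.2))
    (fun x i h => (P.labF_inj (iso_lab_aux Θ y C x i (by
      unfold labY lab tauV
      simp only at h ⊢
      rw [h]))).2) A B Gd h2 h3
    (fun x i h => by
      obtain ⟨u, _ | _⟩ := x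
      · exact (P.labF_inj (h4 _ h)).2
      · exact (P.labF_inj (iso_lab_aux Θ y C (u, true) i (h4 _ h))).2) h5
  let u : Fin (P.n k) := ⟨0, P.n_pos k⟩
  have h8 := (intact_iff Θ y C (u, false)).2 h6
  have h9 := hW (C.ι (u, false))
  rw [card_blk Θ y h8, blk_of_intact Θ y C u h8] at h9
  have h10 : A.card ≤ (W ∩ univ.image fun u => C.ι (u, false)).card :=
    card_le_card_of_injOn (fun u => C.ι (u, false))
      (fun u hu => mem_inter.2 ⟨h1 u hu, mem_image_of_mem _ (mem_univ u)⟩)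
      fun a _ b _ hab => congrArg Prod.fst (C.inj hab)
  omega

theorem iso_mem_aux (g g' : G) (h : g' ∈ blk Θ y g) : blk Θ y g' = blk Θ y g := by
  by_cases hg : ∃ k u, Intact Θ y g ⟨k, (u, false)⟩
  · obtain ⟨k, u, hi⟩ := hg
    obtain ⟨C, rfl⟩ := exists_copy Θ g hi.1 (u, false)
    rw [blk_of_intact Θ y C u hi] at h ⊢
    obtain ⟨u', -, rfl⟩ := mem_image.1 h
    exact blk_of_intact Θ y C u' ((intact_iff Θ y C _).2 ((intact_iff Θ y C _).1 hi))
  · rw [blk_of_not Θ y fun k u hi => hg ⟨k, u, hi⟩] at h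
    exact absurd h (notMem_empty _)

theorem iso_inv_aux (i j : Fin P.d) {g : G} {k : ℕ} {u : Fin (P.n k)}
    (hi : Intact Θ y g ⟨k, (u, false)⟩) : (sig Θ y j).symm (sig Θ y i g) ∈ blk Θ y g := by
  obtain ⟨C, rfl⟩ := exists_copy Θ g hi.1 (u, false)
  have h1 := (intact_iff Θ y C _).1 hi
  have h2 : ∀ u i, sig Θ y i (C.ι (u, false)) = C.ι ((X.lev k).π i u, true) := by
    intro u i
    have h3 : labY Θ y (C.ι (u, false), false) i = X.lab ⟨k, (u, false)⟩ i := by
      unfold labY lab tauV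
      rw [h1 (u, false)]
    rw [sig_apply, h3]
    exact (C.step (u, false) i).symm
  rw [blk_of_intact Θ y C u hi, h2]
  refine mem_image.2 ⟨((X.lev k).π j).symm ((X.lev k).π i u), mem_univ _, ?_⟩
  rw [Equiv.eq_symm_apply, h2, Equiv.apply_symm_apply]

/-- The blocks. -/
noncomputable def blocks : Blocks (sig Θ y) where
  blk := blk Θ y
  mem := iso_mem_aux Θ y
  self := by
    intro g hne
    by_cases hg : ∃ k u, Intact Θ y g ⟨k, (u, false)⟩
    · obtain ⟨k, u, hi⟩ := hg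
      obtain ⟨C, rfl⟩ := exists_copy Θ g hi.1 (u, false)
      rw [blk_of_intact Θ y C u hi]
      exact mem_image_of_mem _ (mem_univ u)
    · rw [blk_of_not Θ y fun k u hi => hg ⟨k, u, hi⟩] at hne
      exact absurd hne not_nonempty_empty
  inv := by
    intro i j g
    by_cases hg : ∃ k u, Intact Θ y g ⟨k, (u, false)⟩
    · obtain ⟨k, u, hi⟩ := hg
      exact iso_mem_aux Θ y _ _ (iso_inv_aux Θ y i j hi)
    · by_cases hg' : ∃ k u, Intact Θ y ((sig Θ y j).symm (sig Θ y i g)) ⟨k, (u, false)⟩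
      · obtain ⟨k, u, hi⟩ := hg'
        have h1 := iso_inv_aux Θ y j i hi
        rw [Equiv.apply_symm_apply, Equiv.symm_apply_apply] at h1
        exact (iso_mem_aux Θ y _ _ h1).symm
      · rw [blk_of_not Θ y fun k u hi => hg ⟨k, u, hi⟩,
          blk_of_not Θ y fun k u hi => hg' ⟨k, u, hi⟩]
  iso := blk_iso Θ y

end Tower

end Par

end Vale.Agent.P089
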