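import Vale.Agent.P089.Mod
import Vale.Agent.P089.Rigid

/-! The only relations among the nodes of a copy are the local ones. -/

namespace Vale.Agent.P089

open Finset

namespace Par

namespace Tower

variable {P : Par} {X : P.Tower} {G : Type} [Group G] {Θ : Geo X.Ed G} {k : ℕ} (C : Copy Θ k)

/-- The nodes of a copy. -/
noncomputable def Copy.Phi : (Vx (P.n k) → P.E) →ₗ[P.F] A Θ :=
  ∑ x, nd Θ (C.ι x, x.2) ∘ₗ LinearMap.proj x

theorem Copy.ker_phi_aux (a : Vx (P.n k) → P.E) : C.Phi a = ∑ x, nd Θ (C.ι x, x.2) (a x) := by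
  simp [Copy.Phi, LinearMap.sum_apply]

theorem Copy.ker_single_aux (x : Vx (P.n k)) (a : P.E) :
    C.Phi (Pi.single x a) = nd Θ (C.ι x, x.2) a := by
  rw [C.ker_phi_aux, Finset.sum_eq_single x]
  · simp
  · intro b _ hb
    simp [hb]
  · simp

theorem Copy.ker_step_aux (u : Fin (P.n k)) (i : Fin P.d) :
    C.ι ((X.lev k).π i u, true) = C.ι (u, false) * Θ.ed (X.lab ⟨k, (u, false)⟩ i, true) :=
  C.step (u, false) i

theorem ker_th_aux (X : P.Tower) (k : ℕ) (u : Fin (P.n k)) (i : Fin P.d) :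
    P.th (X.lab ⟨k, (u, false)⟩ i).2.1 = (X.lev k).bit (u, i) := by
  rw [X.lab_bit]
  exact P.th_of_ne ((X.lev k).bit_ne _)

theorem Copy.RX_le : (X.lev k).RX ≤ LinearMap.ker C.Phi := by
  refine Submodule.span_le.2 ?_
  rintro _ (⟨⟨u, i⟩, rfl⟩ | ⟨⟨u, i⟩, rfl⟩)
  · rw [SetLike.mem_coe, LinearMap.mem_ker, map_sub, C.ker_single_aux, C.ker_single_aux,
      C.ker_step_aux, sub_eq_zero]
    exact nd_ea Θ _ (X.lab ⟨k, (u, false)⟩ i)
  · rw [SetLike.mem_coe, LinearMap.mem_ker, map_sub, C.ker_single_aux, C.ker_single_aux,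
      C.ker_step_aux, sub_eq_zero, map_smul, ← ker_th_aux]
    exact nd_eb Θ _ (X.lab ⟨k, (u, false)⟩ i)

variable (Θ) in
/-- The edge with label `s` at the node `(u, b)`. -/
def edg (u : G) (b : Bool) (s : P.S) : G × P.S := (if b then u * Θ.ed (s, false) else u, s)

theorem ker_ed_aux (s : P.S) : Θ.ed (s, false) = (Θ.ed (s, true))⁻¹ := Θ.ed_fl (s, true)

theorem ker_flip_aux (u : G) (b : Bool) (s : P.S) :
    edg Θ (u * Θ.ed (s, !b)) (!b) s = edg Θ u b s := by
  cases b <;> simp [edg, ker_ed_aux]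

omit [Group G] in
theorem ker_sum_aux (α : G × P.S →₀ P.F) (F : G × P.S → P.E) (φ : P.S → G × P.S)
    (hφ : Function.Injective φ) (hF : ∀ e, F e ≠ 0 → ∃ s, e = φ s) :
    (α.sum fun e r => r • F e) = ∑ s, α (φ s) • F (φ s) := by
  classical
  rw [← Finset.sum_image (s := univ) (f := fun e => α e • F e) (hφ.injOn), Finsupp.sum]
  refine Finset.sum_congr_of_eq_on_inter ?_ ?_ fun _ _ _ => rfl
  · intro e _ he
    by_cases h : F e = 0
    · rw [h, smul_zero]
    · obtain ⟨s, rfl⟩ := hF e h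
      exact absurd (mem_image_of_mem _ (mem_univ s)) he
  · intro e _ he
    rw [Finsupp.notMem_support_iff.1 he, zero_smul]

theorem ker_eval_aux (α β : G × P.S →₀ P.F) (u : G) (b : Bool)
    (h : ((α.sum fun e r => r • rel1 Θ e.1 e.2) + β.sum fun e r => r • rel2 Θ e.1 e.2) (u, b) = 0) :
    ∑ s, α (edg Θ u b s) • P.ea s.1 +
      ∑ s, ((if b then P.th s.2.1 else 1) * β (edg Θ u b s)) • P.eb s.1 = 0 := by
  classical
  have hφ : Function.Injective (edg Θ u b) := fun s s' h => congrArg Prod.snd h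
  rw [Finsupp.add_apply, Finsupp.sum_apply, Finsupp.sum_apply] at h
  simp only [Finsupp.smul_apply] at h
  have hs : ∀ e : G × P.S, (e.1, false) = (u, b) ∨ (e.1 * Θ.ed (e.2, true), true) = (u, b) →
      ∃ s, e = edg Θ u b s := by
    rintro ⟨g, s⟩ (h | h)
    · obtain ⟨rfl, rfl⟩ := Prod.mk.inj h
      exact ⟨s, rfl⟩
    · obtain ⟨rfl, rfl⟩ := Prod.mk.inj h
      exact ⟨s, by simp [edg, ker_ed_aux]⟩
  rw [ker_sum_aux α (fun e => rel1 Θ e.1 e.2 (u, b)) _ hφ, ker_sum_aux β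
    (fun e => rel2 Θ e.1 e.2 (u, b)) _ hφ] at h
  · cases b
    · simpa [rel1, rel2, edg, Finsupp.single_apply] using h
    · have e1 : ∀ s : P.S, u * Θ.ed (s, false) * Θ.ed (s, true) = u := fun s => by
        simp [ker_ed_aux]
      simp only [rel1, rel2, edg, if_true, e1, Finsupp.sub_apply, Finsupp.smul_apply,
        Finsupp.single_apply, Prod.mk.injEq, Bool.false_eq_true, and_false, if_false,
        zero_sub, smul_neg, Finset.sum_neg_distrib, smul_smul] at h ⊢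
      rw [← neg_add, neg_eq_zero] at h
      simpa only [mul_comm] using h
  · intro e he
    apply hs
    by_contra hc
    rw [not_or] at hc
    apply he
    simp only [rel2, Finsupp.sub_apply, Finsupp.smul_apply, Finsupp.single_apply, if_neg hc.1,
      if_neg hc.2, smul_zero, sub_zero]
  · intro e he
    apply hs
    by_contra hc
    rw [not_or] at hc
    apply he
    simp only [rel1, Finsupp.sub_apply, Finsupp.single_apply, if_neg hc.1, if_neg hc.2, sub_zero]

theorem ker_lab_aux {Y : Type} [AddCommMonoid Y] (F : P.S → Y) (ℓ : Fin P.d → P.S)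
    (hℓ : ∀ i, (ℓ i).1 = i) (h : ∀ s, F s ≠ 0 → ∃ i, s = ℓ i) : ∑ s, F s = ∑ i, F (ℓ i) := by
  classical
  have hi : Function.Injective ℓ := fun i j hij => by rw [← hℓ i, hij, hℓ]
  rw [← Finset.sum_image (s := univ) (f := F) hi.injOn]
  refine (Finset.sum_subset (subset_univ _) fun s _ hs => ?_).symm
  by_contra hc
  obtain ⟨i, rfl⟩ := h s hc
  exact hs (mem_image_of_mem _ (mem_univ i))

theorem ker_loc_aux (α β : G × P.S →₀ P.F) (u : G) (b : Bool)
    (h : ((α.sum fun e r => r • rel1 Θ e.1 e.2) + β.sum fun e r => r • rel2 Θ e.1 e.2) (u, b) = 0)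
    (ℓ : Fin P.d → P.S) (hℓ : ∀ i, (ℓ i).1 = i)
    (hs : ∀ s, α (edg Θ u b s) ≠ 0 ∨ β (edg Θ u b s) ≠ 0 → ∃ i, s = ℓ i) :
    P.Loc (fun i => α (edg Θ u b (ℓ i)),
      fun i => (if b then P.th (ℓ i).2.1 else 1) * β (edg Θ u b (ℓ i))) := by
  have h1 := ker_eval_aux α β u b h
  rw [ker_lab_aux _ ℓ hℓ, ker_lab_aux (fun s : P.S =>
    ((if b then P.th s.2.1 else 1) * β (edg Θ u b s)) • P.eb s.1) ℓ hℓ] at h1
  · simpa only [hℓ, Loc] using h1
  · intro s hne
    refine hs s (Or.inr fun h0 => hne ?_)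
    rw [h0, mul_zero, zero_smul]
  · intro s hne
    refine hs s (Or.inl fun h0 => hne ?_)
    rw [h0, zero_smul]

theorem Copy.ker_edg_aux (x : Vx (P.n k)) (i : Fin P.d) :
    edg Θ (C.ι x) x.2 (X.lab ⟨k, x⟩ i) =
      (C.ι ((key (X.lev k).π x i).1, false), X.lab ⟨k, ((key (X.lev k).π x i).1, false)⟩ i) := by
  obtain ⟨u, _ | _⟩ := x
  · rfl
  · have h1 := C.step (u, true) i
    have h2 := X.lab_mv ⟨k, (u, true)⟩ i
    exact Prod.ext h1.symm h2.symm

theorem Copy.ker_node_aux {u : G} {b : Bool} {s : P.S} {w : Fin (P.n k)} {i : Fin P.d}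
    (h : edg Θ u b s = (C.ι (w, false), X.lab ⟨k, (w, false)⟩ i)) : ∃ x, (u, b) = (C.ι x, x.2) := by
  obtain ⟨h1, rfl⟩ := Prod.mk.inj h
  cases b
  · exact ⟨(w, false), Prod.ext h1 rfl⟩
  · refine ⟨((X.lev k).π i w, true), Prod.ext ?_ rfl⟩
    rw [C.ker_step_aux, ← h1]
    simp [ker_ed_aux]

theorem ker_coef_aux (b : Bool) (a : P.F) : (if b then P.th a else 1) ≠ 0 := by
  split_ifs
  · exact P.th_ne _
  · exact one_ne_zero

/-- A combination of edge relations that is supported on the nodes of the copy through the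
identity only involves edges of that copy. -/
theorem Copy.supp_base {x₀ : Vx (P.n k)} (h₀ : C.ι x₀ = 1) (α β : G × P.S →₀ P.F)
    (h : ∀ q : G × Bool, (∀ x, q ≠ (C.ι x, x.2)) →
      ((α.sum fun e r => r • rel1 Θ e.1 e.2) + β.sum fun e r => r • rel2 Θ e.1 e.2) q = 0)
    (e : G × P.S) (he : α e ≠ 0 ∨ β e ≠ 0) :
    ∃ u i, e = (C.ι (u, false), X.lab ⟨k, (u, false)⟩ i) := by
  classical
  by_contra hne
  set Bad : Finset (G × P.S) := (α.support ∪ β.support).filter
    fun e => ¬ ∃ u i, e = (C.ι (u, false), X.lab ⟨k, (u, false)⟩ i) with hBad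
  have memBad : ∀ e, e ∈ Bad ↔ (α e ≠ 0 ∨ β e ≠ 0) ∧
      ¬ ∃ u i, e = (C.ι (u, false), X.lab ⟨k, (u, false)⟩ i) := by
    intro e
    simp only [hBad, mem_filter, mem_union, Finsupp.mem_support_iff]
  obtain ⟨⟨g, s⟩, hm, hmax⟩ := Bad.exists_max_image
    (fun e => max (Θ.hv e.1) (Θ.hv (e.1 * Θ.ed (e.2, true)))) ⟨e, (memBad e).2 ⟨he, hne⟩⟩
  obtain ⟨u, b, hub, hM⟩ : ∃ u b, edg Θ u b s ∈ Bad ∧
      ∀ u' b' s', edg Θ u' b' s' ∈ Bad → Θ.hv u' ≤ Θ.hv u := by
    have key : ∀ u' b' s', edg Θ u' b' s' ∈ Bad →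
        Θ.hv u' ≤ max (Θ.hv g) (Θ.hv (g * Θ.ed (s, true))) := by
      intro u' b' s' h'
      refine le_trans ?_ (hmax _ h')
      cases b'
      · exact le_max_left _ _
      · refine le_trans (le_of_eq ?_) (le_max_right _ _)
        simp [edg, ker_ed_aux]
    rcases le_total (Θ.hv g) (Θ.hv (g * Θ.ed (s, true))) with hle | hle
    · refine ⟨g * Θ.ed (s, true), true, ?_, fun u' b' s' h' => ?_⟩
      · have := ker_flip_aux (Θ := Θ) g false s
        rw [Bool.not_false] at this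
        rw [this]
        exact hm
      · simpa only [max_eq_right hle] using key u' b' s' h'
    · exact ⟨g, false, hm, fun u' b' s' h' => by simpa only [max_eq_left hle] using key u' b' s' h'⟩
  have hnext : ∀ u' b' s', edg Θ u' b' s' ∈ Bad → Θ.hv (u' * Θ.ed (s', !b')) ≤ Θ.hv u :=
    fun u' b' s' h' => hM _ (!b') s' (by rwa [ker_flip_aux])
  have hoff : ∀ u' b', (∀ x, (u', b') ≠ (C.ι x, x.2)) → ∀ s',
      α (edg Θ u' b' s') ≠ 0 ∨ β (edg Θ u' b' s') ≠ 0 → edg Θ u' b' s' ∈ Bad := by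
    intro u' b' hq s' hs'
    refine (memBad _).2 ⟨hs', ?_⟩
    rintro ⟨w, i, hw⟩
    obtain ⟨x, hx⟩ := C.ker_node_aux hw
    exact hq x hx
  have hsame : ∀ x, Θ.Same (1, ⟨k, x₀⟩) (C.ι x, ⟨k, x⟩) := fun x => h₀ ▸ C.same x₀ x
  have hnb : ∀ x i, (u, b) = (C.ι x, x.2) → s ≠ X.lab ⟨k, x⟩ i := by
    intro x i hx hs
    obtain ⟨rfl, rfl⟩ := Prod.mk.inj hx
    exact ((memBad _).1 hub).2 ⟨_, i, by rw [hs, C.ker_edg_aux]⟩
  by_cases hown : ∃ v, Θ.Own u v
  · obtain ⟨⟨k', x₁⟩, hv⟩ := hown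
    obtain ⟨C', rfl⟩ := exists_copy Θ u (own_on Θ hv) x₁
    have hed : ∀ x, Θ.Own (C'.ι x) ⟨k', x⟩ → ∀ b' s', edg Θ (C'.ι x) b' s' ∈ Bad →
        b' = x.2 ∧ ∃ i, s' = X.lab ⟨k', x⟩ i := by
      intro x hx b' s' h'
      by_contra hc
      have h1 := Θ.hv_own _ _ (s', !b') hx (by
        rintro v' ⟨-, i, -, hl⟩
        obtain ⟨h2, h3⟩ := Prod.mk.inj hl
        exact hc ⟨by simpa using h3, i, h2⟩)
      have h2 := hnext _ _ _ h'
      have h3 := Θ.hv_same _ _ _ _ hx hv (C'.same x x₁)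
      omega
    obtain ⟨rfl, i₁, rfl⟩ := hed x₁ hv b s hub
    have hnot : ∀ x, Θ.Own (C'.ι x) ⟨k', x⟩ → ∀ z, (C'.ι x, x.2) ≠ (C.ι z, z.2) := by
      intro x hx z hz
      have h1 : C'.ι x = C.ι z := congrArg Prod.fst hz
      have h2 := Θ.base_own _ _ _ _ (hsame z) (h1 ▸ hx)
      have h3 := C'.same x x₁
      rw [h1, h2] at h3
      obtain ⟨z', h4, h5⟩ := C.all z _ _ h3
      obtain rfl : k' = k := congrArg Sigma.fst h4
      obtain rfl : x₁ = z' := eq_of_heq (Sigma.mk.inj h4).2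
      exact hnb x₁ i₁ (Prod.ext h5 rfl) rfl
    have hz := (X.lev k').dual {x | ¬ Θ.Own (C'.ι x) ⟨k', x⟩}
      (fun x => (fun i => α (edg Θ (C'.ι x) x.2 (X.lab ⟨k', x⟩ i)),
        fun i => (if x.2 then P.th (X.lab ⟨k', x⟩ i).2.1 else 1) *
          β (edg Θ (C'.ι x) x.2 (X.lab ⟨k', x⟩ i)))) ?_ ?_ ?_ x₁ (not_not.2 hv)
    · have h1 := congrFun (congrArg Prod.fst hz) i₁
      have h2 := congrFun (congrArg Prod.snd hz) i₁
      rcases ((memBad _).1 hub).1 with h3 | h3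
      · exact h3 h1
      · exact mul_ne_zero (ker_coef_aux _ _) h3 h2
    · intro x hx i j hi hj
      have hx' : Θ.Own (C'.ι x) ⟨k', x⟩ := not_not.1 hx
      have h1 := Θ.one_edge _ _ _ _ hx' (X.ed_mv (v := ⟨k', x⟩) C'.on i) (C'.step x i ▸ hi)
      have h2 := Θ.one_edge _ _ _ _ hx' (X.ed_mv (v := ⟨k', x⟩) C'.on j) (C'.step x j ▸ hj)
      exact congrArg (fun l : P.S × Bool => l.1.1) (h1.trans h2.symm)
    · intro x hx
      have hx' : Θ.Own (C'.ι x) ⟨k', x⟩ := not_not.1 hx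
      exact ker_loc_aux α β _ _ (h _ (hnot x hx')) _ (X.lab_fst _) fun s' hs' =>
        (hed x hx' _ _ (hoff _ _ (hnot x hx') s' hs')).2
    · intro w i _ _
      have h1 := C'.ker_edg_aux ((X.lev k').π i w, true) i
      have h2 := X.mod_lab_aux k' w i
      simp only [key_true, Equiv.symm_apply_apply] at h1
      simp only [if_true, Bool.false_eq_true, if_false, one_mul]
      rw [h1, h2, ker_th_aux]
      rfl
  · have hown' : ∀ v, ¬ Θ.Own u v := fun v hv => hown ⟨v, hv⟩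
    have hl : ∀ s', edg Θ u b s' ∈ Bad → u ≠ 1 ∧ (s', !b) = fl (Θ.lt u) := by
      intro s' h'
      rcases Θ.hv_free u (s', !b) hown' with h1 | h1
      · exact h1
      · exact absurd (hnext _ _ _ h') (by omega)
    have hq : ∀ x, (u, b) ≠ (C.ι x, x.2) := by
      intro x hx
      obtain ⟨h1, h2⟩ := hl s hub
      have h3 : u = C.ι x := congrArg Prod.fst hx
      obtain ⟨v', -, i, -, h4⟩ := Θ.base _ _ _ (h3 ▸ hsame x) h1
      exact hnb x i hx (congrArg Prod.fst (h2.trans h4))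
    have huniq : ∀ s', α (edg Θ u b s') ≠ 0 ∨ β (edg Θ u b s') ≠ 0 → s' = s := fun s' hs' =>
      congrArg Prod.fst ((hl s' (hoff _ _ hq s' hs')).2.trans (hl s hub).2.symm)
    have hloc := ker_loc_aux α β u b (h _ hq) (fun i => (i, s.2)) (fun _ => rfl)
      fun s' hs' => ⟨s.1, huniq s' hs'⟩
    have hz := P.loc_zero hloc (by
      refine le_trans (card_le_card (t := {s.1}) fun i hi => ?_) ?_
      · rw [mem_filter] at hi
        have := huniq (i, s.2) (Or.inr (right_ne_zero_of_mul hi.2))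
        rw [mem_singleton, ← this]
      · have := P.c_pos
        rw [card_singleton]
        omega)
    have h1 := congrFun (congrArg Prod.fst hz) s.1
    have h2 := congrFun (congrArg Prod.snd hz) s.1
    rcases ((memBad _).1 hub).1 with h3 | h3
    · exact h3 h1
    · exact mul_ne_zero (ker_coef_aux _ _) h3 h2

theorem Copy.ker_Phi {x₀ : Vx (P.n k)} (h₀ : C.ι x₀ = 1) :
    LinearMap.ker C.Phi = (X.lev k).RX := by
  classical
  refine le_antisymm (fun a ha => ?_) C.RX_le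
  have hinj : ∀ x x' : Vx (P.n k), (C.ι x, x.2) = (C.ι x', x'.2) → x = x' := fun x x' h =>
    C.inj (congrArg Prod.fst h)
  rw [LinearMap.mem_ker, C.ker_phi_aux] at ha
  simp only [nd_apply] at ha
  rw [← map_sum, mkA_eq_zero, Rel, Submodule.span_union, Submodule.mem_sup] at ha
  obtain ⟨y, hy, z, hz, hyz⟩ := ha
  obtain ⟨α, rfl⟩ := Finsupp.mem_span_range_iff_exists_finsupp.1 hy
  obtain ⟨β, rfl⟩ := Finsupp.mem_span_range_iff_exists_finsupp.1 hz
  have hb := C.supp_base h₀ α β fun q hq => by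
    rw [hyz, Finsupp.finsetSum_apply]
    exact Finset.sum_eq_zero fun x _ => Finsupp.single_eq_of_ne (hq x)
  let ψ : (G × Bool →₀ P.E) →ₗ[P.F] (Vx (P.n k) → P.E) :=
    LinearMap.pi fun x => Finsupp.lapply (C.ι x, x.2)
  have hψ : ∀ x c, ψ (Finsupp.single (C.ι x, x.2) c) = Pi.single x c := by
    intro x c
    funext x'
    by_cases hx : x' = x
    · subst hx
      simp [ψ]
    · rw [Pi.single_eq_of_ne hx]
      exact Finsupp.single_eq_of_ne fun h => hx (hinj _ _ h)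
  have ha : a = ψ (∑ x, Finsupp.single (C.ι x, x.2) (a x)) := by
    rw [map_sum]
    simp only [hψ]
    exact (Finset.univ_sum_single a).symm
  rw [ha, ← hyz, map_add, Finsupp.sum, Finsupp.sum, map_sum, map_sum]
  refine add_mem (sum_mem fun e he => ?_) (sum_mem fun e he => ?_)
  · obtain ⟨u, i, rfl⟩ := hb e (Or.inl (Finsupp.mem_support_iff.1 he))
    rw [map_smul]
    refine Submodule.smul_mem _ _ (Submodule.subset_span (Or.inl ⟨(u, i), ?_⟩))
    simp only [rel1, map_sub, ← C.ker_step_aux]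
    rw [hψ (u, false), hψ ((X.lev k).π i u, true)]
    rfl
  · obtain ⟨u, i, rfl⟩ := hb e (Or.inr (Finsupp.mem_support_iff.1 he))
    rw [map_smul]
    refine Submodule.smul_mem _ _ (Submodule.subset_span (Or.inr ⟨(u, i), ?_⟩))
    simp only [rel2, map_sub, map_smul, ← C.ker_step_aux]
    rw [hψ (u, false), hψ ((X.lev k).π i u, true), ker_th_aux, Pi.single_smul]
    rfl

theorem Copy.intact_iff_Phi (y : A Θ →ₗ[P.F] P.F) (x : Vx (P.n k)) :
    Intact Θ y (C.ι x) ⟨k, x⟩ ↔ y ∘ₗ C.Phi = (X.lev k).tot := by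
  have ht : ∀ a, (X.lev k).tot a = ∑ x, (X.lev k).tau x (a x) := fun a => by
    simp [Lev.tot, LinearMap.sum_apply]
  rw [intact_iff]
  constructor
  · intro h
    refine LinearMap.ext fun a => ?_
    rw [LinearMap.comp_apply, C.ker_phi_aux, map_sum, ht]
    exact Finset.sum_congr rfl fun x' _ => LinearMap.congr_fun (h x') (a x')
  · intro h x'
    refine LinearMap.ext fun c => ?_
    have h1 := LinearMap.congr_fun h (Pi.single x' c)
    rw [LinearMap.comp_apply, C.ker_single_aux, ht, Finset.sum_eq_single x'] at h1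
    · simpa using h1
    · intro b _ hb
      simp [hb]
    · simp

end Tower

end Par

end Vale.Agent.P089
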