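import Mathlib

/-! A counting form of the local lemma. -/

namespace Vale.Agent.P089

open Finset

open scoped Classical

variable {ι Z : Type} [Fintype ι] [Fintype Z]

theorem card_determined (P Q : (ι → Z) → Prop) (J : Finset ι)
    (hdet : ∀ f f', P f → P f' → (∀ e, e ∉ J → f e = f' e) → f = f')
    (hQ : ∀ f f', P f → (∀ e, e ∉ J → f e = f' e) → Q f') :
    (univ.filter P).card * Fintype.card Z ^ J.card ≤ (univ.filter Q).card := by
  rw [← Fintype.card_coe J, ← Fintype.card_fun, ← card_univ (α := J → Z), ← card_product]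
  refine card_le_card_of_injOn (fun x e => if h : e ∈ J then x.2 ⟨e, h⟩ else x.1 e) ?_ ?_
  · rintro ⟨f, g⟩ h
    simp only [coe_product, coe_filter, Set.mem_prod, Set.mem_ofPred_eq, mem_univ, true_and] at h ⊢
    exact hQ f _ h.1 fun e he => by simp [he]
  · rintro ⟨f, g⟩ h ⟨f', g'⟩ h' k
    simp only [coe_product, coe_filter, Set.mem_prod, Set.mem_ofPred_eq, mem_univ, true_and] at h h'
    refine Prod.ext (hdet f f' h.1 h'.1 fun e he => ?_) (funext fun e => ?_)
    · simpa [he] using congrFun k e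
    · simpa [e.2] using congrFun k e

theorem rosenfeld {β : Type} [Fintype β] [Nonempty Z] (occ : β → (ι → Z) → Prop)
    (supp : β → Finset ι) (J : β → ι → Finset ι)
    (hdep : ∀ b f f', (∀ e ∈ supp b, f e = f' e) → occ b f → occ b f')
    (hne : ∀ b, (supp b).Nonempty) (hJ : ∀ b, ∀ e ∈ supp b, e ∈ J b e)
    (hdet : ∀ b, ∀ e ∈ supp b, ∀ f f', occ b f → occ b f' → (∀ x, x ∉ J b e → f x = f' x) →
      f = f')
    (hw : ∀ e, ∑ b ∈ univ.filter (fun b => e ∈ supp b),
      (2 / (Fintype.card Z : ℝ)) ^ (J b e).card ≤ 1) :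
    Fintype.card Z ^ Fintype.card ι ≤
      2 ^ Fintype.card ι * (univ.filter fun f : ι → Z => ∀ b, ¬ occ b f).card := by
  obtain ⟨N, hN⟩ : ∃ N : Finset ι → ℕ, ∀ S, N S =
    (univ.filter fun f : ι → Z => ∀ b, supp b ⊆ S → ¬ occ b f).card := ⟨_, fun _ => rfl⟩
  have hZ : (0 : ℝ) < Fintype.card Z := by exact_mod_cast Fintype.card_pos
  have step : ∀ (S : Finset ι) e, e ∉ S → (∀ T ⊆ S, N T ≤ 2 ^ (S \ T).card * N S) →
      N S ≤ 2 * N (insert e S) := by
    intro S e he ih
    let cnt : β → Finset (ι → Z) := fun b =>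
      univ.filter fun f => (∀ b, supp b ⊆ S → ¬ occ b f) ∧ occ b f
    have h1 : N S ≤ N (insert e S) + ∑ b ∈ univ.filter (fun b => e ∈ supp b), (cnt b).card := by
      rw [hN, hN]
      refine (card_le_card fun f hf => ?_).trans ((card_union_le _ _).trans
        (Nat.add_le_add_left card_biUnion_le _))
      simp only [cnt, mem_union, mem_filter, mem_univ, true_and, mem_biUnion] at hf ⊢
      refine or_iff_not_imp_left.2 fun k => ?_
      push Not at k
      obtain ⟨b, k1, k2⟩ := k
      exact ⟨b, by_contra fun k3 => hf b ((subset_insert_iff_of_notMem k3).1 k1) k2, hf, k2⟩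
    have h2 : ∀ b ∈ univ.filter (fun b => e ∈ supp b),
        2 * ((cnt b).card : ℝ) ≤ (2 / (Fintype.card Z : ℝ)) ^ (J b e).card * N S := by
      intro b hb
      have hb := (mem_filter.1 hb).2
      have k1 := card_determined (fun f => (∀ b, supp b ⊆ S → ¬ occ b f) ∧ occ b f)
        (fun f => ∀ b', supp b' ⊆ S \ J b e → ¬ occ b' f) (J b e)
        (fun f f' h h' => hdet b e hb f f' h.2 h'.2)
        (fun f f' h h' b' k k' => h.1 b' (k.trans sdiff_subset) (hdep b' f' f
          (fun x hx => (h' x (mem_sdiff.1 (k hx)).2).symm) k'))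
      have k2 := ih (S \ J b e) sdiff_subset
      have k3 : (S \ (S \ J b e)).card + 1 ≤ (J b e).card := by
        refine card_lt_card ⟨fun x hx => ?_, fun k => he (mem_sdiff.1 (k (hJ b e hb))).1⟩
        simp only [mem_sdiff, not_and, not_not] at hx
        exact hx.2 hx.1
      have k4 : 2 * ((cnt b).card * Fintype.card Z ^ (J b e).card) ≤ 2 ^ (J b e).card * N S := by
        have k5 : (cnt b).card * Fintype.card Z ^ (J b e).card ≤ N (S \ J b e) := by
          rw [hN]
          convert k1
        calc _ ≤ 2 * (2 ^ (S \ (S \ J b e)).card * N S) := Nat.mul_le_mul_left _ (k5.trans k2)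
          _ = 2 ^ ((S \ (S \ J b e)).card + 1) * N S := by ring
          _ ≤ _ := Nat.mul_le_mul_right _ (Nat.pow_le_pow_right two_pos k3)
      rw [div_pow, div_mul_eq_mul_div, le_div_iff₀ (by positivity), mul_assoc]
      exact_mod_cast k4
    have h3 := sum_le_sum h2
    rw [← sum_mul, ← mul_sum] at h3
    have h4 := mul_le_of_le_one_left (Nat.cast_nonneg (N S) : (0 : ℝ) ≤ _) (hw e)
    have h5 : (N S : ℝ) ≤ N (insert e S) +
        ∑ b ∈ univ.filter (fun b => e ∈ supp b), ((cnt b).card : ℝ) := by exact_mod_cast h1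
    have h6 : (N S : ℝ) ≤ 2 * N (insert e S) := by linarith
    exact_mod_cast h6
  have main : ∀ S : Finset ι, ∀ T ⊆ S, N T ≤ 2 ^ (S \ T).card * N S := by
    intro S
    induction S using Finset.strongInduction with
    | H S ih =>
    intro T hT
    rcases (S \ T).eq_empty_or_nonempty with h | ⟨e, he⟩
    · rw [h, hT.antisymm (sdiff_eq_empty_iff_subset.1 h)]
      simp
    · obtain ⟨h1, h2⟩ := mem_sdiff.1 he
      have k1 := ih _ (erase_ssubset h1)
      have k2 := step _ e (notMem_erase e S) k1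
      rw [insert_erase h1] at k2
      have k3 := k1 T (subset_erase.2 ⟨hT, h2⟩)
      rw [erase_sdiff_comm] at k3
      rw [← card_erase_add_one he, pow_succ, mul_assoc]
      exact k3.trans (Nat.mul_le_mul_left _ k2)
  have := main univ ∅ (empty_subset _)
  rw [hN, hN, filter_true_of_mem fun f _ b k => absurd (subset_empty.1 k) (hne b).ne_empty] at this
  simpa using this

theorem exists_indep {R : ℕ} {X : Type} (a b : ℕ → X) (hab : ∀ t < R, a t ≠ b t)
    (ha : ∀ s < R, ∀ t < R, a s = a t → s = t) (hb : ∀ s < R, ∀ t < R, b s = b t → s = t)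
    {t₀ : ℕ} (h₀ : t₀ < R) : ∃ I : Finset ℕ, t₀ ∈ I ∧ (∀ t ∈ I, t < R) ∧
      (∀ s ∈ I, ∀ t ∈ I, a s ≠ b t) ∧ R ≤ 3 * I.card := by
  obtain ⟨I, hI, hm⟩ := exists_max_image ((range R).powerset.filter fun I =>
    t₀ ∈ I ∧ ∀ s ∈ I, ∀ t ∈ I, a s ≠ b t) card ⟨{t₀}, by simpa [h₀] using hab t₀ h₀⟩
  simp only [mem_filter, mem_powerset] at hI hm
  obtain ⟨h1, h2, h3⟩ := hI
  refine ⟨I, h2, fun t ht => mem_range.1 (h1 ht), h3, ?_⟩
  have k : range R ⊆ I ∪ I.biUnion (fun s => (range R).filter fun t => a s = b t) ∪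
      I.biUnion fun s => (range R).filter fun t => a t = b s := by
    intro t ht
    by_contra k
    simp only [mem_union, mem_biUnion, mem_filter, not_or, not_exists, not_and] at k
    obtain ⟨⟨k1, k2⟩, k3⟩ := k
    have := hm (insert t I) ⟨insert_subset ht h1, mem_insert_of_mem h2, by
      simp only [mem_insert, forall_eq_or_imp]
      exact ⟨⟨hab t (mem_range.1 ht), fun s hs => k3 s hs ht⟩, fun s hs => ⟨k2 s hs ht, h3 s hs⟩⟩⟩
    rw [card_insert_of_notMem k1] at this
    omega
  have k1 := card_biUnion_le_card_mul I (fun s => (range R).filter fun t => a s = b t) 1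
    fun s _ => card_le_one.2 fun x hx y hy => by
      simp only [mem_filter, mem_range] at hx hy
      exact hb x hx.1 y hy.1 (hx.2.symm.trans hy.2)
  have k2 := card_biUnion_le_card_mul I (fun s => (range R).filter fun t => a t = b s) 1
    fun s _ => card_le_one.2 fun x hx y hy => by
      simp only [mem_filter, mem_range] at hx hy
      exact ha x hx.1 y hy.1 (hx.2.trans hy.2.symm)
  have k3 := (card_le_card k).trans ((card_union_le _ _).trans
    (Nat.add_le_add_right (card_union_le _ _) _))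
  rw [card_range] at k3
  omega

end Vale.Agent.P089
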