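import Vale.Agent.P089.Walk

/-! Random families of permutations: few vertices carry short closed walks. -/

namespace Vale.Agent.P089

open Finset

open scoped Classical

variable {n d : ℕ}

/-- There is a closed reduced walk of length below `g` at `v`. -/
def Bad (π : Gr n d) (g : ℕ) (v : Vx n) : Prop :=
  ∃ (cs : ℕ → Fin d) (L : ℕ), 0 < L ∧ L < g ∧ Red cs L ∧ walk π v cs L = v

/-- The set of such vertices. -/
noncomputable def badSet (π : Gr n d) (g : ℕ) : Finset (Vx n) := univ.filter (Bad π g)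

theorem mem_badSet {π : Gr n d} {g : ℕ} {v : Vx n} : v ∈ badSet π g ↔ Bad π g v := by
  simp [badSet]

/-- Redirect the edge of colour `i` at `x` to the vertex named `w`. -/
def randcyc_sw_aux (π : Gr n d) (x : Vx n) (i : Fin d) (w : Fin n) : Gr n d :=
  Function.update π i
    (if x.2 then π i * Equiv.swap ((π i).symm x.1) w else Equiv.swap (π i x.1) w * π i)

theorem randcyc_p1_aux (π : Gr n d) (x : Vx n) (i : Fin d) (w : Fin n) :
    (mv (randcyc_sw_aux π x i w) x i).1 = w := by
  rcases x with ⟨u, _ | _⟩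
  · simp [randcyc_sw_aux]
  · simp [randcyc_sw_aux, Equiv.symm_apply_eq]

theorem randcyc_p3_aux (π : Gr n d) (x : Vx n) (i : Fin d) (w : Fin n) :
    randcyc_sw_aux (randcyc_sw_aux π x i w) x i (mv π x i).1 = π := by
  have h := randcyc_p1_aux π x i w
  rcases x with ⟨u, _ | _⟩
  · simp only [mv_false] at h ⊢
    rw [randcyc_sw_aux, h]
    simp only [randcyc_sw_aux, Function.update_self, Function.update_idem, Bool.false_eq_true,
      if_false]
    rw [← mul_assoc, Equiv.swap_comm w, Equiv.swap_mul_self, one_mul, Function.update_eq_self]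
  · simp only [mv_true] at h ⊢
    rw [randcyc_sw_aux, h]
    simp only [randcyc_sw_aux, Function.update_self, Function.update_idem, if_true]
    rw [mul_assoc, Equiv.swap_comm w, Equiv.swap_mul_self, mul_one, Function.update_eq_self]

theorem randcyc_p0_aux (π : Gr n d) (x : Vx n) (i : Fin d) (w : Fin n) (u : Fin n) (j : Fin d)
    (hk : (u, j) ≠ key π x i) (h1 : w ≠ u) (h2 : w ≠ π j u) :
    randcyc_sw_aux π x i w j u = π j u := by
  by_cases hj : j = i
  · subst hj
    rcases x with ⟨y, _ | _⟩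
    · simp only [randcyc_sw_aux, Function.update_self, Bool.false_eq_true, if_false,
        Equiv.Perm.mul_apply]
      exact Equiv.swap_apply_of_ne_of_ne (fun h => hk (by rw [(π j).injective h]; rfl)) h2.symm
    · simp only [randcyc_sw_aux, Function.update_self, if_true, Equiv.Perm.mul_apply]
      rw [Equiv.swap_apply_of_ne_of_ne (fun h => hk (by rw [h]; rfl)) h1.symm]
  · simp only [randcyc_sw_aux, Function.update_of_ne hj]

theorem randcyc_p2_aux (π : Gr n d) (x : Vx n) (i : Fin d) (w : Fin n) (y : Vx n) (j : Fin d)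
    (hk : key π y j ≠ key π x i) (h1 : w ≠ y.1) (h2 : w ≠ (mv π y j).1) :
    mv (randcyc_sw_aux π x i w) y j = mv π y j := by
  rcases y with ⟨u, _ | _⟩
  · simp only [mv_false]
    rw [randcyc_p0_aux π x i w u j hk h1 h2]
  · simp only [mv_true]
    have := randcyc_p0_aux π x i w ((π j).symm u) j hk h2 (by simpa using h1)
    rw [Equiv.apply_symm_apply] at this
    rw [(Equiv.symm_apply_eq _).2 this.symm]

/-- The walk closes up at step `T` along a fresh edge. -/
noncomputable def randcyc_ev_aux (v : Vx n) (cs : ℕ → Fin d) (T s : ℕ) : Finset (Gr n d) :=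
  univ.filter fun π => walk π v cs (T + 1) = walk π v cs s ∧
    ∀ t < T, key π (walk π v cs t) (cs t) ≠ key π (walk π v cs T) (cs T)

theorem randcyc_walk_aux {π : Gr n d} {v : Vx n} {cs : ℕ → Fin d} {T : ℕ} {w : Fin n}
    (hk : ∀ t < T, key π (walk π v cs t) (cs t) ≠ key π (walk π v cs T) (cs T))
    (hw : ∀ t ≤ T, w ≠ (walk π v cs t).1) :
    ∀ t ≤ T, walk (randcyc_sw_aux π (walk π v cs T) (cs T) w) v cs t = walk π v cs t
  | 0, _ => rfl
  | t + 1, ht => by
    show mv _ _ _ = mv _ _ _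
    rw [randcyc_walk_aux hk hw t (by omega)]
    exact randcyc_p2_aux π _ _ w _ _ (hk t ht) (hw t (by omega)) (hw (t + 1) ht)

theorem randcyc_ev_card_aux (v : Vx n) (cs : ℕ → Fin d) {T s : ℕ} (hs : s ≤ T) :
    (randcyc_ev_aux v cs T s).card * (n - (T + 1)) ≤ Fintype.card (Gr n d) := by
  let W : Gr n d → Finset (Fin n) := fun π =>
    univ \ (range (T + 1)).image fun t => (walk π v cs t).1
  have hW : ∀ π, n - (T + 1) ≤ (W π).card := by
    intro π
    have h1 := le_card_sdiff ((range (T + 1)).image fun t => (walk π v cs t).1) univ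
    have h2 := card_image_le (s := range (T + 1)) (f := fun t => (walk π v cs t).1)
    rw [card_range] at h2
    rw [card_univ, Fintype.card_fin] at h1
    exact le_trans (by omega) h1
  have hW' : ∀ π w, w ∈ W π → ∀ t ≤ T, w ≠ (walk π v cs t).1 := fun π w hw t ht h =>
    (mem_sdiff.1 hw).2 (mem_image.2 ⟨t, mem_range.2 (by omega), h.symm⟩)
  have key1 := card_le_card_of_injOn
    (fun p : (Σ _ : Gr n d, Fin n) => randcyc_sw_aux p.1 (walk p.1 v cs T) (cs T) p.2)
    (s := (randcyc_ev_aux v cs T s).sigma W) (t := univ) (fun _ _ => mem_coe.2 (mem_univ _)) ?_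
  · rw [card_sigma, card_univ] at key1
    refine le_trans ?_ key1
    rw [← smul_eq_mul]
    exact card_nsmul_le_sum _ _ _ fun π _ => hW π
  · rintro ⟨π, w⟩ hp ⟨π', w'⟩ hp' h
    obtain ⟨a1, a2⟩ := mem_sigma.1 (mem_coe.1 hp)
    obtain ⟨b1, b2⟩ := mem_sigma.1 (mem_coe.1 hp')
    obtain ⟨a3, a4⟩ := (mem_filter.1 a1).2
    obtain ⟨b3, b4⟩ := (mem_filter.1 b1).2
    have a5 := randcyc_walk_aux a4 (hW' π w a2)
    have b5 := randcyc_walk_aux b4 (hW' π' w' b2)
    simp only [] at h a3 a5 b3 b5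
    have e : ∀ t ≤ T, walk π v cs t = walk π' v cs t := fun t ht => by
      rw [← a5 t ht, ← b5 t ht, h]
    have e1 : w = w' := by
      rw [← randcyc_p1_aux π (walk π v cs T) (cs T) w, h, e T le_rfl, randcyc_p1_aux]
    have e2 : π = π' := by
      have c1 : mv π (walk π v cs T) (cs T) = walk π v cs s := a3
      have c2 : mv π' (walk π' v cs T) (cs T) = walk π' v cs s := b3
      rw [← randcyc_p3_aux π (walk π v cs T) (cs T) w, h, c1, e s hs, ← c2, e T le_rfl,
        randcyc_p3_aux]
    subst e1 e2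
    rfl

theorem randcyc_first_aux {π : Gr n d} {v : Vx n} {cs : ℕ → Fin d} {L : ℕ} (h0 : 0 < L)
    (hr : Red cs L) (hw : walk π v cs L = v) :
    ∃ T s, T < L ∧ s ≤ T ∧ π ∈ randcyc_ev_aux v cs T s := by
  have hex : ∃ T, ∃ s ≤ T, walk π v cs (T + 1) = walk π v cs s :=
    ⟨L - 1, 0, Nat.zero_le _, by rw [Nat.sub_add_cancel h0]; exact hw⟩
  have hle : Nat.find hex ≤ L - 1 :=
    Nat.find_min' hex ⟨0, Nat.zero_le _, by rw [Nat.sub_add_cancel h0]; exact hw⟩
  obtain ⟨s, hs, h1⟩ := Nat.find_spec hex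
  have hmin : ∀ a b, a < b → b ≤ Nat.find hex → walk π v cs b ≠ walk π v cs a := by
    intro a b hab hb h
    obtain ⟨k, rfl⟩ : ∃ k, b = k + 1 := ⟨b - 1, by omega⟩
    exact Nat.find_min hex (show k < Nat.find hex by omega) ⟨a, by omega, h⟩
  refine ⟨Nat.find hex, s, by omega, hs, mem_filter.2 ⟨mem_univ _, h1, fun t ht h => ?_⟩⟩
  obtain ⟨h2, h3 | h3⟩ := key_eq π h.symm
  · exact hmin t _ ht le_rfl h3
  · rcases Nat.lt_or_eq_of_le (Nat.succ_le_of_lt ht) with h4 | h4
    · exact hmin (t + 1) _ h4 le_rfl h3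
    · exact hr t (by omega) (by rw [← h2, ← h4])

theorem card_bad {g : ℕ} (hg : 2 * g ≤ n) (v : Vx n) :
    (univ.filter fun π : Gr n d => Bad π g v).card * n ≤
      g ^ 2 * (2 * d) ^ g * Fintype.card (Gr n d) := by
  rcases Nat.eq_zero_or_pos g with rfl | h0
  · rw [filter_false_of_mem, card_empty, zero_mul]
    · exact Nat.zero_le _
    · rintro π _ ⟨cs, L, _, h, _⟩
      exact absurd h (Nat.not_lt_zero _)
  let ext : (Fin g → Fin d) → ℕ → Fin d := fun c t => c ⟨t % g, Nat.mod_lt _ h0⟩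
  have hsub : (univ.filter fun π : Gr n d => Bad π g v) ⊆
      ((univ : Finset (Fin g → Fin d)) ×ˢ (range g ×ˢ range g)).biUnion fun p =>
        if p.2.2 ≤ p.2.1 then randcyc_ev_aux v (ext p.1) p.2.1 p.2.2 else ∅ := by
    intro π hπ
    obtain ⟨cs, L, h1, h2, h3, h4⟩ := (mem_filter.1 hπ).2
    have e : ∀ t < L, ext (fun j => cs j) t = cs t := fun t ht => by
      simp only [ext, Nat.mod_eq_of_lt (ht.trans h2)]
    obtain ⟨T, s, h5, h6, h7⟩ := randcyc_first_aux (π := π) (v := v) (cs := ext fun j => cs j) h1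
      (fun t ht => by rw [e t (by omega), e (t + 1) ht]; exact h3 t ht)
      (by rw [walk_congr π v L e]; exact h4)
    refine mem_biUnion.2 ⟨(fun j => cs j, T, s), ?_, by simp only [if_pos h6]; exact h7⟩
    simp only [mem_product, mem_univ, mem_range, true_and]
    omega
  have h2 : ∀ p ∈ (univ : Finset (Fin g → Fin d)) ×ˢ (range g ×ˢ range g),
      (if p.2.2 ≤ p.2.1 then randcyc_ev_aux v (ext p.1) p.2.1 p.2.2 else ∅).card * n ≤
        2 * Fintype.card (Gr n d) := by
    intro p hp
    have h3 := mem_range.1 (mem_product.1 (mem_product.1 hp).2).1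
    split_ifs with h
    · refine le_trans ?_ (Nat.mul_le_mul_left 2 (randcyc_ev_card_aux v (ext p.1) h))
      rw [mul_left_comm]
      exact Nat.mul_le_mul_left _ (by omega)
    · simp
  refine (Nat.mul_le_mul_right n ((card_le_card hsub).trans card_biUnion_le)).trans ?_
  rw [sum_mul]
  refine (sum_le_card_nsmul _ _ _ h2).trans ?_
  rw [card_product, card_product, card_range, card_univ, Fintype.card_fun, Fintype.card_fin,
    Fintype.card_fin, smul_eq_mul, ← mul_assoc, mul_pow]
  apply Nat.mul_le_mul_right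
  have h4 : 2 ≤ 2 ^ g := Nat.le_self_pow h0.ne' 2
  calc d ^ g * (g * g) * 2 ≤ d ^ g * (g * g) * 2 ^ g := Nat.mul_le_mul_left _ h4
    _ = _ := by ring

theorem card_many_bad {g : ℕ} (hg : 2 * g ≤ n) :
    2 * (univ.filter fun π : Gr n d => 4 * g ^ 2 * (2 * d) ^ g < (badSet π g).card).card ≤
      Fintype.card (Gr n d) := by
  rcases Nat.eq_zero_or_pos n with rfl | h0
  · rw [filter_false_of_mem, card_empty, mul_zero]
    · exact Nat.zero_le _
    · intro π _
      rw [eq_empty_of_isEmpty (badSet π g), card_empty]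
      exact Nat.not_lt_zero _
  set K := g ^ 2 * (2 * d) ^ g with hK
  have e : 4 * g ^ 2 * (2 * d) ^ g = 4 * K := by rw [hK]; ring
  rw [e]
  have h1 : ∑ π : Gr n d, (badSet π g).card =
      ∑ v : Vx n, (univ.filter fun π : Gr n d => Bad π g v).card := by
    simp only [badSet, card_filter]
    exact sum_comm
  have h2 : (∑ π : Gr n d, (badSet π g).card) * n ≤ 2 * n * (K * Fintype.card (Gr n d)) := by
    rw [h1, sum_mul]
    refine (sum_le_card_nsmul _ _ _ fun v _ => card_bad hg v).trans ?_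
    rw [card_univ, Fintype.card_prod, Fintype.card_fin, Fintype.card_bool, smul_eq_mul, mul_comm n 2]
  have h3 : (univ.filter fun π : Gr n d => 4 * K < (badSet π g).card).card * (4 * K + 1) ≤
      ∑ π : Gr n d, (badSet π g).card := by
    rw [← smul_eq_mul]
    exact (card_nsmul_le_sum _ _ _ fun π hπ => (mem_filter.1 hπ).2).trans
      (sum_le_sum_of_subset (filter_subset _ _))
  have h4 : ∑ π : Gr n d, (badSet π g).card ≤ 2 * (K * Fintype.card (Gr n d)) := by
    refine Nat.le_of_mul_le_mul_right (h2.trans (le_of_eq ?_)) h0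
    ring
  refine Nat.le_of_mul_le_mul_right ?_ (show 0 < 4 * K + 1 by omega)
  nlinarith

end Vale.Agent.P089
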