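import Vale.Agent.P089.RandCyc

/-! Distances, cyclically reduced walks and the effect of one swap of edges. -/

namespace Vale.Agent.P089

open Finset

open scoped Classical

variable {n d : ℕ}

/-- `y` is reached from `x` in at most `ρ` moves. -/
inductive SwNear (π : Gr n d) : ℕ → Vx n → Vx n → Prop
  | refl (ρ : ℕ) (x : Vx n) : SwNear π ρ x x
  | step {ρ : ℕ} {x y : Vx n} (i : Fin d) : SwNear π ρ x y → SwNear π (ρ + 1) x (mv π y i)

variable {π : Gr n d}

theorem SwNear.succ {ρ : ℕ} {x y : Vx n} (h : SwNear π ρ x y) : SwNear π (ρ + 1) x y := by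
  induction h with
  | refl => exact .refl _ _
  | step i _ ih => exact .step i ih

theorem SwNear.mono {ρ σ : ℕ} {x y : Vx n} (h : SwNear π ρ x y) (hσ : ρ ≤ σ) : SwNear π σ x y := by
  induction hσ with
  | refl => exact h
  | step _ ih => exact ih.succ

theorem SwNear.trans {ρ σ : ℕ} {x y z : Vx n} (h : SwNear π ρ x y) (h' : SwNear π σ y z) :
    SwNear π (ρ + σ) x z := by
  induction h' with
  | refl => exact h.mono (Nat.le_add_right _ _)
  | step i _ ih => exact .step i (ih h)

theorem swNear_one (x : Vx n) (i : Fin d) : SwNear π 1 x (mv π x i) := .step i (.refl 0 x)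

theorem SwNear.symm {ρ : ℕ} {x y : Vx n} (h : SwNear π ρ x y) : SwNear π ρ y x := by
  induction h with
  | refl => exact .refl _ _
  | @step ρ x y i _ ih =>
    have := swNear_one (π := π) (mv π y i) i
    rw [mv_mv] at this
    exact (this.trans ih).mono (by omega)

theorem swNear_walk (v : Vx n) (cs : ℕ → Fin d) : ∀ t, SwNear π t v (walk π v cs t)
  | 0 => .refl 0 v
  | t + 1 => .step _ (swNear_walk v cs t)

theorem swNear_key (v : Vx n) (i : Fin d) : SwNear π 1 v ((key π v i).1, false) := by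
  rcases v with ⟨u, _ | _⟩
  · exact .refl _ _
  · exact swNear_one _ i

theorem swNear_card (x : Vx n) : ∀ ρ, (univ.filter fun y => SwNear π ρ x y).card ≤ (d + 1) ^ ρ
  | 0 => by
    rw [pow_zero, card_le_one]
    intro a ha b hb
    have h1 := (mem_filter.1 ha).2
    have h2 := (mem_filter.1 hb).2
    cases h1; cases h2; rfl
  | ρ + 1 => by
    have hsub : (univ.filter fun y => SwNear π (ρ + 1) x y) ⊆ insert x
        (((univ.filter fun y => SwNear π ρ x y) ×ˢ (univ : Finset (Fin d))).image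
          fun p => mv π p.1 p.2) := by
      intro y hy
      have h1 := (mem_filter.1 hy).2
      cases h1 with
      | refl => exact mem_insert_self _ _
      | step i h =>
        exact mem_insert_of_mem (mem_image.2 ⟨(_, i),
          mem_product.2 ⟨mem_filter.2 ⟨mem_univ _, h⟩, mem_univ _⟩, rfl⟩)
    have h2 := (card_le_card hsub).trans ((card_insert_le _ _).trans
      (Nat.add_le_add_right card_image_le 1))
    rw [card_product, card_univ, Fintype.card_fin] at h2
    have h3 := Nat.mul_le_mul_right d (swNear_card x ρ)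
    have h4 : 1 ≤ (d + 1) ^ ρ := Nat.one_le_pow _ _ (by omega)
    rw [pow_succ, mul_add, mul_one]
    omega

/-- A short closed walk whose periodic continuation is reduced. -/
structure SwCyc (π : Gr n d) (g : ℕ) (v : Vx n) (cs : ℕ → Fin d) (L : ℕ) : Prop where
  pos : 0 < L
  lt : L < g
  per : ∀ t, cs (L + t) = cs t
  red : ∀ t, cs t ≠ cs (t + 1)
  cl : walk π v cs L = v

theorem SwCyc.walk_per {g : ℕ} {v : Vx n} {cs : ℕ → Fin d} {L : ℕ} (h : SwCyc π g v cs L) (t : ℕ) :
    walk π v cs (L + t) = walk π v cs t := by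
  rw [walk_add, h.cl]
  exact walk_congr π v t fun s _ => h.per s

theorem SwCyc.shift {g : ℕ} {v : Vx n} {cs : ℕ → Fin d} {L : ℕ} (h : SwCyc π g v cs L) (j : ℕ) :
    SwCyc π g (walk π v cs j) (fun t => cs (j + t)) L :=
  ⟨h.pos, h.lt, fun t => by rw [add_left_comm, h.per], fun t => h.red (j + t), by
    rw [← walk_add, add_comm, h.walk_per]⟩

theorem SwCyc.bad {g : ℕ} {v : Vx n} {cs : ℕ → Fin d} {L : ℕ} (h : SwCyc π g v cs L) : Bad π g v :=
  ⟨cs, L, h.pos, h.lt, fun t _ => h.red t, h.cl⟩

theorem swap_reduce_aux {g : ℕ} (L : ℕ) : ∀ (v : Vx n) (cs : ℕ → Fin d), 0 < L → L < g → Red cs L →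
    walk π v cs L = v → ∃ c cs' L', SwNear π L v c ∧ SwCyc π g c cs' L' := by
  induction L using Nat.strong_induction_on with
  | _ L ih =>
    intro v cs h0 hg hr hw
    obtain ⟨K, rfl⟩ : ∃ K, L = K + 1 := ⟨L - 1, by omega⟩
    have hK : K ≠ 0 := by
      rintro rfl
      have := congrArg Prod.snd hw
      simp [walk] at this
    by_cases hc : cs K = cs 0
    · have h1 : walk π v cs K = walk π v cs 1 := by
        have : mv π (walk π v cs K) (cs K) = v := hw
        show _ = mv π v (cs 0)
        rw [← hc]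
        conv_rhs => rw [← this, mv_mv]
      have hK1 : K ≠ 1 := by
        rintro rfl
        exact hr 0 (by omega) hc.symm
      obtain ⟨J, rfl⟩ : ∃ J, K = 1 + J := ⟨K - 1, by omega⟩
      rw [walk_add] at h1
      obtain ⟨c, cs', L', a1, a2⟩ := ih J (by omega) _ _ (by omega) (by omega)
        (fun t ht => hr (1 + t) (by omega)) h1
      exact ⟨c, cs', L', ((swNear_walk v cs 1).trans a1).mono (by omega), a2⟩
    · refine ⟨v, fun t => cs (t % (K + 1)), K + 1, .refl _ _, h0, hg, fun t => ?_, fun t => ?_, ?_⟩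
      · rw [Nat.add_mod_left]
      · have h2 := Nat.mod_lt t h0
        rw [← Nat.mod_add_mod]
        generalize t % (K + 1) = r at h2
        rcases Nat.lt_or_eq_of_le (Nat.succ_le_of_lt h2) with h3 | h3
        · rw [Nat.mod_eq_of_lt h3]; exact hr r h3
        · obtain rfl : r = K := by omega
          rw [Nat.mod_self]; exact hc
      · rw [walk_congr π v (cs' := cs) (K + 1) fun s hs => by rw [Nat.mod_eq_of_lt hs]]
        exact hw

/-- Edges on short cyclically reduced closed walks. -/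
noncomputable def swCore (π : Gr n d) (g : ℕ) : Finset (Fin n × Fin d) :=
  univ.filter fun e => ∃ v cs L, SwCyc π g v cs L ∧ key π v (cs 0) = e

theorem swap_bad_near_aux {g : ℕ} {v : Vx n} (h : Bad π g v) :
    ∃ e ∈ swCore π g, SwNear π g v (e.1, false) := by
  obtain ⟨cs, L, h0, hg, hr, hw⟩ := h
  obtain ⟨c, cs', L', a1, a2⟩ := swap_reduce_aux L v cs h0 hg hr hw
  exact ⟨_, mem_filter.2 ⟨mem_univ _, c, cs', L', a2, rfl⟩,
    (a1.trans (swNear_key c (cs' 0))).mono hg⟩

theorem swCore_card (π : Gr n d) (g : ℕ) : (swCore π g).card ≤ (badSet π g).card * d := by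
  have hsub : swCore π g ⊆ (badSet π g ×ˢ (univ : Finset (Fin d))).image fun p => (p.1.1, p.2) := by
    intro e he
    obtain ⟨v, cs, L, h, rfl⟩ := (mem_filter.1 he).2
    refine mem_image.2 ⟨(((key π v (cs 0)).1, false), cs 0), mem_product.2 ⟨?_, mem_univ _⟩, rfl⟩
    rw [mem_badSet]
    rcases v with ⟨u, _ | _⟩
    · exact h.bad
    · exact (h.shift 1).bad
  refine (card_le_card hsub).trans (card_image_le.trans ?_)
  rw [card_product, card_univ, Fintype.card_fin]

/-- Exchange the targets of the sources `u` and `a` in colour `i`. -/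
def swSwap (π : Gr n d) (i : Fin d) (u a : Fin n) : Gr n d :=
  Function.update π i (π i * Equiv.swap u a)

theorem swSwap_old {i j : Fin d} {u a s : Fin n} (h1 : (s, j) ≠ (u, i)) (h2 : (s, j) ≠ (a, i)) :
    swSwap π i u a j s = π j s := by
  by_cases hj : j = i
  · subst hj
    simp only [swSwap, Function.update_self, Equiv.Perm.mul_apply]
    rw [Equiv.swap_apply_of_ne_of_ne (fun h => h1 (by rw [h])) fun h => h2 (by rw [h])]
  · simp only [swSwap, Function.update_of_ne hj]

theorem swSwap_mv {i j : Fin d} {u a : Fin n} {y : Vx n} (h1 : key (swSwap π i u a) y j ≠ (u, i))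
    (h2 : key (swSwap π i u a) y j ≠ (a, i)) :
    mv (swSwap π i u a) y j = mv π y j ∧ key (swSwap π i u a) y j = key π y j := by
  rcases y with ⟨s, _ | _⟩
  · rw [key_false] at h1 h2
    exact ⟨by rw [mv_false, mv_false, swSwap_old h1 h2], rfl⟩
  · rw [key_true] at h1 h2
    have := swSwap_old (π := π) h1 h2
    rw [Equiv.apply_symm_apply] at this
    have e : (π j).symm s = (swSwap π i u a j).symm s := (Equiv.symm_apply_eq _).2 this
    exact ⟨by rw [mv_true, mv_true, e], by rw [key_true, key_true, e]⟩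

/-- The two ends of the edge of colour `i` at the source `a`. -/
def SwEnd (π : Gr n d) (i : Fin d) (a : Fin n) (y : Vx n) : Prop := y = (a, false) ∨ y = (π i a, true)

theorem SwEnd.near {i : Fin d} {a : Fin n} {y : Vx n} (h : SwEnd π i a y) :
    SwNear π 1 (a, false) y := by
  rcases h with rfl | rfl
  · exact .refl _ _
  · exact swNear_one (a, false) i

theorem SwEnd.cases {i : Fin d} {a : Fin n} {x y : Vx n} (h : SwEnd π i a x) (h' : SwEnd π i a y) :
    x = y ∨ mv π x i = y := by
  rcases h with rfl | rfl <;> rcases h' with rfl | rfl <;> simp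

theorem swSwap_new {i j : Fin d} {u a : Fin n} {y : Vx n}
    (h : key (swSwap π i u a) y j = (u, i) ∨ key (swSwap π i u a) y j = (a, i)) :
    j = i ∧ ((SwEnd π i a y ∧ SwEnd π i u (mv (swSwap π i u a) y j)) ∨
      (SwEnd π i u y ∧ SwEnd π i a (mv (swSwap π i u a) y j))) := by
  have hj : j = i := by rcases h with h | h <;> exact congrArg Prod.snd h
  subst hj
  have e1 : swSwap π j u a j u = π j a := by simp [swSwap]
  have e2 : swSwap π j u a j a = π j u := by simp [swSwap]
  refine ⟨rfl, ?_⟩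
  rcases y with ⟨s, _ | _⟩
  · rcases h with h | h
    · obtain rfl : s = u := congrArg Prod.fst h
      exact Or.inr ⟨Or.inl rfl, Or.inr (by rw [mv_false, e1])⟩
    · obtain rfl : s = a := congrArg Prod.fst h
      exact Or.inl ⟨Or.inl rfl, Or.inr (by rw [mv_false, e2])⟩
  · rcases h with h | h
    · have h1 : (swSwap π j u a j).symm s = u := congrArg Prod.fst h
      refine Or.inl ⟨Or.inr ?_, Or.inl (by rw [mv_true, h1])⟩
      rw [← e1, ← (Equiv.symm_apply_eq _).1 h1]
    · have h1 : (swSwap π j u a j).symm s = a := congrArg Prod.fst h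
      refine Or.inr ⟨Or.inr ?_, Or.inl (by rw [mv_true, h1])⟩
      rw [← e2, ← (Equiv.symm_apply_eq _).1 h1]

theorem swSwap_walk {i : Fin d} {u a : Fin n} (y : Vx n) (cs : ℕ → Fin d) : ∀ t,
    (∀ s < t, ¬ (key (swSwap π i u a) (walk (swSwap π i u a) y cs s) (cs s) = (u, i) ∨
      key (swSwap π i u a) (walk (swSwap π i u a) y cs s) (cs s) = (a, i))) →
    walk (swSwap π i u a) y cs t = walk π y cs t
  | 0, _ => rfl
  | t + 1, h => by
    have h1 := not_or.1 (h t (Nat.lt_succ_self t))
    show mv _ _ _ = mv _ _ _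
    rw [(swSwap_mv h1.1 h1.2).1, swSwap_walk y cs t fun s hs => h s (by omega)]

/-- After a swap with a far edge no short cycle passes through a new edge. -/
theorem swSwap_no_new {g : ℕ} {i : Fin d} {u a : Fin n} (hu : (u, i) ∈ swCore π g)
    (ha : ∀ e ∈ swCore π g, ¬ SwNear π (g + 2) (a, false) (e.1, false)) {v : Vx n}
    {cs : ℕ → Fin d} {L : ℕ} (h : SwCyc (swSwap π i u a) g v cs L) (t : ℕ) :
    ¬ (key (swSwap π i u a) (walk (swSwap π i u a) v cs t) (cs t) = (u, i) ∨
      key (swSwap π i u a) (walk (swSwap π i u a) v cs t) (cs t) = (a, i)) := by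
  set π' := swSwap π i u a with hπ'
  let P : ℕ → Prop := fun t => key π' (walk π' v cs t) (cs t) = (u, i) ∨
    key π' (walk π' v cs t) (cs t) = (a, i)
  have hfar : ∀ x y ℓ, ℓ ≤ g → SwEnd π i a x → SwEnd π i u y → ¬ SwNear π ℓ x y :=
    fun x y ℓ hℓ hx hy hn => ha _ hu (((hx.near.trans hn).trans hy.near.symm).mono (by omega))
  have hgood : ∀ x, SwEnd π i a x → ¬ Bad π g x := fun x hx hb => by
    obtain ⟨e, he, hn⟩ := swap_bad_near_aux hb
    exact ha e he ((hx.near.trans hn).mono (by omega))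
  have key1 : ∀ t, P t → SwEnd π i u (walk π' v cs (t + 1)) ∧
      ∃ t', P t' ∧ SwEnd π i u (walk π' v cs t') := by
    intro t ht
    have hL : P (t + 1 + (L - 1)) := by
      have e : t + 1 + (L - 1) = L + t := by have := h.pos; omega
      simp only [P, e, h.walk_per, h.per]
      exact ht
    have hex : ∃ ℓ, P (t + 1 + ℓ) := ⟨_, hL⟩
    have hℓ : Nat.find hex ≤ L - 1 := Nat.find_min' hex hL
    have hP := Nat.find_spec hex
    have hmin := fun s (hs : s < Nat.find hex) => Nat.find_min hex hs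
    generalize Nat.find hex = ℓ at hℓ hP hmin
    have hw : walk π' v cs (t + 1 + ℓ) = walk π (walk π' v cs (t + 1)) (fun s => cs (t + 1 + s)) ℓ := by
      rw [walk_add]
      refine swSwap_walk _ _ ℓ fun s hs => ?_
      rw [← walk_add]
      exact hmin s hs
    have hn : SwNear π ℓ (walk π' v cs (t + 1)) (walk π' v cs (t + 1 + ℓ)) := by
      rw [hw]; exact swNear_walk _ _ _
    have hℓg : ℓ + 1 < g := by have := h.pos; have := h.lt; omega
    obtain ⟨c1, d1⟩ := swSwap_new ht
    obtain ⟨c2, d2⟩ := swSwap_new hP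
    have hy : SwEnd π i a (walk π' v cs (t + 1)) ∨ SwEnd π i u (walk π' v cs (t + 1)) :=
      d1.symm.imp And.right And.right
    have hx : SwEnd π i a (walk π' v cs (t + 1 + ℓ)) ∨ SwEnd π i u (walk π' v cs (t + 1 + ℓ)) :=
      d2.imp And.left And.left
    rcases hy with hy | hy <;> rcases hx with hx | hx
    · exfalso
      rcases hx.cases hy with h3 | h3
      · have h0 : ℓ ≠ 0 := by
          rintro rfl
          exact h.red t (c1.trans c2.symm)
        exact hgood _ hy ⟨_, ℓ, by omega, by omega, fun s _ => h.red (t + 1 + s), hw.symm.trans h3⟩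
      · refine hgood _ hy ⟨fun s => cs (t + 1 + s), ℓ + 1, by omega, hℓg,
          fun s _ => h.red (t + 1 + s), ?_⟩
        show mv π _ (cs (t + 1 + ℓ)) = _
        rw [← hw, c2, h3]
    · exact absurd hn (hfar _ _ _ (by omega) hy hx)
    · exact absurd hn.symm (hfar _ _ _ (by omega) hx hy)
    · exact ⟨hy, _, hP, hx⟩
  intro ht
  obtain ⟨_, t', h1, h2⟩ := key1 t ht
  have h3 := (key1 t' h1).1
  rcases (swSwap_new h1).2 with h4 | h4
  · exact hfar _ _ 0 (Nat.zero_le _) h4.1 h2 (.refl _ _)
  · exact hfar _ _ 0 (Nat.zero_le _) h4.2 h3 (.refl _ _)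

theorem swCore_swap {g : ℕ} {i : Fin d} {u a : Fin n} (hu : (u, i) ∈ swCore π g)
    (ha : ∀ e ∈ swCore π g, ¬ SwNear π (g + 2) (a, false) (e.1, false)) :
    swCore (swSwap π i u a) g ⊆ (swCore π g).erase (u, i) := by
  intro e he
  obtain ⟨v, cs, L, h, rfl⟩ := (mem_filter.1 he).2
  have h1 := swSwap_no_new hu ha h
  have h2 := not_or.1 (h1 0)
  refine mem_erase.2 ⟨h2.1, mem_filter.2 ⟨mem_univ _, v, cs, L,
    ⟨h.pos, h.lt, h.per, h.red, ?_⟩, (swSwap_mv h2.1 h2.2).2.symm⟩⟩
  rw [← swSwap_walk v cs L fun s _ => h1 s]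
  exact h.cl

theorem swSwap_ec (π : Gr n d) (i : Fin d) (u a : Fin n) (A B : Finset (Fin n)) :
    ec (swSwap π i u a) A B ≤ ec π A B + (A ∩ {a}).card + (B ∩ {π i a}).card := by
  have hsub : (univ.filter fun e : Fin n × Fin d => e.1 ∈ A ∧ swSwap π i u a e.2 e.1 ∈ B) ⊆
      (univ.filter fun e : Fin n × Fin d => e.1 ∈ A ∧ π e.2 e.1 ∈ B) ∪
        (A ∩ {a}).image (fun s => (s, i)) ∪ (B ∩ {π i a}).image fun _ => (u, i) := by
    rintro ⟨s, j⟩ he
    obtain ⟨h1, h2⟩ := (mem_filter.1 he).2
    by_cases e2 : (s, j) = (a, i)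
    · obtain ⟨rfl, rfl⟩ := Prod.mk.inj e2
      exact mem_union_left _ (mem_union_right _
        (mem_image.2 ⟨s, mem_inter.2 ⟨h1, mem_singleton_self _⟩, rfl⟩))
    by_cases e1 : (s, j) = (u, i)
    · obtain ⟨rfl, rfl⟩ := Prod.mk.inj e1
      refine mem_union_right _ (mem_image.2 ⟨π j a, mem_inter.2 ⟨?_, mem_singleton_self _⟩, rfl⟩)
      simpa [swSwap] using h2
    · rw [swSwap_old e1 e2] at h2
      exact mem_union_left _ (mem_union_left _ (mem_filter.2 ⟨mem_univ _, h1, h2⟩))
  exact (card_le_card hsub).trans ((card_union_le _ _).trans (Nat.add_le_add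
    ((card_union_le _ _).trans (Nat.add_le_add_left card_image_le _)) card_image_le))

end Vale.Agent.P089
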