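import Vale.Agent.P089.RandExp
import Vale.Agent.P089.RandCyc
import Vale.Agent.P089.SwapAux

/-! Removing the short closed walks by swapping edges, and the resulting expanders of large
girth. -/

namespace Vale.Agent.P089

open Finset

variable {n d : ℕ}

theorem swap_card_aux (A F : Finset (Fin n)) {a : Fin n} (ha : a ∉ F) :
    (A ∩ {a}).card + (A \ insert a F).card ≤ (A \ F).card := by
  rw [← card_union_of_disjoint]
  · refine card_le_card fun x hx => ?_
    rcases mem_union.1 hx with h | h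
    · obtain ⟨h1, h2⟩ := mem_inter.1 h
      rw [mem_singleton] at h2
      exact mem_sdiff.2 ⟨h1, h2 ▸ ha⟩
    · obtain ⟨h1, h2⟩ := mem_sdiff.1 h
      exact mem_sdiff.2 ⟨h1, fun h3 => h2 (mem_insert_of_mem h3)⟩
  · refine disjoint_left.2 fun x hx hx' => (mem_sdiff.1 hx').2 ?_
    rw [mem_singleton.1 (mem_inter.1 hx).2]
    exact mem_insert_self _ _

open scoped Classical in
theorem swap_ind_aux (g : ℕ) : ∀ (k : ℕ) (π : Gr n d) (FS FT : Finset (Fin n)),
    (swCore π g).card ≤ k → k * ((d + 1) ^ (g + 2) + 2) + FS.card + FT.card < n →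
    ∃ π' : Gr n d, Girth π' g ∧ ∀ A B, ec π' A B ≤ ec π A B + (A \ FS).card + (B \ FT).card := by
  intro k
  induction k with
  | zero =>
    intro π FS FT hk _
    refine ⟨π, fun v cs L h0 hg hr hw => ?_, fun A B => by omega⟩
    obtain ⟨e, he, _⟩ := swap_bad_near_aux (π := π) (g := g) (v := v) ⟨cs, L, h0, hg, hr, hw⟩
    have := card_pos.2 ⟨e, he⟩
    omega
  | succ k ih =>
    intro π FS FT hk hn
    rcases (swCore π g).eq_empty_or_nonempty with h0 | ⟨⟨u, i⟩, hu⟩
    · refine ih π FS FT (by rw [h0]; exact Nat.zero_le _) (lt_of_le_of_lt ?_ hn)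
      gcongr
      omega
    have hlt : (((swCore π g).biUnion fun e => (univ.filter fun y =>
        SwNear π (g + 2) (e.1, false) y).image Prod.fst) ∪ FS ∪ FT.image (π i).symm).card <
        (univ : Finset (Fin n)).card := by
      have h1 := card_biUnion_le_card_mul (swCore π g) (fun e => (univ.filter fun y =>
        SwNear π (g + 2) (e.1, false) y).image Prod.fst) _
        fun e _ => card_image_le.trans (swNear_card (π := π) (e.1, false) (g + 2))
      have h2 := Nat.mul_le_mul_right ((d + 1) ^ (g + 2)) hk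
      rw [card_univ, Fintype.card_fin]
      refine lt_of_le_of_lt ((card_union_le _ _).trans (Nat.add_le_add ((card_union_le _ _).trans
        (Nat.add_le_add_right (h1.trans h2) _)) card_image_le)) (lt_of_le_of_lt ?_ hn)
      gcongr
      omega
    obtain ⟨a, _, ha⟩ := exists_mem_notMem_of_card_lt_card hlt
    rw [mem_union, mem_union, not_or, not_or] at ha
    obtain ⟨⟨a1, a2⟩, a3⟩ := ha
    have a4 : π i a ∉ FT := fun h => a3 (mem_image.2 ⟨_, h, Equiv.symm_apply_apply _ _⟩)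
    have a5 : ∀ e ∈ swCore π g, ¬ SwNear π (g + 2) (a, false) (e.1, false) := fun e he h =>
      a1 (mem_biUnion.2 ⟨e, he, mem_image.2 ⟨(a, false), mem_filter.2 ⟨mem_univ _, h.symm⟩, rfl⟩⟩)
    have h3 := card_le_card (swCore_swap hu a5)
    rw [card_erase_of_mem hu] at h3
    obtain ⟨π', h4, h5⟩ := ih (swSwap π i u a) (insert a FS) (insert (π i a) FT) (by omega) (by
      rw [card_insert_of_notMem a2, card_insert_of_notMem a4]
      rw [add_mul] at hn
      omega)
    refine ⟨π', h4, fun A B => ?_⟩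
    have h6 := h5 A B
    have h7 := swSwap_ec π i u a A B
    have h8 := swap_card_aux A FS a2
    have h9 := swap_card_aux B FT a4
    omega

theorem exists_swap (π : Gr n d) (g : ℕ) (h : (badSet π g).card * (d + 1) ^ (g + 3) < n) :
    ∃ π' : Gr n d, Girth π' g ∧ ∀ A B, ec π' A B ≤ ec π A B + A.card + B.card := by
  have h1 : d * ((d + 1) ^ (g + 2) + 2) ≤ (d + 1) ^ (g + 3) := by
    have h2 : (d + 1) ^ 2 ≤ (d + 1) ^ (g + 2) := Nat.pow_le_pow_right (by omega) (by omega)
    rw [pow_succ _ (g + 2)]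
    nlinarith
  have := swap_ind_aux g _ π ∅ ∅ (swCore_card π g) (by
    rw [card_empty, add_zero, add_zero, mul_assoc]
    exact lt_of_le_of_lt (Nat.mul_le_mul_left _ h1) h)
  simpa using this

theorem swap_num_aux {g d : ℕ} (hg : 3 ≤ g) (hd : 8 ≤ d) :
    4 * g ^ 2 * (2 * d) ^ g * (d + 1) ^ (g + 3) < (2 * d) ^ (4 * g) := by
  obtain ⟨k, rfl⟩ := Nat.exists_eq_add_of_le hg
  have h1 : (d + 1) ^ (3 + k + 3) ≤ (2 * d) ^ (3 + k + 3) := Nat.pow_le_pow_left (by omega) _
  have h2 : 2 * (3 + k) < 2 ^ (3 + k + 1) := by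
    have := Nat.lt_two_pow_self (n := 3 + k)
    rw [pow_succ]; omega
  have h3 : 4 * (3 + k) ^ 2 < 16 ^ (3 + 2 * k) := by
    calc 4 * (3 + k) ^ 2 = (2 * (3 + k)) ^ 2 := by ring
      _ < (2 ^ (3 + k + 1)) ^ 2 := Nat.pow_lt_pow_left h2 (by omega)
      _ = 2 ^ ((3 + k + 1) * 2) := (pow_mul _ _ _).symm
      _ ≤ 2 ^ (4 * (3 + 2 * k)) := Nat.pow_le_pow_right (by omega) (by omega)
      _ = 16 ^ (3 + 2 * k) := by rw [pow_mul]; norm_num
  have h4 : 16 ^ (3 + 2 * k) ≤ (2 * d) ^ (3 + 2 * k) := Nat.pow_le_pow_left (by omega) _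
  calc _ ≤ 4 * (3 + k) ^ 2 * (2 * d) ^ (3 + k) * (2 * d) ^ (3 + k + 3) := Nat.mul_le_mul_left _ h1
    _ < (2 * d) ^ (3 + 2 * k) * (2 * d) ^ (3 + k) * (2 * d) ^ (3 + k + 3) := by
      have : 0 < 2 * d := by omega
      gcongr
      exact h3.trans_le h4
    _ = _ := by rw [← pow_add, ← pow_add]; congr 1; omega

open scoped Classical in
theorem exists_graphs : ∃ B c : ℕ, 0 < B ∧ 12 * B ≤ c ∧ ∀ g n : ℕ, 3 ≤ g →
    (24 * c) ^ (4 * g) ≤ n → ∃ π : Gr n (12 * c), Girth π g ∧
      Exp π (12 * c - 7) (3 * B - 1) (3 * B) ∧ Exp π c 1 B := by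
  obtain ⟨B, c, hB, hBc, hc, e1, e2⟩ := exists_num
  refine ⟨B, c, hB, hBc, fun g n hg hn => ?_⟩
  have h1 := card_not_exp (n := n) (d := 12 * c) (12 * c - 9) (3 * B - 1) (3 * B) _
    (by exact_mod_cast (show 0 < 12 * c by omega)) (by omega) (by omega) (by omega) e1
  have h2 := card_not_exp (n := n) (d := 12 * c) (c - 2) 1 B 1 one_pos (by omega) hB hB e2
  have hnum := swap_num_aux hg (show 8 ≤ 12 * c by omega)
  rw [show 2 * (12 * c) = 24 * c by ring] at hnum
  have hg2 : 2 * g ≤ n := by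
    have h3 : 4 * g < 2 ^ (4 * g) := Nat.lt_two_pow_self
    have h4 : 2 ^ (4 * g) ≤ (24 * c) ^ (4 * g) := Nat.pow_le_pow_left (by omega) _
    omega
  have h3 := card_many_bad (d := 12 * c) hg2
  have hpos : 0 < Fintype.card (Gr n (12 * c)) := Fintype.card_pos
  obtain ⟨π, _, hπ⟩ := exists_mem_notMem_of_card_lt_card
    (s := (univ.filter fun π : Gr n (12 * c) => ¬ Exp π (12 * c - 9) (3 * B - 1) (3 * B)) ∪
      (univ.filter fun π : Gr n (12 * c) => ¬ Exp π (c - 2) 1 B) ∪
      univ.filter fun π : Gr n (12 * c) => 4 * g ^ 2 * (2 * (12 * c)) ^ g < (badSet π g).card)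
    (t := univ) (by
      refine lt_of_le_of_lt ((card_union_le _ _).trans
        (Nat.add_le_add_right (card_union_le _ _) _)) ?_
      rw [card_univ]
      omega)
  simp only [mem_union, mem_filter, mem_univ, true_and, not_or, not_not, not_lt] at hπ
  obtain ⟨⟨p1, p2⟩, p3⟩ := hπ
  rw [show 2 * (12 * c) = 24 * c by ring] at p3
  obtain ⟨π', q1, q2⟩ := exists_swap π g
    (lt_of_le_of_lt (Nat.mul_le_mul_right _ p3) (hnum.trans_le hn))
  refine ⟨π', q1, fun A A' m a1 a2 a3 a4 => ?_, fun A A' m a1 a2 a3 a4 => ?_⟩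
  · have := p1 A A' m a1 a2 a3 a4
    have := q2 A A'
    rw [show 12 * c - 7 = 12 * c - 9 + 2 by omega, add_mul]
    omega
  · have := p2 A A' m a1 a2 a3 a4
    have := q2 A A'
    have e : c * m = (c - 2) * m + 2 * m := by rw [← add_mul, Nat.sub_add_cancel (by omega)]
    omega

end Vale.Agent.P089
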