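import Vale.Agent.P089.Code
import Vale.Agent.P089.Rosen
import Vale.Agent.P089.Swap

/-! Existence of the labels and of the tower of levels. -/

namespace Vale.Agent.P089

open Finset

open scoped Classical

theorem label_ros_aux {ι Z β : Type} [Fintype ι] [Fintype Z] [Fintype β] [Nonempty Z]
    (val : β → Prop) (occ : β → (ι → Z) → Prop) (supp : β → Finset ι) (len : β → ℕ) {z : ℝ}
    (hz0 : 0 ≤ z) (hz1 : z ≤ 1) (hz : 2 / (Fintype.card Z : ℝ) ≤ z ^ 3)
    (hdep : ∀ b f f', (∀ e ∈ supp b, f e = f' e) → occ b f → occ b f')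
    (hne : ∀ b, (supp b).Nonempty)
    (hJ : ∀ b, val b → ∀ e ∈ supp b, ∃ J : Finset ι, e ∈ J ∧ len b ≤ 3 * J.card ∧
      ∀ f f', occ b f → occ b f' → (∀ x, x ∉ J → f x = f' x) → f = f')
    (wt : ι → β → ℝ) (hw0 : ∀ e b, 0 ≤ wt e b) (hw1 : ∀ e b, e ∈ supp b → z ^ len b ≤ wt e b)
    (hw : ∀ e, ∑ b, wt e b ≤ 1) (S : Finset (ι → Z))
    (hS : ∀ f, (∀ b, val b → ¬ occ b f) → f ∈ S) :
    Fintype.card Z ^ Fintype.card ι ≤ 2 ^ Fintype.card ι * S.card := by
  choose! J hJ1 hJ2 hJ3 using hJ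
  have h := rosenfeld (β := {b // val b}) (fun b => occ b.1) (fun b => supp b.1) (fun b => J b.1)
    (fun b => hdep b.1) (fun b => hne b.1) (fun b => hJ1 b.1 b.2) (fun b => hJ3 b.1 b.2)
    (fun e => ?_)
  · exact h.trans (Nat.mul_le_mul_left _ (card_le_card fun f hf =>
      hS f fun b hb => (mem_filter.1 hf).2 ⟨b, hb⟩))
  · refine le_trans ?_ (hw e)
    rw [sum_filter]
    calc _ ≤ ∑ b : {b // val b}, wt e b.1 := by
          refine sum_le_sum fun b _ => ?_
          split_ifs with he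
          · refine (pow_le_pow_left₀ (by positivity) hz _).trans ?_
            rw [← pow_mul]
            exact (pow_le_pow_of_le_one hz0 hz1 (hJ2 b.1 b.2 e he)).trans (hw1 e b.1 he)
          · exact hw0 e _
      _ ≤ _ := by
          rw [← sum_subtype (univ.filter val) (by simp) (wt e)]
          exact sum_le_sum_of_subset_of_nonneg (filter_subset _ _) fun b _ _ => hw0 e b

theorem label_det_aux {ι Z : Type} [Fintype ι] [Fintype Z] (S : Finset (ι → Z)) (J : Finset ι)
    (hdet : ∀ f f', f ∈ S → f' ∈ S → (∀ e, e ∉ J → f e = f' e) → f = f') :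
    S.card * Fintype.card Z ^ J.card ≤ Fintype.card Z ^ Fintype.card ι := by
  have h := card_determined (fun f => f ∈ S) (fun _ => True) J hdet (fun _ _ _ _ => trivial)
  simpa using h

theorem label_J_aux {ι Z : Type} {R : ℕ} (a b : ℕ → ι) (hab : ∀ t < R, a t ≠ b t)
    (ha : ∀ s < R, ∀ t < R, a s = a t → s = t) (hb : ∀ s < R, ∀ t < R, b s = b t → s = t)
    {t₀ : ℕ} (h₀ : t₀ < R) : ∃ J : Finset ι, a t₀ ∈ J ∧ R ≤ 3 * J.card ∧ ∀ f f' : ι → Z,
      (∀ t < R, f (a t) = f (b t)) → (∀ t < R, f' (a t) = f' (b t)) →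
      (∀ x, x ∉ J → f x = f' x) → f = f' := by
  obtain ⟨I, h1, h2, h3, h4⟩ := exists_indep a b hab ha hb h₀
  refine ⟨I.image a, mem_image_of_mem a h1, ?_, fun f f' hf hf' h => funext fun x => ?_⟩
  · rwa [card_image_of_injOn fun s hs t ht => ha s (h2 s hs) t (h2 t ht)]
  · by_cases hx : x ∈ I.image a
    · obtain ⟨s, hs, rfl⟩ := mem_image.1 hx
      rw [hf s (h2 s hs), hf' s (h2 s hs)]
      refine h _ fun hb' => ?_
      obtain ⟨t, ht, e⟩ := mem_image.1 hb'
      exact h3 t ht s hs e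
    · exact h x hx

section

variable {n d : ℕ}

/-- The edge number `t` of a walk. -/
def labelEd (π : Gr n d) (v : Vx n) (cs : ℕ → Fin d) (t : ℕ) : Fin n × Fin d :=
  key π (walk π v cs t) (cs t)

/-- The periodic extension of a finite colour sequence. -/
def labelExt {j : ℕ} (c : Fin (j + 1) → Fin d) (t : ℕ) : Fin d := c (Fin.ofNat (j + 1) t)

theorem labelExt_res {j : ℕ} (cs : ℕ → Fin d) {t : ℕ} (ht : t < j + 1) :
    labelExt (fun i : Fin (j + 1) => cs i) t = cs t := by
  simp [labelExt, Nat.mod_eq_of_lt ht]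

theorem labelExt_red {j : ℕ} {cs : ℕ → Fin d} (h : Red cs (j + 1)) :
    Red (labelExt fun i : Fin (j + 1) => cs i) (j + 1) := fun t ht => by
  rw [labelExt_res cs (by omega), labelExt_res cs ht]
  exact h t ht

theorem labelExt_ed (π : Gr n d) (v : Vx n) {j : ℕ} (cs : ℕ → Fin d) {t : ℕ} (ht : t < j + 1) :
    labelEd π v (labelExt fun i : Fin (j + 1) => cs i) t = labelEd π v cs t := by
  unfold labelEd
  rw [labelExt_res cs ht, walk_congr π v t fun s hs => labelExt_res cs (by omega)]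

theorem labelEd_inj {π : Gr n d} {g : ℕ} (h : Girth π g) (v : Vx n) {cs : ℕ → Fin d} {R : ℕ}
    (hc : Red cs R) (hg : R < g) :
    ∀ s < R, ∀ t < R, labelEd π v cs s = labelEd π v cs t → s = t := by
  intro s hs t ht e
  rcases lt_trichotomy s t with h' | h' | h'
  · exact absurd e (h.key_ne v hc hg h' ht)
  · exact h'
  · exact absurd e.symm (h.key_ne v hc hg h' hs)

theorem labelEd_ne (π : Gr n d) {v v' : Vx n} (hne : v ≠ v') (hs : v.2 = v'.2) (cs : ℕ → Fin d)
    (t : ℕ) : labelEd π v cs t ≠ labelEd π v' cs t := by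
  intro e
  obtain ⟨-, h | h⟩ := key_eq π e
  · exact hne (walk_inj π cs t h)
  · have h1 := walk_snd π π hs cs cs t
    rw [h, mv_snd] at h1
    simp at h1

/-- The weight of a walk at an edge. -/
noncomputable def labelW (π : Gr n d) (cs : ℕ → Fin d) (R : ℕ) (e : Fin n × Fin d) (w : ℝ)
    (v : Vx n) : ℝ :=
  if e ∈ (range R).image (labelEd π v cs) then w else 0

theorem label_count_aux (π : Gr n d) (cs : ℕ → Fin d) (R : ℕ) (e : Fin n × Fin d) (w : ℝ)
    (hw : 0 ≤ w) : ∑ v : Vx n, labelW π cs R e w v ≤ 2 * R * w := by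
  unfold labelW
  calc _ ≤ ∑ v : Vx n, ∑ t ∈ range R, (if labelEd π v cs t = e then w else 0) := by
        refine sum_le_sum fun v _ => ?_
        split_ifs with h
        · obtain ⟨t, ht, h'⟩ := mem_image.1 h
          refine le_trans ?_ (single_le_sum (f := fun t => if labelEd π v cs t = e then w else 0)
            (fun _ _ => by positivity) ht)
          simp [h']
        · positivity
    _ ≤ ∑ _t ∈ range R, 2 * w := by
        rw [sum_comm]
        refine sum_le_sum fun t _ => ?_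
        rw [← sum_filter, sum_const, nsmul_eq_mul]
        refine mul_le_mul_of_nonneg_right ?_ hw
        have h := card_le_card_of_injOn (s := univ.filter fun v => labelEd π v cs t = e)
          (t := {(e.1, false), mv π (e.1, false) e.2}) (fun v => walk π v cs t) (fun v hv => by
            have h1 : key π (walk π v cs t) (cs t) = key π (e.1, false) e.2 :=
              (mem_filter.1 hv).2
            simpa using (key_eq π h1).2) (fun v _ w _ h => walk_inj π cs t h)
        exact_mod_cast h.trans card_le_two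
    _ = _ := by simp; ring

theorem label_num_aux (R : ℕ) : 8 * (R : ℝ) * (1 / 32) ^ R ≤ (1 / 2) ^ R := by
  have h : 8 * R ≤ 16 ^ R := by
    induction R with
    | zero => simp
    | succ R ih =>
      have : 1 ≤ 16 ^ R := Nat.one_le_pow _ _ (by norm_num)
      rw [pow_succ]
      omega
  have h' : 8 * (R : ℝ) ≤ 16 ^ R := by exact_mod_cast h
  calc _ ≤ (16 : ℝ) ^ R * (1 / 32) ^ R := by gcongr
    _ = _ := by rw [← mul_pow]; norm_num

theorem label_geom_aux (k : ℕ) :
    (1 / 2 : ℝ) ^ (k + 1) + ∑ j : Fin k, (1 / 2 : ℝ) ^ ((j : ℕ) + 1) ≤ 1 := by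
  have h : ∑ j ∈ range k, (1 / 2 : ℝ) ^ (j + 1) = 1 - (1 / 2) ^ k := by
    induction k with
    | zero => simp
    | succ k ih => rw [sum_range_succ, ih]; ring
  rw [Fin.sum_univ_eq_sum_range (fun j => (1 / 2 : ℝ) ^ (j + 1)), h, pow_succ]
  have : (0 : ℝ) < (1 / 2) ^ k := by positivity
  linarith

end

namespace Par

variable (P : Par)

/-- The edges with nonzero second coordinates at both ends. -/
noncomputable def labelJ {n : ℕ} (π : Gr n P.d) (x : Vx n → (Fin P.d → P.F) × (Fin P.d → P.F)) :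
    Finset (Fin n × Fin P.d) :=
  univ.filter fun e => (x (e.1, false)).2 e.2 ≠ 0 ∧ (x (π e.2 e.1, true)).2 e.2 ≠ 0

theorem label_word_aux {n : ℕ} (π : Gr n P.d) (f : Fin n × Fin P.d → P.Fˣ)
    (h : ¬ P.Dual π fun e => (f e : P.F)) :
    ∃ x : Vx n → (Fin P.d → P.F) × (Fin P.d → P.F), (∀ v, P.Loc (x v)) ∧ (∃ v, x v ≠ 0) ∧
      (∀ v, x v ≠ 0 → 10 * P.c ≤ (univ.filter fun i => key π v i ∈ P.labelJ π x).card) ∧
      ∀ e ∈ P.labelJ π x, (x (π e.2 e.1, true)).2 e.2 = f e * (x (e.1, false)).2 e.2 := by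
  unfold Dual at h
  push Not at h
  obtain ⟨Q, x, h1, h2, h3, v₀, h4, h5⟩ := h
  set x' : Vx n → (Fin P.d → P.F) × (Fin P.d → P.F) := fun v => if v ∈ Q then 0 else x v with hx'
  have e1 : ∀ v, v ∉ Q → x' v = x v := fun v hv => if_neg hv
  have e2 : ∀ v, x' v ≠ 0 → v ∉ Q := fun v hv hQ => hv (if_pos hQ)
  refine ⟨x', fun v => ?_, ⟨v₀, by rwa [e1 v₀ h4]⟩, fun v hv => ?_, fun e he => ?_⟩
  · by_cases hv : v ∈ Q
    · simp [hx', hv, Loc]
    · rw [e1 v hv]; exact h2 v hv
  · have hQ := e2 v hv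
    rw [e1 v hQ] at hv
    have h6 : 10 * P.c < (univ.filter fun i => (x v).2 i ≠ 0).card :=
      not_le.1 fun h' => hv (P.loc_zero (h2 v hQ) h')
    have h7 : (univ.filter fun i => mv π v i ∈ Q).card ≤ 1 :=
      card_le_one.2 fun i hi j hj => h1 v hQ i j (mem_filter.1 hi).2 (mem_filter.1 hj).2
    have h8 : (univ.filter fun i => (x v).2 i ≠ 0) ⊆
        (univ.filter fun i => key π v i ∈ P.labelJ π x') ∪ univ.filter fun i => mv π v i ∈ Q := by
      intro i hi
      have hi' := (mem_filter.1 hi).2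
      by_cases hm : mv π v i ∈ Q
      · simp [hm]
      · refine mem_union_left _ (mem_filter.2 ⟨mem_univ _, mem_filter.2 ⟨mem_univ _, ?_⟩⟩)
        rcases v with ⟨u, _ | _⟩
        · simp only [key_false, mv_false] at hm ⊢
          rw [e1 _ hQ, e1 _ hm, h3 u i hQ hm]
          exact ⟨hi', mul_ne_zero (f _).ne_zero hi'⟩
        · simp only [key_true, mv_true, Equiv.apply_symm_apply] at hm ⊢
          have h9 := h3 _ i hm (by simpa using hQ)
          rw [Equiv.apply_symm_apply] at h9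
          rw [e1 _ hQ, e1 _ hm]
          exact ⟨right_ne_zero_of_mul (h9 ▸ hi'), hi'⟩
    have h9 := (card_le_card h8).trans (card_union_le _ _)
    omega
  · obtain ⟨ha, hb⟩ := (mem_filter.1 he).2
    have ha' := e2 (e.1, false) fun h => ha (by rw [h]; rfl)
    have hb' := e2 (π e.2 e.1, true) fun h => hb (by rw [h]; rfl)
    rw [e1 _ ha', e1 _ hb']
    exact h3 _ _ ha' hb'

theorem label_side_aux {n : ℕ} (π : Gr n P.d) (J : Finset (Fin n × Fin P.d)) (b : Bool)
    (A : Finset (Fin n)) {r : ℕ}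
    (h : ∀ u ∈ A, r ≤ (univ.filter fun i => key π (u, b) i ∈ J).card) : r * A.card ≤ J.card := by
  calc r * A.card = ∑ _u ∈ A, r := by simp [mul_comm]
    _ ≤ ∑ u ∈ A, (univ.filter fun i => key π (u, b) i ∈ J).card := sum_le_sum h
    _ = (A.sigma fun u => univ.filter fun i => key π (u, b) i ∈ J).card := (card_sigma _ _).symm
    _ ≤ J.card := by
      refine card_le_card_of_injOn (fun s => key π (s.1, b) s.2)
        (fun s hs => (mem_filter.1 (mem_sigma.1 hs).2).2) ?_
      rintro ⟨u, i⟩ _ ⟨u', i'⟩ _ h'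
      obtain ⟨rfl, h1 | h1⟩ := key_eq π h'
      · obtain rfl : u = u' := congrArg Prod.fst h1
        rfl
      · simpa using congrArg Prod.snd h1

theorem label_size_aux {n : ℕ} (π : Gr n P.d) (h : Exp π P.c 1 P.B)
    (x : Vx n → (Fin P.d → P.F) × (Fin P.d → P.F)) (h0 : ∃ v, x v ≠ 0)
    (h1 : ∀ v, x v ≠ 0 → 10 * P.c ≤ (univ.filter fun i => key π v i ∈ P.labelJ π x).card) :
    ∃ m, n < P.B * m ∧ (univ.filter fun v => x v ≠ 0).card ≤ 2 * m ∧
      10 * P.c * m ≤ (P.labelJ π x).card := by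
  set A := univ.filter fun u => x (u, false) ≠ 0 with hA
  set B := univ.filter fun u => x (u, true) ≠ 0 with hB
  have h2 := P.label_side_aux π _ false A fun u hu => h1 _ (mem_filter.1 hu).2
  have h3 := P.label_side_aux π _ true B fun u hu => h1 _ (mem_filter.1 hu).2
  have h4 : 10 * P.c * max A.card B.card ≤ (P.labelJ π x).card := by
    rcases max_choice A.card B.card with h | h <;> rw [h] <;> assumption
  have h5 : (univ.filter fun v => x v ≠ 0).card = A.card + B.card := by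
    simp only [hA, hB, card_filter]
    rw [Fintype.sum_prod_type, ← sum_add_distrib]
    exact sum_congr rfl fun u _ => by rw [Fintype.sum_bool, add_comm]
  have h6 : 0 < (univ.filter fun v => x v ≠ 0).card :=
    card_pos.2 (h0.imp fun v hv => mem_filter.2 ⟨mem_univ _, hv⟩)
  refine ⟨max A.card B.card, not_le.1 fun hn => ?_, by omega, h4⟩
  have h7 := h A B _ (le_max_left _ _) (le_max_right _ _) (by omega) (by rwa [one_mul])
  have h8 : (P.labelJ π x).card ≤ ec π A B := by
    refine card_le_card fun e he => ?_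
    obtain ⟨ha, hb⟩ := (mem_filter.1 he).2
    refine mem_filter.2 ⟨mem_univ _, mem_filter.2 ⟨mem_univ _, fun h => ha (by rw [h]; rfl)⟩,
      mem_filter.2 ⟨mem_univ _, fun h => hb (by rw [h]; rfl)⟩⟩
  rw [mul_assoc] at h4
  omega

theorem label_units_aux : Fintype.card P.Fˣ = P.p - 1 := ZMod.card_units P.p

/-- Few labellings by units carry a dual word. -/
theorem card_not_dual {n : ℕ} (hn : 0 < n) (π : Gr n P.d) (h : Exp π P.c 1 P.B) :
    2 ^ (n * P.d) * (univ.filter fun f : Fin n × Fin P.d → P.Fˣ =>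
      ¬ P.Dual π fun e => (f e : P.F)).card < (P.p - 1) ^ (n * P.d) := by
  set q := P.p - 1 with hq
  have hq1 : 2 ^ (13 * P.B) ≤ q := Nat.le_sub_one_of_lt P.hp2
  have hq2 : 2 ≤ q := (Nat.le_self_pow (by have := P.hB; omega) 2).trans hq1
  have hq3 : P.p ≤ q ^ 2 := by
    have : P.p = q + 1 := by omega
    rw [this]
    nlinarith
  have hq0 : (0 : ℝ) < q := by exact_mod_cast (show 0 < q by omega)
  let w : (Fin P.d → P.F) × (Fin P.d → P.F) → ℝ := fun y =>
    if y ≠ 0 then ((q : ℝ) ^ (4 * P.c))⁻¹ else 1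
  have w0 : ∀ y, 0 ≤ w y := fun y => by simp only [w]; positivity
  let S := fun x : Vx n → (Fin P.d → P.F) × (Fin P.d → P.F) =>
    univ.filter fun f : Fin n × Fin P.d → P.Fˣ => (∃ v, x v ≠ 0) ∧
      (∀ v, x v ≠ 0 → 10 * P.c ≤ (univ.filter fun i => key π v i ∈ P.labelJ π x).card) ∧
      ∀ e ∈ P.labelJ π x, (x (π e.2 e.1, true)).2 e.2 = f e * (x (e.1, false)).2 e.2
  have h1 : (univ.filter fun f : Fin n × Fin P.d → P.Fˣ => ¬ P.Dual π fun e => (f e : P.F)) ⊆
      (Fintype.piFinset fun _ : Vx n => univ.filter P.Loc).biUnion S := by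
    intro f hf
    obtain ⟨x, a1, a2⟩ := P.label_word_aux π f (mem_filter.1 hf).2
    exact mem_biUnion.2 ⟨x, Fintype.mem_piFinset.2 fun v => mem_filter.2 ⟨mem_univ _, a1 v⟩,
      mem_filter.2 ⟨mem_univ _, a2⟩⟩
  have h2 : ∀ x, ((S x).card : ℝ) ≤
      (q : ℝ) ^ (n * P.d) / 2 ^ (26 * P.c * (n + 1)) * ∏ v, w (x v) := by
    intro x
    rcases (S x).eq_empty_or_nonempty with h0 | ⟨f₀, hf₀⟩
    · rw [h0, card_empty, Nat.cast_zero]
      exact mul_nonneg (by positivity) (prod_nonneg fun v _ => w0 _)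
    obtain ⟨a1, a2, -⟩ := (mem_filter.1 hf₀).2
    obtain ⟨m, b1, b2, b3⟩ := P.label_size_aux π h x a1 a2
    have c1 := label_det_aux (S x) (P.labelJ π x)
      (fun f f' hf hf' hh => funext fun e => by
        by_cases he : e ∈ P.labelJ π x
        · exact Units.ext (mul_right_cancel₀ (mem_filter.1 he).2.1
            (((mem_filter.1 hf).2.2.2 e he).symm.trans ((mem_filter.1 hf').2.2.2 e he)))
        · exact hh e he)
    rw [label_units_aux, Fintype.card_prod, Fintype.card_fin, Fintype.card_fin, ← hq] at c1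
    have c2 : 2 ^ (26 * P.c * (n + 1)) * (q ^ (4 * P.c)) ^ (univ.filter fun v => x v ≠ 0).card ≤
        q ^ (P.labelJ π x).card := by
      calc _ ≤ q ^ (2 * P.c * m) * (q ^ (4 * P.c)) ^ (2 * m) := by
            refine Nat.mul_le_mul ?_ (Nat.pow_le_pow_right (by positivity) b2)
            refine le_trans ?_ (Nat.pow_le_pow_left hq1 _)
            rw [← pow_mul]
            refine Nat.pow_le_pow_right (by norm_num) ?_
            calc 26 * P.c * (n + 1) ≤ 26 * P.c * (P.B * m) := Nat.mul_le_mul_left _ b1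
              _ = _ := by ring
        _ = q ^ (10 * P.c * m) := by rw [← pow_mul, ← pow_add]; congr 1; ring
        _ ≤ _ := Nat.pow_le_pow_right (by omega) b3
    have c3 := (Nat.mul_le_mul_left (S x).card c2).trans c1
    simp only [w]
    rw [prod_ite, prod_const_one, mul_one, prod_const, inv_pow, ← div_eq_mul_inv, div_div,
      le_div_iff₀ (by positivity)]
    exact_mod_cast c3
  have h3 : ∑ y ∈ univ.filter P.Loc, w y ≤ 2 := by
    simp only [w]
    rw [sum_ite, sum_const, sum_const, nsmul_eq_mul, nsmul_eq_mul, mul_one]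
    have c1 : (((univ.filter P.Loc).filter fun y => y ≠ 0).card : ℝ) ≤ (q : ℝ) ^ (4 * P.c) := by
      have := ((card_filter_le _ fun y => y ≠ 0).trans P.card_loc).trans
        (Nat.pow_le_pow_left hq3 _)
      rw [← pow_mul, ← mul_assoc] at this
      exact_mod_cast this
    have c2 : (((univ.filter P.Loc).filter fun y => ¬ y ≠ 0).card : ℝ) ≤ 1 := by
      have : ((univ.filter P.Loc).filter fun y => ¬ y ≠ 0).card ≤ 1 :=
        card_le_one.2 fun a ha b hb => Eq.trans (not_not.1 (mem_filter.1 ha).2)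
          (Eq.symm (not_not.1 (mem_filter.1 hb).2))
      exact_mod_cast this
    have c3 := (mul_inv_le_iff₀ (show (0 : ℝ) < (q : ℝ) ^ (4 * P.c) by positivity)).2
      (c1.trans_eq (one_mul _).symm)
    linarith
  have h4 : ((univ.filter fun f : Fin n × Fin P.d → P.Fˣ =>
      ¬ P.Dual π fun e => (f e : P.F)).card : ℝ) ≤
      (q : ℝ) ^ (n * P.d) / 2 ^ (26 * P.c * (n + 1)) * 2 ^ (n * 2) := by
    calc _ ≤ ∑ x ∈ Fintype.piFinset fun _ : Vx n => univ.filter P.Loc, ((S x).card : ℝ) := by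
          exact_mod_cast (card_le_card h1).trans card_biUnion_le
      _ ≤ _ := sum_le_sum fun x _ => h2 x
      _ ≤ _ := by
          rw [← mul_sum, ← prod_univ_sum, prod_const, card_univ, Fintype.card_prod,
            Fintype.card_fin, Fintype.card_bool]
          gcongr
  have h5 : (2 : ℝ) ^ (n * P.d) * 2 ^ (n * 2) < 2 ^ (26 * P.c * (n + 1)) := by
    rw [← pow_add]
    refine pow_lt_pow_right₀ (by norm_num) ?_
    have := P.c_pos
    unfold d
    nlinarith
  have h6 : (2 : ℝ) ^ (n * P.d) * ((q : ℝ) ^ (n * P.d) / 2 ^ (26 * P.c * (n + 1)) * 2 ^ (n * 2)) <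
      (q : ℝ) ^ (n * P.d) := by
    rw [mul_left_comm, div_mul_eq_mul_div, div_lt_iff₀ (by positivity)]
    gcongr
  exact_mod_cast (mul_le_mul_of_nonneg_left h4 (by positivity)).trans_lt h6

/-- Many labellings by units have short pieces. -/
theorem card_sc (k : ℕ) (π : Gr (P.n k) P.d) (hg : Girth π (12 * k + 11))
    (prev : ∀ j, j < k → P.Lev j) :
    (P.p - 1) ^ (P.n k * P.d) ≤ 2 ^ (P.n k * P.d) *
      (univ.filter fun f : Fin (P.n k) × Fin P.d → P.Fˣ =>
        (∀ (v v' : Vx (P.n k)) (cs : ℕ → Fin P.d), v.2 = v'.2 → Red cs (k + 1) →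
          (∀ t < k + 1, bw π (fun e => (f e : P.F)) v cs t =
            bw π (fun e => (f e : P.F)) v' cs t) → v = v') ∧
        ∀ j (hj : j < k), P.Avoid j (prev j hj).π (prev j hj).bit π fun e => (f e : P.F)).card := by
  set L : ℕ := (24 * P.c) ^ 48 with hL
  have hc := P.c_pos
  have hL0 : 0 < L := by positivity
  have hD : 1 ≤ 32 * P.d * L := Nat.succ_le_of_lt (by unfold d; positivity)
  have hD' : (1 : ℝ) ≤ (32 * P.d * L : ℕ) := by exact_mod_cast hD
  set z : ℝ := ((32 * P.d * L : ℕ) : ℝ)⁻¹ with hz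
  have hz0 : 0 ≤ z := by positivity
  have hq : 2 * (32 * P.d * L) ^ 3 ≤ P.p - 1 := Nat.le_sub_one_of_lt P.hp1
  have hq' : 2 * ((32 * P.d * L : ℕ) : ℝ) ^ 3 ≤ (P.p - 1 : ℕ) := by exact_mod_cast hq
  have hn : ∀ j, (P.d : ℝ) ^ (j + 1) * (2 * P.n j) * (4 * (j + 1 : ℕ) * z ^ (j + 1)) ≤
      (1 / 2) ^ (j + 1) := by
    intro j
    refine le_trans (le_of_eq ?_) (label_num_aux (j + 1))
    have e : (P.d : ℝ) * L * z = 1 / 32 := by
      have : (P.d : ℝ) ≠ 0 := by exact_mod_cast (show P.d ≠ 0 by unfold d; omega)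
      rw [hz]
      push_cast
      field_simp
    rw [← e, n, ← hL]
    push_cast
    ring
  refine le_of_eq_of_le ?_ (le_of_le_of_eq (label_ros_aux (ι := Fin (P.n k) × Fin P.d) (Z := P.Fˣ)
    (β := ((Fin (k + 1) → Fin P.d) × Vx (P.n k) × Vx (P.n k)) ⊕
      (Σ j : Fin k, (Fin (j + 1) → Fin P.d) × Vx (P.n j) × Vx (P.n k)))
    (Sum.elim (fun b => b.2.1 ≠ b.2.2 ∧ b.2.1.2 = b.2.2.2 ∧ Red (labelExt b.1) (k + 1))
      fun b => b.2.2.1.2 = b.2.2.2.2 ∧ Red (labelExt b.2.1) (b.1 + 1))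
    (Sum.elim (fun b f => ∀ t < k + 1,
        f (labelEd π b.2.1 (labelExt b.1) t) = f (labelEd π b.2.2 (labelExt b.1) t))
      fun b f => ∀ t < (b.1 : ℕ) + 1, (prev b.1 b.1.2).bit
        (labelEd (prev b.1 b.1.2).π b.2.2.1 (labelExt b.2.1) t) =
        f (labelEd π b.2.2.2 (labelExt b.2.1) t))
    (Sum.elim (fun b => (range (k + 1)).image (labelEd π b.2.1 (labelExt b.1)) ∪
        (range (k + 1)).image (labelEd π b.2.2 (labelExt b.1)))
      fun b => (range (b.1 + 1)).image (labelEd π b.2.2.2 (labelExt b.2.1)))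
    (Sum.elim (fun _ => k + 1) fun b => b.1 + 1) hz0 (inv_le_one_of_one_le₀ hD') ?_ ?_ ?_ ?_
    (fun e => Sum.elim (fun b => labelW π (labelExt b.1) (k + 1) e (z ^ (k + 1)) b.2.1 +
        labelW π (labelExt b.1) (k + 1) e (z ^ (k + 1)) b.2.2)
      fun b => labelW π (labelExt b.2.1) (b.1 + 1) e (z ^ (b.1 + 1 : ℕ)) b.2.2.2)
    ?_ ?_ ?_ _ ?_) (congrArg (2 ^ · * _) ?_))
  · rw [label_units_aux, Fintype.card_prod, Fintype.card_fin, Fintype.card_fin]
  · rw [label_units_aux, hz, inv_pow, div_le_iff₀ (lt_of_lt_of_le (by positivity) hq'),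
      le_inv_mul_iff₀ (by positivity)]
    linarith
  · rintro (b | b) f f' h1 h2 t ht
    · rw [← h1 _ (mem_union_left _ (mem_image_of_mem _ (mem_range.2 ht))),
        ← h1 _ (mem_union_right _ (mem_image_of_mem _ (mem_range.2 ht)))]
      exact h2 t ht
    · rw [← h1 _ (mem_image_of_mem _ (mem_range.2 ht))]
      exact h2 t ht
  · rintro (b | b)
    · exact (nonempty_range_add_one.image _).inl
    · exact nonempty_range_add_one.image _
  · rintro (b | b) hb e he
    · have i1 := labelEd_inj hg b.2.1 hb.2.2 (by omega)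
      have i2 := labelEd_inj hg b.2.2 hb.2.2 (by omega)
      rcases mem_union.1 he with he | he <;> obtain ⟨t, ht, rfl⟩ := mem_image.1 he
      · exact label_J_aux _ _ (fun t _ => labelEd_ne π hb.1 hb.2.1 _ t) i1 i2 (mem_range.1 ht)
      · obtain ⟨J, a1, a2, a3⟩ := label_J_aux (Z := P.Fˣ) _ _
          (fun t _ => (labelEd_ne π hb.1 hb.2.1 _ t).symm) i2 i1 (mem_range.1 ht)
        exact ⟨J, a1, a2, fun f f' h1 h2 =>
          a3 f f' (fun t ht => (h1 t ht).symm) fun t ht => (h2 t ht).symm⟩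
    · have i1 := labelEd_inj hg b.2.2.2 hb.2 (by have := b.1.2; omega)
      refine ⟨_, he, ?_, fun f f' h1 h2 h3 => funext fun x => ?_⟩
      · simp only [Sum.elim_inr]
        rw [card_image_of_injOn fun s hs t ht => i1 s (mem_range.1 hs) t (mem_range.1 ht),
          card_range]
        omega
      · by_contra hx
        obtain ⟨t, ht, rfl⟩ := mem_image.1 (not_not.1 fun h => hx (h3 x h))
        exact hx (Units.ext ((h1 t (mem_range.1 ht)).symm.trans (h2 t (mem_range.1 ht))))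
  · rintro e (b | b) <;> simp only [Sum.elim_inl, Sum.elim_inr, labelW] <;> positivity
  · rintro e (b | b) he <;> simp only [Sum.elim_inl, Sum.elim_inr, labelW] at he ⊢
    · rcases mem_union.1 he with he | he <;> rw [if_pos he]
      · exact le_add_of_nonneg_right (by positivity)
      · exact le_add_of_nonneg_left (by positivity)
    · rw [if_pos he]
  · intro e
    rw [Fintype.sum_sum_type, Fintype.sum_sigma]
    refine le_trans (add_le_add ?_ (sum_le_sum fun j _ => ?_)) (label_geom_aux k)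
    · refine le_trans ?_ (hn k)
      simp only [Sum.elim_inl, Fintype.sum_prod_type (α₂ := Vx (P.n k) × Vx (P.n k)),
        Fintype.sum_prod_type (α₁ := Vx (P.n k)), sum_add_distrib, sum_const, ← smul_sum]
      have a1 := fun c : Fin (k + 1) → Fin P.d =>
        label_count_aux π (labelExt c) (k + 1) e (z ^ (k + 1)) (by positivity)
      have a2 := sum_le_sum fun c (_ : c ∈ univ) => a1 c
      simp only [sum_const, card_univ, Fintype.card_prod, Fintype.card_fin, Fintype.card_bool,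
        Fintype.card_fun, nsmul_eq_mul, ← mul_sum] at a2 ⊢
      have a3 := mul_le_mul_of_nonneg_left a2 (Nat.cast_nonneg (α := ℝ) (P.n k * 2))
      push_cast at a3 ⊢
      linarith
    · refine le_trans ?_ (hn j)
      simp only [Sum.elim_inr, Fintype.sum_prod_type (α₂ := Vx (P.n j) × Vx (P.n k)),
        Fintype.sum_prod_type (α₁ := Vx (P.n j)), sum_const, ← smul_sum]
      have a1 := fun c : Fin (j + 1) → Fin P.d =>
        label_count_aux π (labelExt c) (j + 1) e (z ^ (j + 1 : ℕ)) (by positivity)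
      have a2 := sum_le_sum fun c (_ : c ∈ univ) => a1 c
      simp only [sum_const, card_univ, Fintype.card_prod, Fintype.card_fin, Fintype.card_bool,
        Fintype.card_fun, nsmul_eq_mul, ← mul_sum] at a2 ⊢
      have a3 := mul_le_mul_of_nonneg_left a2 (Nat.cast_nonneg (α := ℝ) (P.n j * 2))
      have a4 : (0 : ℝ) ≤ (P.d : ℝ) ^ (j + 1 : ℕ) * P.n j * ((j + 1 : ℕ) * z ^ (j + 1 : ℕ)) := by
        positivity
      push_cast at a3 a4 ⊢
      linarith
  · intro f hf
    refine mem_filter.2 ⟨mem_univ _, fun v v' cs h1 h2 h3 => ?_, fun j hj v v' cs h1 h2 h3 => ?_⟩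
    · by_contra hv
      refine hf (Sum.inl (fun i => cs i, v, v')) ⟨hv, h1, labelExt_red h2⟩ fun t ht => ?_
      rw [labelExt_ed π v cs ht, labelExt_ed π v' cs ht]
      exact Units.ext (h3 t ht)
    · refine hf (Sum.inr ⟨⟨j, hj⟩, fun i => cs i, v, v'⟩) ⟨h1, labelExt_red h2⟩ fun t ht => ?_
      rw [labelExt_ed _ v cs ht, labelExt_ed π v' cs ht]
      exact h3 t ht
  · rw [Fintype.card_prod, Fintype.card_fin, Fintype.card_fin]

theorem exists_lev (k : ℕ) (prev : ∀ j, j < k → P.Lev j) :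
    ∃ Y : P.Lev k, ∀ j (hj : j < k), P.Avoid j (prev j hj).π (prev j hj).bit Y.π Y.bit := by
  have hc := P.c_pos
  obtain ⟨π, hg, h1, h2⟩ := P.graphs (12 * k + 11) (P.n k) (by omega) (by
    rw [n, ← pow_mul]
    exact Nat.pow_le_pow_right (by omega) (by omega))
  obtain ⟨f, hf, hf'⟩ := exists_mem_notMem_of_card_lt_card (Nat.lt_of_mul_lt_mul_left
    ((P.card_not_dual (P.n_pos k) π h2).trans_le (P.card_sc k π hg prev)))
  have hd : P.Dual π fun e => (f e : P.F) := by simpa using hf'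
  obtain ⟨tau, ht⟩ := P.exists_tau hd
  exact ⟨⟨π, fun e => (f e : P.F), tau, fun e => (f e).ne_zero, hg, h1, h2, hd,
    (mem_filter.1 hf).2.1, ht⟩, (mem_filter.1 hf).2.2⟩

theorem exists_tower : Nonempty P.Tower := by
  choose F hF using P.exists_lev
  obtain ⟨lev, h⟩ : ∃ lev : ∀ k, P.Lev k, ∀ k, lev k = F k fun j _ => lev j :=
    ⟨WellFounded.fix wellFounded_lt F, WellFounded.fix_eq wellFounded_lt F⟩
  refine ⟨⟨lev, Set.univ, fun j k hjk => ?_⟩⟩
  rw [h k]
  exact hF k (fun j _ => lev j) j hjk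

end Par

theorem exists_par : Nonempty Par := by
  obtain ⟨B, c, hB, hc, hg⟩ := exists_graphs
  obtain ⟨p, hp, hp'⟩ := Nat.exists_infinite_primes
    (2 * (32 * (12 * c) * (24 * c) ^ 48) ^ 3 + 2 ^ (13 * B) + 1)
  exact ⟨⟨B, c, p, hB, hc, hp', Nat.lt_of_le_of_lt (Nat.le_add_right _ _) hp,
    Nat.lt_of_le_of_lt (Nat.le_add_left _ _) hp, hg⟩⟩

end Vale.Agent.P089
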