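import Vale.Agent.P089.Code
import Vale.Agent.P089.GeoDef

/-! The labelled graph of a tower, the module of edge relations and the bijections attached to
its characters. -/

namespace Vale.Agent.P089

open Finset

namespace Par

variable (P : Par)

/-- The generators. -/
abbrev S : Type := Fin P.d × P.F × P.F

/-- The vertices of all levels. -/
abbrev V : Type := Σ k, Vx (P.n k)

/-- The multiplier of a label. -/
noncomputable def th (a : P.F) : P.F := if a = 0 then 1 else a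

theorem th_ne (a : P.F) : P.th a ≠ 0 := by
  unfold th
  split_ifs with h
  · exact one_ne_zero
  · exact h

theorem th_of_ne {a : P.F} (h : a ≠ 0) : P.th a = a := if_neg h

/-- The label of colour `i` determined by a functional at a source or at a target. -/
noncomputable def labF (φ : P.E →ₗ[P.F] P.F) (b : Bool) (i : Fin P.d) : P.S :=
  (i, φ (P.ea i), (if b then P.th (φ (P.ea i)) else 1) * φ (P.eb i))

@[simp] theorem labF_fst (φ : P.E →ₗ[P.F] P.F) (b : Bool) (i : Fin P.d) :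
    (P.labF φ b i).1 = i := rfl

theorem labF_inj {φ φ' : P.E →ₗ[P.F] P.F} {b : Bool} {i j : Fin P.d}
    (h : P.labF φ b i = P.labF φ' b j) :
    i = j ∧ φ (P.ea i) = φ' (P.ea i) ∧ φ (P.eb i) = φ' (P.eb i) := by
  obtain rfl : i = j := congrArg Prod.fst h
  have h1 : φ (P.ea i) = φ' (P.ea i) := congrArg (fun s : P.S => s.2.1) h
  have h2 : (if b then P.th (φ (P.ea i)) else 1) * φ (P.eb i) =
      (if b then P.th (φ' (P.ea i)) else 1) * φ' (P.eb i) := congrArg (fun s : P.S => s.2.2) h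
  rw [← h1] at h2
  refine ⟨rfl, h1, mul_left_cancel₀ ?_ h2⟩
  split_ifs
  · exact P.th_ne _
  · exact one_ne_zero

variable {P}

namespace Tower

variable (X : P.Tower)

/-- The neighbour of colour `i`. -/
def mvV (v : P.V) (i : Fin P.d) : P.V := ⟨v.1, mv (X.lev v.1).π v.2 i⟩

/-- The codeword. -/
def tauV (v : P.V) : P.E →ₗ[P.F] P.F := (X.lev v.1).tau v.2

/-- The label of the edge of colour `i` at `v`. -/
noncomputable def lab (v : P.V) (i : Fin P.d) : P.S := P.labF (X.tauV v) v.2.2 i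

/-- The labelled graph. -/
def Ed (v : P.V) (l : P.S × Bool) (v' : P.V) : Prop :=
  v.1 ∈ X.on ∧ ∃ i, v' = X.mvV v i ∧ l = (X.lab v i, !v.2.2)

@[simp] theorem mvV_mvV (v : P.V) (i : Fin P.d) : X.mvV (X.mvV v i) i = v := by
  simp [mvV]

@[simp] theorem mvV_side (v : P.V) (i : Fin P.d) : (X.mvV v i).2.2 = !v.2.2 := rfl

@[simp] theorem lab_fst (v : P.V) (i : Fin P.d) : (X.lab v i).1 = i := rfl

theorem mod_lab_aux (k : ℕ) (u : Fin (P.n k)) (i : Fin P.d) :
    X.lab ⟨k, ((X.lev k).π i u, true)⟩ i = X.lab ⟨k, (u, false)⟩ i := by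
  obtain ⟨h1, h2, h3⟩ := (X.lev k).tau_ed u i
  simp only [lab, labF, tauV, if_true, Bool.false_eq_true, if_false, one_mul]
  rw [h1, h2, h3, P.th_of_ne ((X.lev k).bit_ne _)]

theorem lab_mv (v : P.V) (i : Fin P.d) : X.lab (X.mvV v i) i = X.lab v i := by
  obtain ⟨k, u, _ | _⟩ := v
  · exact X.mod_lab_aux k u i
  · have := X.mod_lab_aux k (((X.lev k).π i).symm u) i
    rw [Equiv.apply_symm_apply] at this
    exact this.symm

theorem lab_bit (v : P.V) (i : Fin P.d) :
    (X.lab v i).2.1 = (X.lev v.1).bit (key (X.lev v.1).π v.2 i) := by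
  obtain ⟨k, u, _ | _⟩ := v
  · exact ((X.lev k).tau_ed u i).1
  · have := ((X.lev k).tau_ed (((X.lev k).π i).symm u) i).2.1
    rw [Equiv.apply_symm_apply] at this
    exact this

theorem ed_mv {v : P.V} (hv : v.1 ∈ X.on) (i : Fin P.d) :
    X.Ed v (X.lab v i, !v.2.2) (X.mvV v i) := ⟨hv, i, rfl, rfl⟩

theorem mod_eq_aux {v v' : P.V} (hs : v.2.2 = v'.2.2) {cs : ℕ → Fin P.d} {R : ℕ} (hc : Red cs R)
    (hR : v.1 < R)
    (h : ∀ t < R, X.lab ⟨v.1, walk (X.lev v.1).π v.2 cs t⟩ (cs t) =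
      X.lab ⟨v'.1, walk (X.lev v'.1).π v'.2 cs t⟩ (cs t)) : v = v' := by
  have hb : ∀ t < R, bw (X.lev v.1).π (X.lev v.1).bit v.2 cs t =
      bw (X.lev v'.1).π (X.lev v'.1).bit v'.2 cs t := by
    intro t ht
    have h1 := X.lab_bit ⟨v.1, walk (X.lev v.1).π v.2 cs t⟩ (cs t)
    have h2 := X.lab_bit ⟨v'.1, walk (X.lev v'.1).π v'.2 cs t⟩ (cs t)
    rw [h t ht, h2] at h1
    exact h1.symm
  obtain ⟨k, x⟩ := v
  obtain ⟨k', x'⟩ := v'
  simp only at hs hR hb
  rcases lt_trichotomy k k' with hk | rfl | hk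
  · exact absurd (fun t ht => hb t (by omega))
      (X.avoid k k' hk x x' cs hs fun t ht => hc t (by omega))
  · rw [(X.lev k).sc x x' cs hs (fun t ht => hc t (by omega)) fun t ht => hb t (by omega)]
  · exact absurd (fun t ht => (hb t (by omega)).symm)
      (X.avoid k' k hk x' x cs hs.symm fun t ht => hc t (by omega))

theorem mod_rd_aux {v w : P.V} {L : List (P.S × Bool)} (h : Rd X.Ed v L w) :
    ∀ cs : ℕ → Fin P.d, (∀ t (ht : t < L.length), cs t = L[t].1.1) →
      w = ⟨v.1, walk (X.lev v.1).π v.2 cs L.length⟩ ∧ ∀ t (ht : t < L.length),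
        L[t] = (X.lab ⟨v.1, walk (X.lev v.1).π v.2 cs t⟩ (cs t),
          !(walk (X.lev v.1).π v.2 cs t).2) := by
  induction h with
  | nil v => exact fun cs _ => ⟨rfl, fun t ht => absurd ht (by simp)⟩
  | @cons v v₁ v' l L h1 _ ih =>
    intro cs hcs
    obtain ⟨-, i, rfl, rfl⟩ := h1
    have h0 : cs 0 = i := hcs 0 (by simp)
    obtain ⟨e1, e2⟩ := ih (fun t => cs (1 + t)) fun t ht => by
      have := hcs (t + 1) (by simpa using ht)
      rw [add_comm]
      simpa using this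
    have hw : ∀ t, walk (X.lev v.1).π v.2 cs (t + 1) =
        walk (X.lev v.1).π (mv (X.lev v.1).π v.2 i) (fun s => cs (1 + s)) t := by
      intro t
      rw [add_comm, walk_add, ← h0]
      rfl
    refine ⟨?_, fun t ht => ?_⟩
    · rw [List.length_cons, hw]
      exact e1
    · rcases t with _ | t
      · rw [h0]
        rfl
      · rw [hw, List.getElem_cons_succ, add_comm t 1]
        exact e2 t (by simpa using ht)

theorem mod_red_aux {v w : P.V} {L : List (P.S × Bool)} (h : Rd X.Ed v L w)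
    (hL : FreeGroup.IsReduced L) {cs : ℕ → Fin P.d}
    (hcs : ∀ t (ht : t < L.length), cs t = L[t].1.1) : Red cs L.length := by
  intro t ht hc
  have e := (X.mod_rd_aux h cs hcs).2
  have h1 := List.isChain_iff_getElem.1 hL t ht
  rw [e t (by omega), e (t + 1) ht] at h1
  have h2 := X.lab_mv ⟨v.1, walk (X.lev v.1).π v.2 cs t⟩ (cs t)
  have h3 := h1 (by rw [← hc]; exact h2.symm)
  simp [walk] at h3

theorem mod_cs_aux (L : List (P.S × Bool)) :
    ∃ cs : ℕ → Fin P.d, ∀ t (ht : t < L.length), cs t = L[t].1.1 :=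
  ⟨fun t => if ht : t < L.length then L[t].1.1 else ⟨0, by have := P.c_pos; unfold d; omega⟩,
    fun _ ht => dif_pos ht⟩

theorem sc : SC X.Ed (fun v => v.1) := by
  refine ⟨?_, ?_, ?_, ?_, ?_⟩
  · rintro v l _ _ ⟨-, i, rfl, rfl⟩ ⟨-, j, rfl, h⟩
    have : i = j := congrArg (fun l : P.S × Bool => l.1.1) h
    rw [this]
  · rintro v l _ ⟨hv, i, rfl, rfl⟩
    refine ⟨hv, i, (X.mvV_mvV v i).symm, ?_⟩
    rw [X.lab_mv]
    rfl
  · rintro v l _ ⟨-, i, rfl, rfl⟩
    rfl
  · intro v L h hL hne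
    obtain ⟨cs, hcs⟩ := mod_cs_aux L
    by_contra hlt
    have h1 := (X.mod_rd_aux h cs hcs).1
    obtain ⟨k, x⟩ := v
    have h2 : x = walk (X.lev k).π x cs L.length := eq_of_heq (Sigma.mk.inj h1).2
    exact (X.lev k).girth x cs L.length (List.length_pos_iff.2 hne) (by simpa using hlt)
      (X.mod_red_aux h hL hcs) h2.symm
  · intro v w v' w' L h h' hL hlt
    obtain ⟨cs, hcs⟩ := mod_cs_aux L
    have e := (X.mod_rd_aux h cs hcs).2
    have e' := (X.mod_rd_aux h' cs hcs).2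
    refine X.mod_eq_aux ?_ (X.mod_red_aux h hL hcs) hlt fun t ht => ?_
    · have h0 := (e 0 (by omega)).symm.trans (e' 0 (by omega))
      simpa [walk] using congrArg Prod.snd h0
    · exact congrArg Prod.fst ((e t ht).symm.trans (e' t ht))

variable {X} {G : Type} [Group G] (Θ : Geo X.Ed G)

/-- A parametrisation of a copy of level `k` by the vertices of that level. -/
structure Copy (k : ℕ) where
  ι : Vx (P.n k) → G
  on : k ∈ X.on
  inj : Function.Injective ι
  same : ∀ x x', Θ.Same (ι x, ⟨k, x⟩) (ι x', ⟨k, x'⟩)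
  all : ∀ x g' v', Θ.Same (ι x, ⟨k, x⟩) (g', v') → ∃ x', v' = ⟨k, x'⟩ ∧ g' = ι x'
  step : ∀ x i, ι (mv (X.lev k).π x i) = ι x * Θ.ed (X.lab ⟨k, x⟩ i, !x.2)

theorem exists_copy (g : G) {k : ℕ} (hk : k ∈ X.on) (x : Vx (P.n k)) :
    ∃ C : Copy Θ k, C.ι x = g := by
  have key : ∀ x', ∃ g', Θ.Same (g, ⟨k, x⟩) (g', ⟨k, x'⟩) := by
    intro x'
    obtain ⟨cs, L, rfl⟩ := P.conn (X.lev k).exp1 x x'
    induction L with
    | zero => exact ⟨g, Θ.equiv.refl _⟩
    | succ L ih =>
      obtain ⟨g', hg'⟩ := ih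
      exact ⟨_, Θ.equiv.trans hg' (Θ.same_ed g' _ _ _ (X.ed_mv (v := ⟨k, _⟩) hk (cs L)))⟩
  choose ι hι using key
  have hs : ∀ x x', Θ.Same (ι x, ⟨k, x⟩) (ι x', ⟨k, x'⟩) := fun x x' =>
    Θ.equiv.trans (Θ.equiv.symm (hι x)) (hι x')
  refine ⟨⟨ι, hk, fun x₁ x₂ h => ?_, hs, fun x₁ g' v' h => ?_, fun x₁ i => ?_⟩,
    (Θ.same_left _ _ _ (hι x)).symm⟩
  · have h1 := hs x₁ x₂
    rw [h] at h1
    exact eq_of_heq (Sigma.mk.inj (Θ.same_right _ _ _ h1)).2
  · have h1 : v'.1 = k := by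
      have h2 := Θ.same_reach _ _ _ _ h
      clear h
      induction h2 with
      | refl => rfl
      | tail _ h3 ih =>
        obtain ⟨l, h3⟩ := h3
        exact (X.sc.r_ed _ _ _ h3).trans ih
    obtain ⟨k', x'⟩ := v'
    obtain rfl : k' = k := h1
    exact ⟨x', rfl, Θ.same_left _ _ _ (Θ.equiv.trans (Θ.equiv.symm h) (hs x₁ x'))⟩
  · exact Θ.same_left _ _ _ (Θ.equiv.trans (hs _ x₁)
      (Θ.same_ed (ι x₁) _ _ _ (X.ed_mv (v := ⟨k, x₁⟩) hk i)))

theorem own_on {g : G} {v : P.V} (h : Θ.Own g v) : v.1 ∈ X.on := by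
  obtain ⟨l, v', h'⟩ := Θ.own_ed g v h
  exact h'.1

/-- The first relation along the edge from `g` with label `s`. -/
noncomputable def rel1 (g : G) (s : P.S) : G × Bool →₀ P.E :=
  Finsupp.single (g, false) (P.ea s.1) - Finsupp.single (g * Θ.ed (s, true), true) (P.ea s.1)

/-- The second relation along the edge from `g` with label `s`. -/
noncomputable def rel2 (g : G) (s : P.S) : G × Bool →₀ P.E :=
  Finsupp.single (g, false) (P.eb s.1) -
    P.th s.2.1 • Finsupp.single (g * Θ.ed (s, true), true) (P.eb s.1)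

/-- The space of relations. -/
noncomputable def Rel : Submodule P.F (G × Bool →₀ P.E) :=
  Submodule.span P.F
    ((Set.range fun x : G × P.S => rel1 Θ x.1 x.2) ∪ Set.range fun x : G × P.S => rel2 Θ x.1 x.2)

/-- The module. -/
def A : Type := (G × Bool →₀ P.E) ⧸ Rel Θ

noncomputable instance : AddCommGroup (A Θ) :=
  inferInstanceAs (AddCommGroup ((G × Bool →₀ P.E) ⧸ Rel Θ))

noncomputable instance : Module P.F (A Θ) :=
  inferInstanceAs (Module P.F ((G × Bool →₀ P.E) ⧸ Rel Θ))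

/-- The quotient map. -/
noncomputable def mkA : (G × Bool →₀ P.E) →ₗ[P.F] A Θ := (Rel Θ).mkQ

theorem mkA_eq_zero {x : G × Bool →₀ P.E} : mkA Θ x = 0 ↔ x ∈ Rel Θ :=
  Submodule.Quotient.mk_eq_zero _

theorem mkA_surj : Function.Surjective (mkA Θ) := Submodule.mkQ_surjective _

instance [Countable G] : Countable (A Θ) := (mkA_surj Θ).countable

/-- The local space at a node. -/
noncomputable def nd (q : G × Bool) : P.E →ₗ[P.F] A Θ := mkA Θ ∘ₗ Finsupp.lsingle q

theorem nd_apply (q : G × Bool) (a : P.E) : nd Θ q a = mkA Θ (Finsupp.single q a) := rfl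

theorem nd_ea (g : G) (s : P.S) :
    nd Θ (g, false) (P.ea s.1) = nd Θ (g * Θ.ed (s, true), true) (P.ea s.1) := by
  rw [← sub_eq_zero, nd_apply, nd_apply, ← map_sub, mkA_eq_zero]
  exact Submodule.subset_span (Or.inl ⟨(g, s), rfl⟩)

theorem nd_eb (g : G) (s : P.S) :
    nd Θ (g, false) (P.eb s.1) = P.th s.2.1 • nd Θ (g * Θ.ed (s, true), true) (P.eb s.1) := by
  rw [← sub_eq_zero, nd_apply, nd_apply, ← map_smul, ← map_sub, mkA_eq_zero]
  exact Submodule.subset_span (Or.inr ⟨(g, s), rfl⟩)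

theorem A_ext {Y : Type} [AddCommGroup Y] [Module P.F Y] {f f' : A Θ →ₗ[P.F] Y}
    (h : ∀ q a, f (nd Θ q a) = f' (nd Θ q a)) : f = f' := by
  refine LinearMap.ext fun x => ?_
  obtain ⟨x, rfl⟩ := mkA_surj Θ x
  induction x using Finsupp.induction_linear with
  | zero => simp
  | add x y hx hy => simp only [map_add, hx, hy]
  | single q a => exact h q a

/-- Translation of the module. -/
noncomputable def act (h : G) : A Θ →ₗ[P.F] A Θ :=
  (Rel Θ).liftQ (mkA Θ ∘ₗ Finsupp.lmapDomain P.E P.F fun q : G × Bool => (h * q.1, q.2)) (by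
    refine Submodule.span_le.2 ?_
    rintro _ (⟨⟨g, s⟩, rfl⟩ | ⟨⟨g, s⟩, rfl⟩)
    · have := nd_ea Θ (h * g) s
      rw [SetLike.mem_coe, LinearMap.mem_ker]
      simp only [rel1]
      rw [map_sub, sub_eq_zero]
      simpa [Finsupp.mapDomain_single, nd_apply, mul_assoc] using this
    · have := nd_eb Θ (h * g) s
      rw [SetLike.mem_coe, LinearMap.mem_ker]
      simp only [rel2]
      rw [map_sub, map_smul, sub_eq_zero]
      simpa [Finsupp.mapDomain_single, nd_apply, mul_assoc] using this)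

theorem act_nd (h g : G) (b : Bool) (a : P.E) : act Θ h (nd Θ (g, b) a) = nd Θ (h * g, b) a := by
  show mkA Θ (Finsupp.mapDomain _ (Finsupp.single (g, b) a)) = _
  rw [Finsupp.mapDomain_single, nd_apply]

noncomputable instance : DistribMulAction G (A Θ) where
  smul h x := act Θ h x
  one_smul x := LinearMap.congr_fun (A_ext Θ (f := act Θ 1) (f' := LinearMap.id)
    fun q a => by rw [act_nd, one_mul]; rfl) x
  mul_smul h h' x := LinearMap.congr_fun (A_ext Θ (f := act Θ (h * h'))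
    (f' := act Θ h ∘ₗ act Θ h') fun q a => by
      rw [LinearMap.comp_apply, act_nd, act_nd, act_nd, mul_assoc]) x
  smul_zero h := map_zero (act Θ h)
  smul_add h := map_add (act Θ h)

instance : SMulCommClass G P.F (A Θ) := ⟨fun h r x => map_smul (act Θ h) r x⟩

theorem smul_nd (h g : G) (b : Bool) (a : P.E) : h • nd Θ (g, b) a = nd Θ (h * g, b) a :=
  act_nd Θ h g b a

variable (y : A Θ →ₗ[P.F] P.F)

/-- The label of colour `i` that the character `y` reads at a node. -/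
noncomputable def labY (q : G × Bool) (i : Fin P.d) : P.S := P.labF (y ∘ₗ nd Θ q) q.2 i

theorem labY_step (g : G) (s : P.S) :
    labY Θ y (g * Θ.ed (s, true), true) s.1 = s ↔ labY Θ y (g, false) s.1 = s := by
  have h1 := congrArg y (nd_ea Θ g s)
  have h2 := congrArg y (nd_eb Θ g s)
  rw [map_smul, smul_eq_mul] at h2
  obtain ⟨i, a, b⟩ := s
  simp only [labY, labF, LinearMap.comp_apply, if_true, Prod.mk.injEq, true_and,
    Bool.false_eq_true, if_false, one_mul] at h1 h2 ⊢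
  rw [h1, h2]
  refine and_congr_right fun h => ?_
  rw [h]

/-- The bijection of colour `i` attached to the character `y`. -/
noncomputable def sig (i : Fin P.d) : G ≃ G where
  toFun g := g * Θ.ed (labY Θ y (g, false) i, true)
  invFun g := g * (Θ.ed (labY Θ y (g, true) i, true))⁻¹
  left_inv g := by
    have := (labY_step Θ y g (labY Θ y (g, false) i)).2 rfl
    simp only [labY, labF_fst] at this ⊢
    rw [this, mul_inv_cancel_right]
  right_inv g := by
    have := (labY_step Θ y (g * (Θ.ed (labY Θ y (g, true) i, true))⁻¹)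
      (labY Θ y (g, true) i)).1 (by rw [inv_mul_cancel_right]; rfl)
    simp only [labY, labF_fst] at this ⊢
    rw [this, inv_mul_cancel_right]

theorem sig_apply (i : Fin P.d) (g : G) :
    sig Θ y i g = g * Θ.ed (labY Θ y (g, false) i, true) := rfl

theorem sig_symm_apply (i : Fin P.d) (g : G) :
    (sig Θ y i).symm g = g * (Θ.ed (labY Θ y (g, true) i, true))⁻¹ := rfl

theorem labY_sig (i : Fin P.d) (g : G) :
    labY Θ y (sig Θ y i g, true) i = labY Θ y (g, false) i :=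
  (labY_step Θ y g (labY Θ y (g, false) i)).2 rfl

/-- The character `y` agrees with the codeword on the whole copy through `(g, v)`. -/
def Intact (g : G) (v : P.V) : Prop :=
  v.1 ∈ X.on ∧ ∀ g' v', Θ.Same (g, v) (g', v') → y ∘ₗ nd Θ (g', v'.2.2) = X.tauV v'

theorem intact_iff {k : ℕ} (C : Copy Θ k) (x : Vx (P.n k)) :
    Intact Θ y (C.ι x) ⟨k, x⟩ ↔ ∀ x', y ∘ₗ nd Θ (C.ι x', x'.2) = (X.lev k).tau x' := by
  constructor
  · intro h x'
    exact h.2 _ _ (C.same x x')
  · intro h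
    refine ⟨C.on, fun g' v' hs => ?_⟩
    obtain ⟨x', rfl, rfl⟩ := C.all x g' v' hs
    exact h x'

theorem intact_unique {g : G} {v v' : P.V} (h : Intact Θ y g v) (h' : Intact Θ y g v')
    (hs : v.2.2 = v'.2.2) : v = v' := by
  have hd : 2 ≤ P.d := by
    have := P.c_pos
    unfold d
    omega
  let cs : ℕ → Fin P.d := fun t => ⟨t % 2, by omega⟩
  have hlab : ∀ t g', Θ.Same (g, v) (g', ⟨v.1, walk (X.lev v.1).π v.2 cs t⟩) →
      Θ.Same (g, v') (g', ⟨v'.1, walk (X.lev v'.1).π v'.2 cs t⟩) →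
      X.lab ⟨v.1, walk (X.lev v.1).π v.2 cs t⟩ (cs t) =
        X.lab ⟨v'.1, walk (X.lev v'.1).π v'.2 cs t⟩ (cs t) := by
    intro t g' h1 h2
    have e := walk_snd (X.lev v.1).π (X.lev v'.1).π hs cs cs t
    unfold lab
    rw [← h.2 _ _ h1, ← h'.2 _ _ h2]
    simp only [e]
  have key : ∀ t, ∃ g', Θ.Same (g, v) (g', ⟨v.1, walk (X.lev v.1).π v.2 cs t⟩) ∧
      Θ.Same (g, v') (g', ⟨v'.1, walk (X.lev v'.1).π v'.2 cs t⟩) := by
    intro t
    induction t with
    | zero => exact ⟨g, Θ.equiv.refl _, Θ.equiv.refl _⟩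
    | succ t ih =>
      obtain ⟨g', h1, h2⟩ := ih
      have e := walk_snd (X.lev v.1).π (X.lev v'.1).π hs cs cs t
      refine ⟨_, Θ.equiv.trans h1 (Θ.same_ed g' _ _ _
        (X.ed_mv (v := ⟨v.1, walk (X.lev v.1).π v.2 cs t⟩) h.1 (cs t))), ?_⟩
      rw [hlab t g' h1 h2]
      simp only [e]
      exact Θ.equiv.trans h2 (Θ.same_ed g' _ _ _
        (X.ed_mv (v := ⟨v'.1, walk (X.lev v'.1).π v'.2 cs t⟩) h'.1 (cs t)))
  refine X.mod_eq_aux hs (cs := cs) (R := v.1 + 1) (fun t _ hc => ?_) (by omega) fun t _ => ?_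
  · have : t % 2 = (t + 1) % 2 := congrArg Fin.val hc
    omega
  · obtain ⟨g', h1, h2⟩ := key t
    exact hlab t g' h1 h2

end Tower

end Par

end Vale.Agent.P089
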