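import Vale.Agent.P089.Walk

/-! Random families of permutations: expansion. -/

namespace Vale.Agent.P089

open Finset

open scoped Classical

variable {n d : ℕ}

/-- The switching map at the half edge `(u, i)`; the predicate marks forbidden targets. -/
noncomputable def randexp_sw_aux (u : Fin n) (i : Fin d) (F : Finset (Fin n))
    (p : Gr n d × Fin n) : Gr n d × Fin n :=
  if ∃ s ∈ F, p.1 i s = p.2 then p
  else (Function.update p.1 i (Equiv.swap (p.1 i u) p.2 * p.1 i), p.1 i u)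

theorem randexp_sw_inv_aux (u : Fin n) (i : Fin d) (F : Finset (Fin n)) (hu : u ∉ F) :
    Function.Involutive (randexp_sw_aux u i F) := by
  rintro ⟨π, w⟩
  by_cases h : ∃ s ∈ F, π i s = w
  · simp only [randexp_sw_aux, if_pos h]
  · have h2 : ¬ ∃ s ∈ F, Equiv.swap (π i u) w (π i s) = π i u := by
      rintro ⟨s, hs, h3⟩
      have h5 : π i s ≠ π i u := fun h4 => hu (by rwa [← (π i).injective h4])
      rw [Equiv.swap_apply_of_ne_of_ne h5 (fun h4 => h ⟨s, hs, h4⟩)] at h3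
      exact h5 h3
    simp only [randexp_sw_aux, if_neg h, Function.update_self, Function.update_idem,
      Equiv.Perm.mul_apply, Equiv.swap_apply_left, if_neg h2]
    rw [← mul_assoc, Equiv.swap_comm w, Equiv.swap_mul_self, one_mul, Function.update_eq_self]

theorem randexp_step_aux (J : Finset (Fin n × Fin d)) (B : Finset (Fin n)) (e : Fin n × Fin d)
    (he : e ∉ J) :
    (univ.filter fun π : Gr n d => ∀ e' ∈ insert e J, π e'.2 e'.1 ∈ B).card * n ≤
      (univ.filter fun π : Gr n d => ∀ e' ∈ J, π e'.2 e'.1 ∈ B).card * B.card := by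
  obtain ⟨u, i⟩ := e
  have hu : u ∉ univ.filter fun s => (s, i) ∈ J := by simpa using he
  have key := card_le_card_of_injOn (randexp_sw_aux u i (univ.filter fun s => (s, i) ∈ J))
    (s := (univ.filter fun π : Gr n d => ∀ e' ∈ insert (u, i) J, π e'.2 e'.1 ∈ B) ×ˢ univ)
    (t := (univ.filter fun π : Gr n d => ∀ e' ∈ J, π e'.2 e'.1 ∈ B) ×ˢ B) ?_
    (randexp_sw_inv_aux u i _ hu).injective.injOn
  · simpa only [card_product, card_univ, Fintype.card_fin] using key
  · rintro ⟨π, w⟩ hp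
    have h1 : ∀ e' ∈ insert (u, i) J, π e'.2 e'.1 ∈ B :=
      (mem_filter.1 (mem_product.1 (mem_coe.1 hp)).1).2
    rw [mem_coe, mem_product, mem_filter]
    unfold randexp_sw_aux
    split_ifs with h
    · obtain ⟨s, hs, h2⟩ := h
      exact ⟨⟨mem_univ _, fun e' he' => h1 e' (mem_insert_of_mem he')⟩,
        h2 ▸ h1 (s, i) (mem_insert_of_mem (mem_filter.1 hs).2)⟩
    · refine ⟨⟨mem_univ _, ?_⟩, h1 (u, i) (mem_insert_self _ _)⟩
      rintro ⟨s, j⟩ he'
      have h3 := h1 (s, j) (mem_insert_of_mem he')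
      by_cases hj : j = i
      · subst hj
        simp only [Function.update_self, Equiv.Perm.mul_apply]
        rwa [Equiv.swap_apply_of_ne_of_ne (fun h4 => he (by rwa [← (π j).injective h4]))
          (fun h4 => h ⟨s, mem_filter.2 ⟨mem_univ _, he'⟩, h4⟩)]
      · simp only [Function.update_of_ne hj]
        exact h3

/-- The half edges in `J` all land in `B` with probability at most `(|B| / n) ^ |J|`. -/
theorem card_land (J : Finset (Fin n × Fin d)) (B : Finset (Fin n)) :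
    (univ.filter fun π : Gr n d => ∀ e ∈ J, π e.2 e.1 ∈ B).card * n ^ J.card ≤
      B.card ^ J.card * Fintype.card (Gr n d) := by
  induction J using Finset.induction_on with
  | empty => simp
  | insert e J he ih =>
    have h := randexp_step_aux J B e he
    rw [card_insert_of_notMem he, pow_succ', pow_succ', ← mul_assoc, mul_assoc B.card]
    refine (Nat.mul_le_mul_right _ h).trans ?_
    rw [mul_comm _ B.card, mul_assoc]
    exact Nat.mul_le_mul_left _ ih

theorem randexp_choose_aux (n m : ℕ) (hm : 0 < m) :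
    (n.choose m : ℝ) ≤ (Real.exp 1 * (n / m)) ^ m := by
  have h1 := Nat.choose_le_pow_div (α := ℝ) m n
  have h2 := Real.pow_div_factorial_le_exp (m : ℝ) (Nat.cast_nonneg m) m
  have hm' : (0 : ℝ) < m := by exact_mod_cast hm
  refine h1.trans ?_
  rw [mul_pow, ← Real.exp_nat_mul, mul_one, div_pow]
  calc (n : ℝ) ^ m / m.factorial = (m : ℝ) ^ m / m.factorial * ((n : ℝ) ^ m / (m : ℝ) ^ m) := by
        field_simp
    _ ≤ _ := mul_le_mul_of_nonneg_right h2 (by positivity)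

theorem randexp_choose2_aux (N j : ℕ) {t : ℝ} (ht : 0 < t) :
    (N.choose j : ℝ) ≤ (1 + t) ^ N / t ^ j := by
  rw [le_div_iff₀ (by positivity)]
  by_cases h : j ≤ N
  · rw [add_comm, add_pow]
    refine le_trans (le_of_eq ?_) (single_le_sum (f := fun k => t ^ k * 1 ^ (N - k) * (N.choose k : ℝ))
      (fun k _ => by positivity) (mem_range.2 (Nat.lt_succ_of_le h)))
    simp [mul_comm]
  · rw [Nat.choose_eq_zero_of_lt (not_le.1 h), Nat.cast_zero, zero_mul]
    positivity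

theorem randexp_geom_aux (k : ℕ) : ∑ m ∈ range k, (1 / 8 : ℝ) ^ (m + 1) ≤ 1 / 7 := by
  have : ∑ m ∈ range k, (1 / 8 : ℝ) ^ (m + 1) = 1 / 7 - 1 / 7 * (1 / 8) ^ k := by
    induction k with
    | zero => simp
    | succ k ih => rw [sum_range_succ, ih]; ring
  rw [this]
  have : (0 : ℝ) ≤ 1 / 7 * (1 / 8) ^ k := by positivity
  linarith

/-- The event that two sets of size `m` span at least `α m` edges. -/
noncomputable def randexp_ev_aux (n d α m : ℕ) : Finset (Gr n d) :=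
  (powersetCard m univ).biUnion fun A : Finset (Fin n) =>
    (powersetCard m univ).biUnion fun B : Finset (Fin n) =>
      (powersetCard (α * m) (A ×ˢ (univ : Finset (Fin d)))).biUnion fun J =>
        univ.filter fun π : Gr n d => ∀ e ∈ J, π e.2 e.1 ∈ B

theorem randexp_ev_card_aux (α m : ℕ) (hm : 0 < m) (hn : m ≤ n) (hα : 2 ≤ α) {t : ℝ} (ht : 0 < t) :
    ((randexp_ev_aux n d α m).card : ℝ) ≤
      (Real.exp 2 * (1 + t) ^ d / t ^ α * ((m : ℝ) / n) ^ (α - 2)) ^ m * Fintype.card (Gr n d) := by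
  have hm' : (0 : ℝ) < m := by exact_mod_cast hm
  have hn' : (0 : ℝ) < n := by exact_mod_cast hm.trans_le hn
  have h1 : ∀ (B : Finset (Fin n)) (J : Finset (Fin n × Fin d)), B.card = m → J.card = α * m →
      ((univ.filter fun π : Gr n d => ∀ e ∈ J, π e.2 e.1 ∈ B).card : ℝ) ≤
        ((m : ℝ) / n) ^ (α * m) * Fintype.card (Gr n d) := by
    intro B J hB hJ
    have := card_land J B
    rw [hB, hJ] at this
    rw [div_pow, div_mul_eq_mul_div, le_div_iff₀ (by positivity)]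
    exact_mod_cast this
  have h2 : ((randexp_ev_aux n d α m).card : ℝ) ≤ (n.choose m : ℝ) * ((n.choose m : ℝ) *
      (((m * d).choose (α * m) : ℝ) * (((m : ℝ) / n) ^ (α * m) * Fintype.card (Gr n d)))) := by
    unfold randexp_ev_aux
    refine (Nat.cast_le.2 card_biUnion_le).trans ?_
    rw [Nat.cast_sum]
    refine (sum_le_card_nsmul _ _ _ fun A hA => ?_).trans
      (by rw [card_powersetCard, card_univ, Fintype.card_fin, nsmul_eq_mul])
    refine (Nat.cast_le.2 card_biUnion_le).trans ?_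
    rw [Nat.cast_sum]
    refine (sum_le_card_nsmul _ _ _ fun B hB => ?_).trans
      (by rw [card_powersetCard, card_univ, Fintype.card_fin, nsmul_eq_mul])
    refine (Nat.cast_le.2 card_biUnion_le).trans ?_
    rw [Nat.cast_sum]
    refine (sum_le_card_nsmul _ _ _ fun J hJ => h1 B J (mem_powersetCard.1 hB).2
      (mem_powersetCard.1 hJ).2).trans ?_
    rw [card_powersetCard, card_product, (mem_powersetCard.1 hA).2, card_univ, Fintype.card_fin,
      nsmul_eq_mul]
  refine h2.trans ?_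
  have h3 := randexp_choose_aux n m hm
  have h4 := randexp_choose2_aux (m * d) (α * m) ht
  obtain ⟨k, rfl⟩ := Nat.exists_eq_add_of_le hα
  have e : (Real.exp 2 * (1 + t) ^ d / t ^ (2 + k) * ((m : ℝ) / n) ^ (2 + k - 2)) ^ m *
      Fintype.card (Gr n d) = (Real.exp 1 * (n / m)) ^ m * ((Real.exp 1 * (n / m)) ^ m *
        ((1 + t) ^ (m * d) / t ^ ((2 + k) * m) *
          (((m : ℝ) / n) ^ ((2 + k) * m) * Fintype.card (Gr n d)))) := by
    have e2 : Real.exp 2 = Real.exp 1 * Real.exp 1 := by rw [← Real.exp_add]; norm_num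
    rw [Nat.add_sub_cancel_left, e2, mul_comm m d, pow_mul, pow_mul, pow_mul, ← div_pow,
      ← mul_assoc, ← mul_assoc, ← mul_assoc, ← mul_pow, ← mul_pow, ← mul_pow]
    congr 2
    rw [pow_add ((m : ℝ) / n)]
    field_simp
  rw [e]
  gcongr

theorem card_not_exp (α a b : ℕ) (t : ℝ) (ht : 0 < t) (hα : 2 ≤ α) (hb : 0 < b) (hab : a ≤ b)
    (h : Real.exp 2 * (1 + t) ^ d / t ^ α * ((a : ℝ) / b) ^ (α - 2) ≤ 1 / 8) :
    7 * (univ.filter fun π : Gr n d => ¬ Exp π α a b).card ≤ Fintype.card (Gr n d) := by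
  have hb' : (0 : ℝ) < b := by exact_mod_cast hb
  have hsub : (univ.filter fun π : Gr n d => ¬ Exp π α a b) ⊆
      ((range n).filter fun m => b * (m + 1) ≤ a * n).biUnion
        fun m => randexp_ev_aux n d α (m + 1) := by
    intro π hπ
    have h1 := (mem_filter.1 hπ).2
    unfold Exp at h1
    push Not at h1
    obtain ⟨A, B, m, hA, hB, hm, hbm, hec⟩ := h1
    have hmn : m ≤ n := Nat.le_of_mul_le_mul_left (hbm.trans (Nat.mul_le_mul_right n hab)) hb
    obtain ⟨A', hA1, hA2⟩ := exists_superset_card_eq hA (by rwa [Fintype.card_fin])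
    obtain ⟨B', hB1, hB2⟩ := exists_superset_card_eq hB (by rwa [Fintype.card_fin])
    obtain ⟨J, hJ1, hJ2⟩ := exists_subset_card_eq hec
    obtain ⟨k, rfl⟩ : ∃ k, m = k + 1 := ⟨m - 1, by omega⟩
    refine mem_biUnion.2 ⟨k, mem_filter.2 ⟨mem_range.2 hmn, hbm⟩, ?_⟩
    refine mem_biUnion.2 ⟨A', mem_powersetCard.2 ⟨subset_univ _, hA2⟩, ?_⟩
    refine mem_biUnion.2 ⟨B', mem_powersetCard.2 ⟨subset_univ _, hB2⟩, ?_⟩
    refine mem_biUnion.2 ⟨J, mem_powersetCard.2 ⟨fun e he => ?_, hJ2⟩, ?_⟩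
    · exact mem_product.2 ⟨hA1 (mem_filter.1 (hJ1 he)).2.1, mem_univ _⟩
    · exact mem_filter.2 ⟨mem_univ _, fun e he => hB1 (mem_filter.1 (hJ1 he)).2.2⟩
  have h2 : ∀ m ∈ (range n).filter fun m => b * (m + 1) ≤ a * n,
      ((randexp_ev_aux n d α (m + 1)).card : ℝ) ≤ (1 / 8) ^ (m + 1) * Fintype.card (Gr n d) := by
    intro m hm
    obtain ⟨h3, h4⟩ := mem_filter.1 hm
    have h5 := mem_range.1 h3
    have hn' : (0 : ℝ) < n := by exact_mod_cast (Nat.zero_le m).trans_lt h5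
    refine (randexp_ev_card_aux α (m + 1) m.succ_pos h5 hα ht).trans ?_
    have h6 : (((m + 1 : ℕ) : ℝ) / n) ≤ (a : ℝ) / b := by
      rw [div_le_div_iff₀ hn' hb', mul_comm]
      exact_mod_cast h4
    refine mul_le_mul_of_nonneg_right (pow_le_pow_left₀ (by positivity) (le_trans ?_ h) _)
      (Nat.cast_nonneg _)
    gcongr
  have h7 : ((univ.filter fun π : Gr n d => ¬ Exp π α a b).card : ℝ) ≤
      1 / 7 * Fintype.card (Gr n d) := by
    refine (Nat.cast_le.2 ((card_le_card hsub).trans card_biUnion_le)).trans ?_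
    rw [Nat.cast_sum]
    refine (sum_le_sum h2).trans ?_
    rw [← sum_mul]
    refine mul_le_mul_of_nonneg_right (le_trans ?_ (randexp_geom_aux n)) (Nat.cast_nonneg _)
    exact sum_le_sum_of_subset_of_nonneg (filter_subset _ _) fun _ _ _ => by positivity
  have h8 : (7 : ℝ) * ((univ.filter fun π : Gr n d => ¬ Exp π α a b).card : ℝ) ≤
      Fintype.card (Gr n d) := by linarith
  exact_mod_cast h8

theorem randexp_num_aux {r : ℝ} (h0 : 0 < r) (h1 : r < 1) : ∃ D : ℕ, ∀ k : ℕ, D ≤ k → 11 ≤ k →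
    Real.exp 2 * (1 + (k : ℝ)) ^ k / (k : ℝ) ^ (k - 9) * r ^ (k - 9 - 2) ≤ 1 / 8 := by
  have ht := (tendsto_pow_const_mul_const_pow_of_abs_lt_one 9
    (show |r| < 1 by rwa [abs_of_pos h0])).const_mul (Real.exp 2 * Real.exp 1 / r ^ 11)
  rw [mul_zero] at ht
  obtain ⟨D, hD⟩ := Filter.eventually_atTop.1 (ht.eventually_le_const (show (0 : ℝ) < 1 / 8 by norm_num))
  refine ⟨D, fun k hk hk' => le_trans ?_ (hD k hk)⟩
  obtain ⟨j, rfl⟩ := Nat.exists_eq_add_of_le' hk'
  have hp : (0 : ℝ) < ((j + 11 : ℕ) : ℝ) := by positivity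
  generalize hx : ((j + 11 : ℕ) : ℝ) = x at hp
  have a1 : (1 + x) ^ (j + 11) ≤ Real.exp 1 * x ^ (j + 11) := by
    have b1 : 1 + x ≤ Real.exp (1 / x) * x := by
      have := mul_le_mul_of_nonneg_right (Real.add_one_le_exp (1 / x)) hp.le
      rw [add_mul, one_div_mul_cancel hp.ne', one_mul] at this
      exact this
    refine (pow_le_pow_left₀ (by positivity) b1 _).trans (le_of_eq ?_)
    rw [mul_pow, ← Real.exp_nat_mul, hx, mul_one_div_cancel hp.ne']
  rw [show j + 11 - 9 - 2 = j by omega, show j + 11 - 9 = j + 2 by omega]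
  calc Real.exp 2 * (1 + x) ^ (j + 11) / x ^ (j + 2) * r ^ j
      ≤ Real.exp 2 * (Real.exp 1 * x ^ (j + 11)) / x ^ (j + 2) * r ^ j := by gcongr
    _ = _ := by field_simp; ring

theorem randexp_num2_aux (c : ℕ) (hc : 60 ≤ c) :
    Real.exp 2 * (1 + (1 : ℝ)) ^ (12 * c) / (1 : ℝ) ^ (c - 2) *
      (((1 : ℕ) : ℝ) / ((2 ^ 13 : ℕ) : ℝ)) ^ (c - 2 - 2) ≤ 1 / 8 := by
  obtain ⟨j, rfl⟩ := Nat.exists_eq_add_of_le' hc
  have e2 : Real.exp 2 ≤ 2 ^ 4 := by
    have : Real.exp 2 = Real.exp 1 * Real.exp 1 := by rw [← Real.exp_add]; norm_num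
    have h := Real.exp_one_lt_d9
    have h' := Real.exp_pos 1
    nlinarith
  rw [show j + 60 - 2 - 2 = j + 56 by omega, one_pow, div_one, one_add_one_eq_two, Nat.cast_pow,
    Nat.cast_one, Nat.cast_ofNat, div_pow, one_pow, ← pow_mul, mul_one_div,
    div_le_iff₀ (by positivity)]
  calc Real.exp 2 * 2 ^ (12 * (j + 60)) ≤ 2 ^ 4 * 2 ^ (12 * (j + 60)) := by gcongr
    _ = 1 / 8 * 2 ^ (7 + 12 * (j + 60)) := by
      rw [pow_add (2 : ℝ) 7]; generalize (2 : ℝ) ^ (12 * (j + 60)) = x; ring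
    _ ≤ _ := by
      apply mul_le_mul_of_nonneg_left _ (by norm_num)
      exact pow_le_pow_right₀ (by norm_num) (by omega)

/-- Numerical parameters for the two expansion properties. -/
theorem exists_num : ∃ B c : ℕ, 0 < B ∧ 12 * B ≤ c ∧ 4 ≤ c ∧
    Real.exp 2 * (1 + ((12 * c : ℕ) : ℝ)) ^ (12 * c) / ((12 * c : ℕ) : ℝ) ^ (12 * c - 9) *
      (((3 * B - 1 : ℕ) : ℝ) / (3 * B : ℕ)) ^ (12 * c - 9 - 2) ≤ 1 / 8 ∧
    Real.exp 2 * (1 + (1 : ℝ)) ^ (12 * c) / (1 : ℝ) ^ (c - 2) *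
      (((1 : ℕ) : ℝ) / (B : ℕ)) ^ (c - 2 - 2) ≤ 1 / 8 := by
  have key : ∀ B : ℕ, 0 < B → ∃ D : ℕ, ∀ c : ℕ, D ≤ c → 1 ≤ c →
      Real.exp 2 * (1 + ((12 * c : ℕ) : ℝ)) ^ (12 * c) / ((12 * c : ℕ) : ℝ) ^ (12 * c - 9) *
        (((3 * B - 1 : ℕ) : ℝ) / (3 * B : ℕ)) ^ (12 * c - 9 - 2) ≤ 1 / 8 := by
    intro B hB
    have h3 : (0 : ℝ) < (3 * B : ℕ) := by exact_mod_cast (by omega : 0 < 3 * B)
    obtain ⟨D, hD⟩ := randexp_num_aux (r := ((3 * B - 1 : ℕ) : ℝ) / (3 * B : ℕ))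
      (div_pos (by exact_mod_cast (by omega : 0 < 3 * B - 1)) h3)
      (by rw [div_lt_one h3]; exact_mod_cast (by omega : 3 * B - 1 < 3 * B))
    exact ⟨D, fun c hc hc' => hD (12 * c) (by omega) (by omega)⟩
  obtain ⟨D, hD⟩ := key (2 ^ 13) (by norm_num)
  exact ⟨2 ^ 13, D + 12 * 2 ^ 13 + 60, by norm_num, by omega, by omega,
    hD _ (by omega) (by omega), randexp_num2_aux _ (by omega)⟩

end Vale.Agent.P089
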