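import Mathlib

/-! Statement level definitions: the reduced group C*-algebra, projections, the trace. -/

namespace Vale.Agent.P089.Stmt

/-- The Hilbert space `ℓ²(G)`. -/
abbrev Ell2 (G : Type) : Type := lp (fun _ : G => ℂ) 2

/-- Bounded operators on a complex Hilbert space. -/
abbrev BOp (H : Type) [NormedAddCommGroup H] [InnerProductSpace ℂ H] : Type := H →L[ℂ] H

/-- The closure of the complex span of a set in a normed space. -/
def closedSpan {A : Type} [NormedAddCommGroup A] [NormedSpace ℂ A] (s : Set A) : Set A :=
  closure (Submodule.span ℂ s : Set A)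

/-- The operator norm closure of the complex span of a set of operators. -/
def opClosedSpan {H : Type} [NormedAddCommGroup H] [InnerProductSpace ℂ H] (s : Set (BOp H)) :
    Set (BOp H) := closedSpan s

/-- Orthogonal projections: selfadjoint idempotent operators. -/
def IsProjection {H : Type} [NormedAddCommGroup H] [InnerProductSpace ℂ H] [CompleteSpace H]
    (q : BOp H) : Prop := ContinuousLinearMap.adjoint q = q ∧ q.comp q = q

/-- The value of an operator on a vector. -/
def app {H : Type} [NormedAddCommGroup H] [InnerProductSpace ℂ H] (T : BOp H) (ξ : H) : H := T ξ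

/-- The value of a square summable function at a point. -/
def coord {G : Type} (ξ : Ell2 G) (g : G) : ℂ := ξ g

/-- The left translation operators `(λ(g) ξ)(h) = ξ(g⁻¹ h)`. -/
def leftRegular (G : Type) [Group G] : Set (BOp (Ell2 G)) :=
  {T | ∃ g : G, ∀ (ξ : Ell2 G) (h : G), coord (app T ξ) h = coord ξ (g⁻¹ * h)}

/-- The reduced group C*-algebra. -/
def CStarRed (G : Type) [Group G] : Set (BOp (Ell2 G)) := opClosedSpan (leftRegular G)

open Classical in
/-- The unit vector at the identity element. -/
noncomputable def delta (G : Type) [Group G] : Ell2 G := lp.single 2 (1 : G) (1 : ℂ)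

/-- The canonical trace: the value of `T δ_e` at the identity. -/
noncomputable def trace {G : Type} [Group G] (T : BOp (Ell2 G)) : ℂ := coord (app T (delta G)) 1

end Vale.Agent.P089.Stmt
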