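import Vale.Agent.P089.Ker
import Vale.Agent.P089.Iso
import Vale.Agent.P089.Fourier
import Vale.Agent.P089.Geo
import Vale.Agent.P089.Label

/-! The trace of the limit projection, and uncountably many trace values. -/

namespace Vale.Agent.P089

open Finset Vale.Agent.P086

open scoped Classical

namespace Par

namespace Tower

variable {P : Par} (X : P.Tower)

/-- The contribution of one level to the trace. -/
noncomputable def term (k : ℕ) : ℝ := if k ∈ X.on then ((P.p : ℝ) ^ (X.lev k).D)⁻¹ else 0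

theorem trace_n_aux (P : Par) (k : ℕ) : k + 1 ≤ P.n k := by
  rcases k with _ | k
  · exact P.n_pos 0
  · have h1 := P.n_succ k
    have h2 := P.n_pos k
    have h3 := P.c_pos
    have h4 : 0 < 44 * P.c * P.n k := by positivity
    omega

theorem trace_p_aux (P : Par) : (3 : ℝ) ≤ P.p := by
  have h1 := P.hp2
  have h2 : 2 ^ 1 ≤ 2 ^ (13 * P.B) := Nat.pow_le_pow_right (by norm_num) (by have := P.hB; omega)
  exact_mod_cast (by omega : 3 ≤ P.p)

theorem trace_nonneg_aux (k : ℕ) : 0 ≤ X.term k := by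
  unfold term
  split_ifs
  · positivity
  · exact le_rfl

theorem trace_le_aux (k : ℕ) : X.term k ≤ ((P.p : ℝ) ^ (X.lev k).D)⁻¹ := by
  unfold term
  split_ifs
  · exact le_rfl
  · positivity

theorem trace_D_aux (k j : ℕ) : (X.lev k).D + j ≤ (X.lev (k + j)).D := by
  induction j with
  | zero => exact le_rfl
  | succ j ih =>
    have := (X.lev (k + j)).D_lt (X.lev (k + j + 1))
    show _ ≤ (X.lev (k + j + 1)).D
    omega

theorem trace_geo_aux (k j : ℕ) :
    X.term (k + j) ≤ ((P.p : ℝ) ^ (X.lev k).D)⁻¹ * (1 / 3) ^ j := by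
  have hp := trace_p_aux P
  refine (X.trace_le_aux _).trans ?_
  rw [one_div, inv_pow, ← mul_inv]
  refine inv_anti₀ (by positivity) ?_
  calc (P.p : ℝ) ^ (X.lev k).D * 3 ^ j ≤ (P.p : ℝ) ^ (X.lev k).D * (P.p : ℝ) ^ j := by gcongr
    _ = (P.p : ℝ) ^ ((X.lev k).D + j) := (pow_add _ _ _).symm
    _ ≤ _ := pow_le_pow_right₀ (by linarith) (X.trace_D_aux k j)

theorem summable_term : Summable X.term := by
  refine Summable.of_nonneg_of_le X.trace_nonneg_aux (fun j => ?_)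
    ((summable_geometric_of_lt_one (r := 1 / 3) (by norm_num) (by norm_num)).mul_left
      ((P.p : ℝ) ^ (X.lev 0).D)⁻¹)
  simpa only [zero_add] using X.trace_geo_aux 0 j

theorem trace_blk_aux {G : Type} [Group G] (Θ : Geo X.Ed G) (m : ℕ) (y : A Θ →ₗ[P.F] P.F) :
    |((blk Θ y 1).card : ℝ)⁻¹ - ∑ k ∈ range m, ∑ u : Fin (P.n k),
      (if Intact Θ y 1 ⟨k, (u, false)⟩ then (1 : ℝ) else 0) * (P.n k : ℝ)⁻¹| ≤ 1 / (m + 1 : ℝ) := by
  by_cases hg : ∃ k u, Intact Θ y 1 ⟨k, (u, false)⟩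
  · obtain ⟨k₀, u₀, hi⟩ := hg
    have h1 : ∀ k, k ≠ k₀ → ∑ u : Fin (P.n k),
        (if Intact Θ y 1 ⟨k, (u, false)⟩ then (1 : ℝ) else 0) * (P.n k : ℝ)⁻¹ = 0 := by
      intro k hk
      refine Finset.sum_eq_zero fun u _ => ?_
      have hni : ¬ Intact Θ y 1 ⟨k, (u, false)⟩ := fun h =>
        hk (congrArg Sigma.fst (intact_unique Θ y h hi rfl))
      rw [if_neg hni, zero_mul]
    rw [card_blk Θ y hi]
    by_cases hk : k₀ < m
    · rw [Finset.sum_eq_single k₀ (fun k _ hk => h1 k hk) fun h => absurd (mem_range.2 hk) h,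
        Finset.sum_eq_single u₀, if_pos hi, one_mul, sub_self, abs_zero]
      · positivity
      · intro u _ hu
        have hni : ¬ Intact Θ y 1 ⟨k₀, (u, false)⟩ := fun h => hu (congrArg Prod.fst
          (eq_of_heq (Sigma.mk.inj (intact_unique Θ y h hi rfl)).2))
        rw [if_neg hni, zero_mul]
      · simp
    · rw [Finset.sum_eq_zero fun k hk' => h1 k (by have := mem_range.1 hk'; omega), sub_zero,
        abs_of_nonneg (by positivity), one_div]
      refine inv_anti₀ (by positivity) ?_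
      have := trace_n_aux P k₀
      exact_mod_cast (by omega : m + 1 ≤ P.n k₀)
  · rw [blk_of_not Θ y fun k u hi => hg ⟨k, u, hi⟩, Finset.sum_eq_zero fun k _ =>
      Finset.sum_eq_zero fun u _ => by rw [if_neg fun hi => hg ⟨k, u, hi⟩, zero_mul]]
    simp only [card_empty, Nat.cast_zero, inv_zero, sub_zero, abs_zero]
    positivity

theorem trace_cnt_aux {G : Type} [Group G] {Θ : Geo X.Ed G} {k : ℕ} (C : Copy Θ k)
    {x : Vx (P.n k)} (h : C.ι x = 1) {N : ℕ} {y : Fin N → A Θ →ₗ[P.F] P.F}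
    (hy : Ortho (Set.range C.Phi) y) :
    ∑ j, (if Intact Θ (y j) 1 ⟨k, x⟩ then (1 : ℝ) else 0) = N * ((P.p : ℝ) ^ (X.lev k).D)⁻¹ := by
  have hp := trace_p_aux P
  have hk := C.ker_Phi h
  have h1 := Ortho.count C.Phi (X.lev k).tot
    (fun a ha => (X.lev k).tot_RX (by rw [← hk]; exact ha)) hy
  rw [hk] at h1
  have h2 : ∀ j, Intact Θ (y j) 1 ⟨k, x⟩ ↔ y j ∘ₗ C.Phi = (X.lev k).tot := by
    intro j
    rw [← h]
    exact C.intact_iff_Phi (y j) x
  simp only [h2]
  have h3 := congrArg (Nat.cast : ℕ → ℝ) h1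
  rw [Nat.cast_mul, Nat.cast_pow] at h3
  rw [sum_boole, eq_mul_inv_iff_mul_eq₀ (by positivity), Lev.D]
  convert h3 using 5

theorem avg_bound {G : Type} [Group G] (Θ : Geo X.Ed G) (m : ℕ) :
    ∃ T : Set (A Θ), T.Finite ∧ ∀ (N : ℕ) (y : Fin N → A Θ →ₗ[P.F] P.F), Ortho T y →
      |(N : ℝ)⁻¹ * ∑ j, ((blk Θ (y j) 1).card : ℝ)⁻¹ - ∑ k ∈ range m, X.term k| ≤
        1 / (m + 1 : ℝ) := by
  choose Cp hCp using fun k (hk : k ∈ X.on) (u : Fin (P.n k)) => exists_copy Θ 1 hk (u, false)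
  refine ⟨⋃ k ∈ range m, ⋃ (hk : k ∈ X.on), ⋃ u, Set.range (Cp k hk u).Phi,
    Set.Finite.biUnion (finite_toSet _) fun k _ => Set.finite_iUnion fun hk =>
      Set.finite_iUnion fun u => Set.finite_range _, fun N y hy => ?_⟩
  have hN : (0 : ℝ) < N := by exact_mod_cast hy.1
  have hp := trace_p_aux P
  have hcnt : ∀ k ∈ range m, ∀ u : Fin (P.n k),
      ∑ j, (if Intact Θ (y j) 1 ⟨k, (u, false)⟩ then (1 : ℝ) else 0) = N * X.term k := by
    intro k hk u
    unfold term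
    split_ifs with hon
    · exact X.trace_cnt_aux (Cp k hon u) (hCp k hon u)
        (hy.mono fun a ha => Set.mem_iUnion₂.2 ⟨k, hk, Set.mem_iUnion₂.2 ⟨hon, u, ha⟩⟩)
    · rw [mul_zero]
      exact Finset.sum_eq_zero fun j _ => if_neg fun h => hon h.1
  have h3 : ∑ k ∈ range m, X.term k = (N : ℝ)⁻¹ * ∑ j, ∑ k ∈ range m, ∑ u : Fin (P.n k),
      (if Intact Θ (y j) 1 ⟨k, (u, false)⟩ then (1 : ℝ) else 0) * (P.n k : ℝ)⁻¹ := by
    rw [Finset.sum_comm, Finset.mul_sum]
    refine Finset.sum_congr rfl fun k hk => ?_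
    rw [Finset.sum_comm]
    simp only [← Finset.sum_mul, hcnt k hk, sum_const, card_univ, Fintype.card_fin, nsmul_eq_mul]
    have : (0 : ℝ) < P.n k := by exact_mod_cast P.n_pos k
    field_simp
  rw [h3, ← mul_sub, ← Finset.sum_sub_distrib, abs_mul, abs_of_pos (inv_pos.2 hN),
    inv_mul_le_iff₀ hN]
  refine (abs_sum_le_sum_abs _ _).trans ((Finset.sum_le_sum fun j _ =>
    X.trace_blk_aux Θ m (y j)).trans (le_of_eq ?_))
  simp

theorem exists_proj : ∃ (Γ : Type) (_ : Group Γ) (_ : Countable Γ), ∃ q ∈ reducedCStar Γ,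
    IsSelfAdjoint q ∧ q * q = q ∧ canonicalTrace q = ((∑' k, X.term k : ℝ) : ℂ) := by
  have hd : 0 < P.d := by
    have := P.c_pos
    unfold d
    omega
  haveI : Nonempty P.S := ⟨(⟨0, hd⟩, 0, 0)⟩
  obtain ⟨G, _, _, ⟨Θ⟩⟩ := exists_geo X.sc
  obtain ⟨q, hq, h1, h2, h3⟩ := transfer (p := P.p) (A := A Θ) hd (fun s => Θ.ed (s, true))
    (fun i => nd Θ (1, false) (P.ea i)) (fun i => nd Θ (1, false) (P.eb i)) (sig Θ)
    (fun y i g => by
      rw [sig_apply, smul_nd, smul_nd, mul_one]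
      simp [labY, labF]) (blocks Θ)
  refine ⟨SD (A Θ) G, inferInstance, inferInstance, q, hq, h1, h2, ?_⟩
  refine eq_of_forall_dist_le fun ε hε => ?_
  obtain ⟨T, hT, h4⟩ := h3 (ε / 3) (by positivity)
  have h5 := (Metric.tendsto_atTop.1 X.summable_term.hasSum.tendsto_sum_nat) (ε / 3)
    (by positivity)
  have h6 := (Metric.tendsto_atTop.1 (tendsto_one_div_add_atTop_nhds_zero_nat (𝕜 := ℝ))) (ε / 3)
    (show (0 : ℝ) < ε / 3 by positivity)
  obtain ⟨m₁, h5⟩ := h5
  obtain ⟨m₂, h6⟩ := h6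
  replace h5 := h5 (max m₁ m₂) (le_max_left _ _)
  replace h6 := h6 (max m₁ m₂) (le_max_right _ _)
  obtain ⟨T', hT', h7⟩ := X.avg_bound Θ (max m₁ m₂)
  obtain ⟨N, y, hy⟩ := exists_ortho (p := P.p) (hT.union hT')
  replace h4 := h4 N y (hy.mono Set.subset_union_left)
  replace h7 := h7 N y (hy.mono Set.subset_union_right)
  rw [Real.dist_eq, sub_zero] at h6
  rw [Real.dist_eq] at h5
  have h8 := (le_abs_self _).trans_lt h6
  refine (dist_triangle _ (((N : ℝ)⁻¹ * ∑ j, ((blk Θ (y j) 1).card : ℝ)⁻¹ : ℝ) : ℂ) _).trans ?_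
  rw [Complex.dist_eq, Complex.dist_eq, ← Complex.ofReal_sub, Complex.norm_real, Real.norm_eq_abs]
  have h9 := abs_sub_le ((N : ℝ)⁻¹ * ∑ j, ((blk Θ (y j) 1).card : ℝ)⁻¹)
    (∑ k ∈ range (max m₁ m₂), X.term k) (∑' k, X.term k)
  have h10 : ‖canonicalTrace q - (((N : ℝ)⁻¹ * ∑ j, ((blk Θ (y j) 1).card : ℝ)⁻¹ : ℝ) : ℂ)‖ ≤
    ε / 3 := h4
  linarith

theorem trace_lt_aux {a a' : Set ℕ} {k : ℕ} (h : ∀ j < k, j ∈ a ↔ j ∈ a') (hk : k ∈ a)
    (hk' : k ∉ a') : ∑' j, ({ X with on := a' } : P.Tower).term j <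
      ∑' j, ({ X with on := a } : P.Tower).term j := by
  set Y : P.Tower := { X with on := a } with hY
  set Y' : P.Tower := { X with on := a' } with hY'
  have hp := trace_p_aux P
  rw [← Y.summable_term.sum_add_tsum_nat_add (k + 1),
    ← Y'.summable_term.sum_add_tsum_nat_add (k + 1), sum_range_succ, sum_range_succ]
  have h1 : ∑ j ∈ range k, Y'.term j = ∑ j ∈ range k, Y.term j :=
    Finset.sum_congr rfl fun j hj => if_congr (h j (mem_range.1 hj)).symm rfl rfl
  have h2 : Y'.term k = 0 := if_neg hk'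
  have h3 : Y.term k = ((P.p : ℝ) ^ (X.lev k).D)⁻¹ := if_pos hk
  have h4 : 0 ≤ ∑' j, Y.term (j + (k + 1)) := tsum_nonneg fun j => Y.trace_nonneg_aux _
  have h5 := (hasSum_geometric_of_lt_one (r := (1 / 3 : ℝ)) (by norm_num) (by norm_num)).mul_left
    (((P.p : ℝ) ^ (X.lev k).D)⁻¹ * (1 / 3))
  have h6 : ∑' j, Y'.term (j + (k + 1)) ≤ ((P.p : ℝ) ^ (X.lev k).D)⁻¹ * (1 / 3) * (1 - 1 / 3)⁻¹ := by
    refine hasSum_le (fun j => ?_) ((summable_nat_add_iff (k + 1)).2 Y'.summable_term).hasSum h5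
    have h7 := Y'.trace_geo_aux k (j + 1)
    rw [show j + (k + 1) = k + (j + 1) by ring, mul_assoc, ← pow_succ']
    exact h7
  have h7 : 0 < ((P.p : ℝ) ^ (X.lev k).D)⁻¹ := by positivity
  rw [h1, h2, h3]
  norm_num at h6
  linarith

theorem term_injective :
    Function.Injective fun a : Set ℕ => ∑' k, ({ X with on := a } : P.Tower).term k := by
  intro a a' h
  by_contra hne
  have hex : ∃ k, ¬ (k ∈ a ↔ k ∈ a') := by
    by_contra hc
    exact hne (Set.ext fun k => not_not.1 fun hk => hc ⟨k, hk⟩)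
  have h1 := Nat.find_spec hex
  have h2 : ∀ j < Nat.find hex, j ∈ a ↔ j ∈ a' := fun j hj => not_not.1 (Nat.find_min hex hj)
  by_cases hk : Nat.find hex ∈ a
  · exact (X.trace_lt_aux h2 hk fun h' => h1 (iff_of_true hk h')).ne' h
  · exact (X.trace_lt_aux (fun j hj => (h2 j hj).symm)
      (not_not.1 fun h' => h1 (iff_of_false hk h')) hk).ne h

end Tower

end Par

/-- The traces of projections in reduced group C*-algebras of countable groups. -/
def traceValues : Set ℝ :=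
  {t | ∃ (Γ : Type) (_ : Group Γ) (_ : Countable Γ), ∃ q ∈ reducedCStar Γ,
    IsSelfAdjoint q ∧ q * q = q ∧ canonicalTrace q = (t : ℂ)}

theorem traceValues_uncountable : ¬ traceValues.Countable := by
  obtain ⟨P⟩ := exists_par
  obtain ⟨X⟩ := P.exists_tower
  intro h
  have h1 : (Set.range fun a : Set ℕ =>
      ∑' k, ({ X with on := a } : P.Tower).term k).Countable := by
    refine h.mono ?_
    rintro _ ⟨a, rfl⟩
    exact Par.Tower.exists_proj _
  have h2 : Countable (Set ℕ) := by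
    have := h1.to_subtype
    exact Function.Injective.countable (f := Set.rangeFactorization _)
      (Set.rangeFactorization_injective.2 X.term_injective)
  obtain ⟨f, hf⟩ := exists_surjective_nat (Set ℕ)
  exact Function.cantor_surjective f hf

end Vale.Agent.P089
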