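import Mathlib

/-! Coloured regular bipartite graphs given by a family of permutations. -/

namespace Vale.Agent.P089

open Finset

variable {n d : ℕ}

/-- Vertices: `(u, false)` is a source, `(u, true)` is a target. -/
abbrev Vx (n : ℕ) : Type := Fin n × Bool

/-- The graphs: colour `i` joins the source `u` to the target `π i u`. -/
abbrev Gr (n d : ℕ) : Type := Fin d → Equiv.Perm (Fin n)

/-- The other end of the edge of colour `i` at `v`. -/
def mv (π : Gr n d) (v : Vx n) (i : Fin d) : Vx n :=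
  (if v.2 then (π i).symm v.1 else π i v.1, !v.2)

/-- The name of the edge of colour `i` at `v`: its source and its colour. -/
def key (π : Gr n d) (v : Vx n) (i : Fin d) : Fin n × Fin d :=
  (if v.2 then (π i).symm v.1 else v.1, i)

/-- The walk following a sequence of colours. -/
def walk (π : Gr n d) (v : Vx n) (cs : ℕ → Fin d) : ℕ → Vx n
  | 0 => v
  | t + 1 => mv π (walk π v cs t) (cs t)

/-- The first `R` colours have no immediate repetition. -/
def Red (cs : ℕ → Fin d) (R : ℕ) : Prop := ∀ t, t + 1 < R → cs t ≠ cs (t + 1)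

/-- No closed reduced walk of length below `g`. -/
def Girth (π : Gr n d) (g : ℕ) : Prop :=
  ∀ (v : Vx n) (cs : ℕ → Fin d) (L : ℕ), 0 < L → L < g → Red cs L → walk π v cs L ≠ v

/-- The number of edges from the sources `A` to the targets `B`. -/
def ec (π : Gr n d) (A B : Finset (Fin n)) : ℕ :=
  (univ.filter fun e : Fin n × Fin d => e.1 ∈ A ∧ π e.2 e.1 ∈ B).card

/-- Expansion: sets of size at most `m ≤ (a / b) n` span fewer than `α m` edges. -/
def Exp (π : Gr n d) (α a b : ℕ) : Prop :=
  ∀ (A B : Finset (Fin n)) (m : ℕ), A.card ≤ m → B.card ≤ m → 0 < m → b * m ≤ a * n →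
    ec π A B < α * m

/-- The values of an edge function along a walk. -/
def bw {X : Type} (π : Gr n d) (f : Fin n × Fin d → X) (v : Vx n) (cs : ℕ → Fin d) (t : ℕ) : X :=
  f (key π (walk π v cs t) (cs t))

@[simp] theorem mv_false (π : Gr n d) (u : Fin n) (i : Fin d) :
    mv π (u, false) i = (π i u, true) := rfl

@[simp] theorem mv_true (π : Gr n d) (u : Fin n) (i : Fin d) :
    mv π (u, true) i = ((π i).symm u, false) := rfl

@[simp] theorem key_false (π : Gr n d) (u : Fin n) (i : Fin d) :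
    key π (u, false) i = (u, i) := rfl

@[simp] theorem key_true (π : Gr n d) (u : Fin n) (i : Fin d) :
    key π (u, true) i = ((π i).symm u, i) := rfl

@[simp] theorem mv_mv (π : Gr n d) (v : Vx n) (i : Fin d) : mv π (mv π v i) i = v := by
  rcases v with ⟨u, _ | _⟩ <;> simp

@[simp] theorem mv_snd (π : Gr n d) (v : Vx n) (i : Fin d) : (mv π v i).2 = !v.2 := rfl

@[simp] theorem key_snd (π : Gr n d) (v : Vx n) (i : Fin d) : (key π v i).2 = i := rfl

@[simp] theorem key_mv (π : Gr n d) (v : Vx n) (i : Fin d) : key π (mv π v i) i = key π v i := by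
  rcases v with ⟨u, _ | _⟩ <;> simp

theorem mv_inj (π : Gr n d) (i : Fin d) {v w : Vx n} (h : mv π v i = mv π w i) : v = w := by
  rw [← mv_mv π v i, h, mv_mv]

theorem key_eq (π : Gr n d) {v w : Vx n} {i j : Fin d} (h : key π v i = key π w j) :
    i = j ∧ (v = w ∨ v = mv π w j) := by
  obtain rfl : i = j := congrArg Prod.snd h
  have h1 := congrArg Prod.fst h
  rcases v with ⟨u, _ | _⟩ <;> rcases w with ⟨u', _ | _⟩ <;> simp at h1 <;> simp [← h1]

theorem walk_add (π : Gr n d) (v : Vx n) (cs : ℕ → Fin d) (j : ℕ) :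
    ∀ t, walk π v cs (j + t) = walk π (walk π v cs j) (fun i => cs (j + i)) t
  | 0 => rfl
  | t + 1 => by
    show mv π (walk π v cs (j + t)) (cs (j + t)) = mv π _ _
    rw [walk_add π v cs j t]

theorem walk_congr (π : Gr n d) (v : Vx n) {cs cs' : ℕ → Fin d} :
    ∀ t, (∀ s < t, cs s = cs' s) → walk π v cs t = walk π v cs' t
  | 0, _ => rfl
  | t + 1, h => by
    show mv π _ _ = mv π _ _
    rw [walk_congr π v t fun s hs => h s (by omega), h t (by omega)]

theorem walk_inj (π : Gr n d) (cs : ℕ → Fin d) {v w : Vx n} :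
    ∀ t, walk π v cs t = walk π w cs t → v = w
  | 0, h => h
  | t + 1, h => walk_inj π cs t (mv_inj π _ h)

theorem walk_snd {n' : ℕ} (π : Gr n d) (π' : Gr n' d) {v : Vx n} {w : Vx n'} (h : v.2 = w.2)
    (cs cs' : ℕ → Fin d) : ∀ t, (walk π v cs t).2 = (walk π' w cs' t).2
  | 0 => h
  | t + 1 => by simp only [walk, mv_snd, walk_snd π π' h cs cs' t]

theorem Girth.vert_ne {π : Gr n d} {g : ℕ} (h : Girth π g) (v : Vx n) {cs : ℕ → Fin d} {R : ℕ}
    (hc : Red cs R) {s t : ℕ} (hst : s < t) (ht : t ≤ R) (hg : t < s + g) :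
    walk π v cs s ≠ walk π v cs t := by
  obtain ⟨L, rfl⟩ := Nat.exists_eq_add_of_le hst.le
  intro H
  rw [walk_add] at H
  exact h _ _ L (by omega) (by omega) (fun j hj => hc (s + j) (by omega)) H.symm

theorem Girth.key_ne {π : Gr n d} {g : ℕ} (h : Girth π g) (v : Vx n) {cs : ℕ → Fin d} {R : ℕ}
    (hc : Red cs R) (hg : R < g) {s t : ℕ} (hst : s < t) (ht : t < R) :
    key π (walk π v cs s) (cs s) ≠ key π (walk π v cs t) (cs t) := by
  intro H
  obtain ⟨h1, h2 | h2⟩ := key_eq π H
  · exact h.vert_ne v hc hst ht.le (by omega) h2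
  · exact h.vert_ne v hc (show s < t + 1 by omega) ht (by omega) h2

theorem Girth.mono {π : Gr n d} {g g' : ℕ} (h : Girth π g) (hg : g' ≤ g) : Girth π g' :=
  fun v cs L h0 h1 => h v cs L h0 (by omega)

end Vale.Agent.P089
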